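import Crest.Agent.R165.D7.Defs

/-! # R165 block D7: calculus in the source algebra -/

set_option autoImplicit false
noncomputable section
open Classical

namespace Crest.Agent.R165.D7

theorem bdT_tau {h : ℝ} (hh : 0 < h) (i : ℕ) : BdT h (tau i : Al) h := by
  have h0 : 0 ≤ h ^ (-(1 / 2 : ℝ)) := Real.rpow_nonneg hh.le _
  have h1 : h * h ^ (-(1 / 2 : ℝ)) * h ^ (-(1 / 2 : ℝ)) = 1 := by
    rw [mul_assoc, ← Real.rpow_add hh, show -(1 / 2 : ℝ) + -(1 / 2) = -1 by norm_num, Real.rpow_neg_one,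
      mul_inv_cancel₀ hh.ne']
  refine ⟨[(h, [h ^ (-(1 / 2 : ℝ)) • dz i false, h ^ (-(1 / 2 : ℝ)) • dz i true])], ?_, ?_, ?_⟩
  · simp only [List.mem_cons, List.not_mem_nil, or_false, forall_eq]
    rintro u (rfl | rfl)
    · exact ⟨i, false, _, (abs_of_nonneg h0).le, rfl⟩
    · exact ⟨i, true, _, (abs_of_nonneg h0).le, rfl⟩
  · simp only [List.map_cons, List.map_nil, List.sum_cons, List.sum_nil, add_zero, wedge_cons, wedge_nil, mul_one,
      map_smul, smul_mul_smul_comm, smul_smul, ← mul_assoc, h1, one_smul]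
    rfl
  · simp [abs_of_pos hh]

theorem bdT_anti {h h' : ℝ} (hh : 0 < h) (hle : h ≤ h') {F : Al} {c : ℝ} (hF : BdT h' F c) : BdT h F c := by
  refine GBd.mono hF ?_ le_rfl
  rintro u ⟨k, b, t, ht, rfl⟩
  exact ⟨k, b, t, ht.trans (Real.rpow_le_rpow_of_nonpos hh hle (by norm_num)), rfl⟩

theorem aa_split {I : Type} {U : Set (GV I)} {F : Gr I} {c : ℝ} (hF : GBd U F c) :
    ∃ c₀ : ℝ, |aug F| ≤ c₀ ∧ GBd U (F - algebraMap ℝ _ (aug F)) (c - c₀) := by
  obtain ⟨L, h1, rfl, h2⟩ := hF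
  suffices H : ∃ c₀ : ℝ, |aug (L.map fun p => p.1 • wedge p.2).sum| ≤ c₀ ∧
      GBd U ((L.map fun p => p.1 • wedge p.2).sum - algebraMap ℝ _ (aug (L.map fun p => p.1 • wedge p.2).sum))
        ((L.map fun p => |p.1|).sum - c₀) by
    obtain ⟨c₀, h3, h4⟩ := H
    exact ⟨c₀, h3, h4.mono subset_rfl (by linarith)⟩
  clear h2
  induction L with
  | nil => exact ⟨0, by simp, by simpa using GBd.zero U⟩
  | cons p L ih =>
    obtain ⟨c₀, h3, h4⟩ := ih fun q hq => h1 q (List.mem_cons_of_mem _ hq)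
    obtain ⟨a, l⟩ := p
    simp only [List.map_cons, List.sum_cons, map_add, map_smul]
    rcases l with _ | ⟨u, l⟩
    · refine ⟨|a| + c₀, (abs_add_le _ _).trans (add_le_add (by simp [wedge_nil]) h3), ?_⟩
      convert h4 using 1
      · simp [wedge_nil, Algebra.algebraMap_eq_smul_one]
      · ring
    · have e : aug (wedge (u :: l)) = 0 := by rw [wedge_cons, map_mul, aug_iota, zero_mul]
      refine ⟨c₀, by simpa [e] using h3, ?_⟩
      convert (((GBd.one U).wedge_mul (h1 _ List.mem_cons_self)).smul a).add h4 using 1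
      · simp [e, add_sub_assoc]
      · ring

/-- `exA` is a finite exponential series (see `P` for the analogous bound with `BdAx`; use `bdAx_BdT`) -/
theorem bdT_exA {h : ℝ} {F : Al} {c : ℝ} (hF : BdT h F c) : BdT h (exA augE F - 1) (Real.exp c - 1) := by
  have B := bdAx_BdT (H := HE) h
  obtain ⟨c₀, ht, hN⟩ := aa_split hF
  replace hN : BdT h (F - algebraMap ℝ Al (augE F)) (c - c₀) := hN
  replace ht : |augE F| ≤ c₀ := ht
  obtain ⟨k, hk⟩ := B.nil _ (alg_aug augE F)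
  rw [exA, IsNilpotent.exp_eq_sum (pow_eq_zero_of_le (Nat.le_add_right k 1) hk)]
  generalize F - algebraMap ℝ Al (augE F) = N at *
  generalize augE F = t at *
  have c1 := B.nonneg (Z := ∅) hN
  have h1 := B.sum (Z := ∅) (Finset.range k) fun i _ => B.smul (Z := ∅) (((i + 1).factorial : ℝ)⁻¹)
    (B.prod (Z := ∅) (Finset.range (i + 1)) fun _ _ => hN)
  have h2 := Real.sum_le_exp_of_nonneg c1 (k + 1)
  simp only [Finset.prod_const, Finset.card_range, abs_inv, Nat.abs_cast, inv_mul_eq_div] at h1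
  rw [Finset.sum_range_succ'] at h2 ⊢
  simp only [inv_natCast_smul_eq ℚ ℝ]
  simp only [Nat.factorial_zero, Nat.cast_one, pow_zero, div_one, inv_one, one_smul] at h2 ⊢
  obtain ⟨t1, t2⟩ := abs_le.1 ht
  have a1 := Real.exp_le_exp.2 t2
  have a2 := Real.add_one_le_exp t
  have a3 := Real.add_one_le_exp c₀
  have a4 : |Real.exp t - 1| ≤ Real.exp c₀ - 1 := abs_le.2 ⟨by linarith, by linarith⟩
  have h3 := B.add (Z := ∅) (B.smul (Z := ∅) (Real.exp t) h1) (B.smul (Z := ∅) (Real.exp t - 1) (B.one ∅))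
  convert B.mono (Z := ∅) (Z' := ∅) h3 le_rfl (c' := Real.exp c - 1) ?_ using 1
  · module
  · have b1 := mul_le_mul (show |Real.exp t| ≤ Real.exp c₀ by rwa [Real.abs_exp]) (le_sub_iff_add_le.2 h2)
      (B.nonneg (Z := ∅) h1) (Real.exp_pos c₀).le
    rw [mul_sub, ← Real.exp_add, add_sub_cancel] at b1
    linarith

theorem aa_aug_tau (i : ℕ) : augE (tau i : Al) = 0 := BA.matb_th2 _ _

theorem exA_affine (m : ℕ) (A : ℝ) (e : ℕ → ℝ) (F : Al) :
    exA augE (algebraMap ℝ Al A + ∑ i ∈ Finset.range m, e i • tau i + F) =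
      Real.exp A • ((∏ i ∈ Finset.range m, (1 + e i • tau i)) * exA augE F) := by
  have h1 : exA augE (algebraMap ℝ Al A) = Real.exp A • 1 := by simp [exA]
  have h2 : ∀ i, exA augE (e i • tau i : Al) = 1 + e i • tau i := fun i =>
    eq_add_of_sub_eq' (exA_of_sq (by rw [smul_mul_smul_comm, tau_sq, smul_zero]))
  rw [exA_add augE BA.matb_nil, exA_add augE BA.matb_nil, exA_sum augE BA.matb_nil, h1]
  simp only [h2, smul_mul_assoc, one_mul]

theorem aa_aug (s : Finset ℕ) (e : ℕ → ℝ) (Z : Al) : augE ((∏ i ∈ s, (1 + e i • tau i)) * Z) = augE Z := by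
  simp [map_prod, aa_aug_tau]

theorem aug_prod_mul (m : ℕ) (e : ℕ → ℝ) (Z : Al) : augE ((∏ i ∈ Finset.range m, (1 + e i • tau i)) * Z) = augE Z := by
  exact aa_aug _ e Z

theorem aa_add (l : List ℕ) (Z Z' : Al) : coefT l (Z + Z') = coefT l Z + coefT l Z' := by
  simp [coefT]

theorem aa_smul (l : List ℕ) (a : ℝ) (Z : Al) : coefT l (a • Z) = a * coefT l Z := by
  simp [coefT]

theorem aa_tau (i j : ℕ) (Z : Al) : coefT [i] (tau j * Z) = if i = j then augE Z else 0 := by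
  simp only [coefT, List.map_cons, List.map_nil, List.prod_cons, List.prod_nil, mul_one]
  change aug (ctr _ (ctr _ (ExteriorAlgebra.ι ℝ _ * ExteriorAlgebra.ι ℝ _ * (Z : Gr Ix)))) = _
  rw [mul_assoc, ctr_iota_mul, map_sub, map_smul, ctr_iota_mul, ctr_iota_mul (x := ctr _ _)]
  simp only [map_sub, map_smul, map_mul, aug_iota, zero_mul, sub_zero, Finsupp.lapply_apply, Finsupp.single_apply,
    smul_eq_mul]
  by_cases h : i = j
  · subst h
    simp [D1.augE_apply]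
  · simp [h, Ne.symm h]

theorem aa_coef (s : Finset ℕ) (i : ℕ) (e : ℕ → ℝ) (Z : Al) :
    coefT [i] ((∏ i ∈ s, (1 + e i • tau i)) * Z) = coefT [i] Z + (if i ∈ s then e i else 0) * augE Z := by
  induction s using Finset.induction_on with
  | empty => simp
  | insert j s hj ih =>
    rw [Finset.prod_insert hj, mul_assoc, add_mul, one_mul, smul_mul_assoc, aa_add, aa_smul, ih, aa_tau, aa_aug]
    by_cases h : i = j
    · subst h
      simp [hj]
    · simp [h]

theorem coef_prod_mul {m i : ℕ} (hi : i < m) (e : ℕ → ℝ) (Z : Al) :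
    coefT [i] ((∏ i ∈ Finset.range m, (1 + e i • tau i)) * Z) = coefT [i] Z + e i * augE Z := by
  rw [aa_coef, if_pos (Finset.mem_range.2 hi)]

theorem cor_smul (m : ℕ) (a a' : ℝ) (Z Z' : Al) : cor m (a • Z) (a' • Z') = a / a' * cor m Z Z' := by
  rcases eq_or_ne a' 0 with rfl | h
  · simp [cor]
  · simp only [cor, aa_smul, map_smul, smul_eq_mul, mul_div_mul_left _ _ h, smul_mul_assoc]
    exact (div_mul_div_comm _ _ _ _).symm

theorem cor_shift (m : ℕ) (e : ℕ → ℝ) (Z Z' : Al) :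
    cor m ((∏ i ∈ Finset.range m, (1 + e i • tau i)) * Z) ((∏ i ∈ Finset.range m, (1 + e i • tau i)) * Z') = cor m Z Z' := by
  rw [cor, cor, aug_prod_mul]
  rcases eq_or_ne (augE Z') 0 with h | h
  · rw [h, div_zero, div_zero]
  · rw [mul_comm _ Z, mul_assoc, ← Finset.prod_mul_distrib]
    congr 3
    refine Finset.prod_congr rfl fun i hi => ?_
    rw [coef_prod_mul (Finset.mem_range.1 hi), add_div, mul_div_cancel_right₀ _ h, add_mul, one_mul, mul_sub, mul_one,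
      smul_mul_smul_comm, tau_sq, smul_zero, add_smul]
    abel

/-- `Y` is bounded by `C` and `X - Y` by `D - C` -/
def pbCl (h : ℝ) (X Y : Al) (C D : ℝ) : Prop := BdT h Y C ∧ BdT h (X - Y) (D - C)

theorem pb_mono {h : ℝ} {F : Al} {c c' : ℝ} (hF : BdT h F c) (hc : c ≤ c') : BdT h F c' :=
  (bdAx_BdT h).mono (Z := ∅) (Z' := ∅) hF subset_rfl hc

theorem pbCl.mul {h : ℝ} {X Y X' Y' : Al} {C D C' D' : ℝ} (h1 : pbCl h X Y C D) (h2 : pbCl h X' Y' C' D') :
    pbCl h (X * X') (Y * Y') (C * C') (D * D') := by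
  have b := bdAx_BdT (H := HE) h
  refine ⟨b.mul (Z := ∅) h1.1 h2.1, ?_⟩
  have h3 : BdT h (Y' + (X' - Y')) (C' + (D' - C')) := b.add (Z := ∅) h2.1 h2.2
  have h4 : BdT h ((X - Y) * (Y' + (X' - Y')) + Y * (X' - Y')) ((D - C) * (C' + (D' - C')) + C * (D' - C')) :=
    b.add (Z := ∅) (b.mul (Z := ∅) h1.2 h3) (b.mul (Z := ∅) h1.1 h2.2)
  convert h4 using 1 <;> ring

theorem pbCl.prod {h : ℝ} {X Y : ℕ → Al} {C D : ℝ} (hX : ∀ i, pbCl h (X i) (Y i) C D) (m : ℕ) :
    pbCl h (∏ i ∈ Finset.range m, X i) (∏ i ∈ Finset.range m, Y i) (C ^ m) (D ^ m) := by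
  induction m with
  | zero =>
    simp only [Finset.range_zero, Finset.prod_empty, pow_zero]
    refine ⟨(bdAx_BdT h).one ∅, ?_⟩
    rw [sub_self, sub_self]
    exact (bdAx_BdT h).zero ∅
  | succ m ih =>
    rw [Finset.prod_range_succ, Finset.prod_range_succ, pow_succ, pow_succ]
    exact ih.mul (hX m)

theorem pb_add (l : List ℕ) (X Y : Al) : coefT l (X + Y) = coefT l X + coefT l Y := by
  simp [coefT]

theorem pb_lin (l : List ℕ) (a : ℝ) (X Y : Al) : coefT l (a • (1 : Al) * X - 1 * Y) = coefT l X * a - coefT l Y := by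
  rw [smul_one_mul, one_mul]
  simp [coefT, mul_comm]

theorem cor_pert (m : ℕ) (C₀ ε : ℝ) (hε : 0 < ε) : ∃ η > 0, ∀ (h : ℝ) (B B' r r' : Al), 0 < h → BdT h B C₀ → BdT h B' C₀ →
    augE B' = 1 → BdT h r η → BdT h r' η → |cor m (B + r) (B' + r') - cor m B B'| ≤ ε * h⁻¹ ^ m := by
  have hc : ContinuousAt (fun η : ℝ => (1 + C₀ + 2 * (C₀ + 1) * η) ^ (m + 2) - (1 + C₀) ^ (m + 2)) 0 := by fun_prop
  have h1 : ∀ᶠ η in nhds (0 : ℝ), (1 + C₀ + 2 * (C₀ + 1) * η) ^ (m + 2) - (1 + C₀) ^ (m + 2) < ε :=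
    hc.eventually_lt continuousAt_const (by simpa using hε)
  have h2 : ∀ᶠ η in nhds (0 : ℝ), η < 1 / 2 := eventually_lt_nhds (by norm_num)
  obtain ⟨η, ⟨hη1, hη2⟩, hη⟩ := (((h1.and h2).filter_mono nhdsWithin_le_nhds).and (self_mem_nhdsWithin (s := Set.Ioi (0 : ℝ)))).exists
  have hη0 : 0 < η := hη
  refine ⟨η, hη0, fun h B B' r r' hh hB hB' ha hr hr' => ?_⟩
  have b := bdAx_BdT (H := HE) h
  have hC : 1 ≤ C₀ := by
    have := b.aug (Z := ∅) hB'
    rwa [ha, abs_one] at this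
  have hα : |augE r'| ≤ η := b.aug (Z := ∅) hr'
  have ha' : augE (B' + r') = 1 + augE r' := by rw [map_add, ha]
  have hpos : 1 / 2 ≤ 1 + augE r' := by linarith [(abs_le.1 hα).1]
  have hpos' : 0 < 1 + augE r' := by linarith
  have key : ∀ x y : ℝ, |x| ≤ y → |x / (1 + augE r')| ≤ 2 * y := by
    intro x y hx
    rw [abs_div, abs_of_pos hpos', div_le_iff₀ hpos']
    nlinarith [abs_nonneg x]
  set D := 1 + C₀ + 2 * (C₀ + 1) * η with hD
  have hDC : D - (1 + C₀) = 2 * (C₀ + 1) * η := by rw [hD]; ring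
  have c1 : pbCl h ((1 + augE r')⁻¹ • (1 : Al)) 1 (1 + C₀) D := by
    refine ⟨pb_mono (b.one ∅) (by linarith), ?_⟩
    have e : (1 + augE r')⁻¹ • (1 : Al) - 1 = (-augE r' / (1 + augE r')) • (1 : Al) := by
      have e' : -augE r' / (1 + augE r') = (1 + augE r')⁻¹ - 1 := by field_simp; ring
      rw [e', sub_smul, one_smul]
    rw [e, hDC]
    refine pb_mono (b.smul (Z := ∅) _ (b.one ∅)) ?_
    have := key (-augE r') η (by rwa [abs_neg])
    nlinarith
  have c2 : pbCl h (B + r) B (1 + C₀) D := by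
    refine ⟨pb_mono hB (by linarith), ?_⟩
    rw [add_sub_cancel_left, hDC]
    exact pb_mono hr (by nlinarith)
  have c3 : ∀ i, pbCl h (1 - (coefT [i] (B' + r') / (1 + augE r')) • tau i) (1 - (coefT [i] B' / 1) • tau i) (1 + C₀) D := by
    intro i
    have k1 : |coefT [i] B'| * h ≤ C₀ := by
      have := hB'.coef hh [i]
      rwa [List.length_singleton, pow_one, ← div_eq_mul_inv, le_div_iff₀ hh] at this
    have k2 : |coefT [i] r'| * h ≤ η := by
      have := hr'.coef hh [i]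
      rwa [List.length_singleton, pow_one, ← div_eq_mul_inv, le_div_iff₀ hh] at this
    constructor
    · rw [div_one, sub_eq_add_neg, ← neg_smul]
      refine pb_mono (b.add (Z := ∅) (b.one ∅) (b.smul (Z := ∅) _ (bdT_tau hh i))) ?_
      rw [abs_neg]
      linarith
    · have e : (1 - (coefT [i] (B' + r') / (1 + augE r')) • tau i : Al) - (1 - (coefT [i] B' / 1) • tau i) =
          ((coefT [i] B' * augE r' - coefT [i] r') / (1 + augE r')) • tau i := by
        have e' : (coefT [i] B' * augE r' - coefT [i] r') / (1 + augE r') =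
            coefT [i] B' / 1 - coefT [i] (B' + r') / (1 + augE r') := by
          rw [pb_add]; field_simp; ring
        rw [e', sub_smul]
        abel
      rw [e, hDC]
      refine pb_mono (b.smul (Z := ∅) _ (bdT_tau hh i)) ?_
      have k3 : |coefT [i] B' * augE r' - coefT [i] r'| ≤ |coefT [i] B'| * η + |coefT [i] r'| := by
        refine (abs_sub _ _).trans ?_
        rw [abs_mul]
        gcongr
      have k4 := mul_le_mul_of_nonneg_right (key _ _ k3) hh.le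
      nlinarith
  have c4 := (c1.mul (c2.mul (pbCl.prod c3 m))).2.coef hh (List.range m)
  rw [pb_lin, List.length_range] at c4
  unfold cor
  rw [ha', ha, div_one, div_eq_mul_inv]
  refine c4.trans (mul_le_mul_of_nonneg_right ?_ (by positivity))
  refine le_trans (le_of_eq ?_) hη1.le
  ring

theorem alc_cst_tau (k : ℕ) : cstA (tau k : Al) = tau k := by
  refine Subtype.ext ?_
  rw [cstA, D1.coe_gmapE, tau, D1.coe_th2, map_mul, D1.gmap_vmap_th, D1.gmap_vmap_th]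
  rfl

theorem alc_cst_prod (m : ℕ) (e : ℕ → ℝ) :
    cstA (∏ i ∈ Finset.range m, (1 + e i • (tau i : Al))) = ∏ i ∈ Finset.range m, (1 + e i • tau i) := by
  simp only [map_prod, map_add, map_one, map_smul, alc_cst_tau]

theorem alc_mul (g : HE → HE → ℝ) (m : ℕ) (o : ℕ → Al) (e : ℕ → ℝ) :
    cstA (muE (extG g) (∏ i ∈ Finset.range m, (1 + tau i * o i))) * ∏ i ∈ Finset.range m, (1 + e i • (tau i : Al)) =
      cstA (muE (extG g) (∏ i ∈ Finset.range m, (1 + tau i * (o i + algebraMap ℝ Al (e i))))) := by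
  have h1 : ∏ i ∈ Finset.range m, (1 + tau i * (o i + algebraMap ℝ Al (e i))) =
      cstA (∏ i ∈ Finset.range m, (1 + e i • (tau i : Al))) * ∏ i ∈ Finset.range m, (1 + tau i * o i) := by
    rw [alc_cst_prod, ← Finset.prod_mul_distrib]
    refine Finset.prod_congr rfl fun i _ => ?_
    rw [Algebra.smul_def]
    linear_combination (-(algebraMap ℝ Al (e i) * o i)) * tau_sq (H := HE) i
  rw [h1, muE_cst_mul, map_mul, cstA_idem, alc_cst_prod, mul_comm]

theorem alc_coef (m : ℕ) (e : ℕ → ℝ) (l : List ℕ) (hl : l.Nodup) (hm : ∀ k ∈ l, k < m) :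
    coefT l (∏ i ∈ Finset.range m, (1 + e i • (tau i : Al))) = (l.map e).prod := by
  have h1 := alc_mul 0 m (fun _ => 0) e
  have h2 : muE (extG (0 : HE → HE → ℝ)) (1 : Al) = 1 := Subtype.ext (mu_one _)
  simp only [mul_zero, add_zero, Finset.prod_const_one, h2, map_one, one_mul, zero_add] at h1
  rw [h1, coefT_prod m 0 (fun i => algebraMap ℝ Al (e i)) (fun k => AlgHom.commutes _ _) l hl hm]
  have h3 : (l.map fun i => algebraMap ℝ Al (e i)).prod = (l.map e).prod • (1 : Al) := by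
    rw [← Algebra.algebraMap_eq_smul_one, map_list_prod, List.map_map]
    rfl
  rw [h3, Subalgebra.coe_smul, map_smul, Subalgebra.coe_one, gauss_one, smul_eq_mul, mul_one]

theorem alc_coef_sum {ι : Type} (l : List ℕ) (s : Finset ι) (p : ι → ℝ) (F : ι → Al) :
    coefT l (∑ γ ∈ s, p γ • F γ) = ∑ γ ∈ s, p γ * coefT l (F γ) := by
  simp only [coefT, AddSubmonoidClass.coe_finsetSum, Subalgebra.coe_smul, map_sum, map_smul, smul_eq_mul]

theorem alc_nil (F : Al) : coefT [] F = augE F := rfl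

theorem aug_coef_sum {ι : Type} (m : ℕ) (s : Finset ι) (p : ι → ℝ) (O : ℕ → ι → ℝ) :
    augE (∑ γ ∈ s, p γ • ∏ i ∈ Finset.range m, (1 + O i γ • (tau i : Al))) = ∑ γ ∈ s, p γ ∧
    (∀ i < m, coefT [i] (∑ γ ∈ s, p γ • ∏ i ∈ Finset.range m, (1 + O i γ • (tau i : Al))) = ∑ γ ∈ s, p γ * O i γ) ∧
    coefT (List.range m) (∑ γ ∈ s, p γ • ∏ i ∈ Finset.range m, (1 + O i γ • (tau i : Al))) =
      ∑ γ ∈ s, p γ * ∏ i ∈ Finset.range m, O i γ := by
  refine ⟨?_, fun i hi => ?_, ?_⟩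
  · rw [← alc_nil, alc_coef_sum]
    refine Finset.sum_congr rfl fun γ _ => ?_
    rw [alc_coef m (fun i => O i γ) [] List.nodup_nil (by simp)]
    simp
  · rw [alc_coef_sum]
    refine Finset.sum_congr rfl fun γ _ => ?_
    rw [alc_coef m (fun i => O i γ) [i] (List.nodup_singleton i) (by simpa using hi)]
    simp
  · rw [alc_coef_sum]
    refine Finset.sum_congr rfl fun γ _ => ?_
    rw [alc_coef m (fun i => O i γ) _ List.nodup_range fun k hk => List.mem_range.1 hk]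
    rfl

theorem cor_sum {ι : Type} (m : ℕ) (s : Finset ι) (p p' : ι → ℝ) (O : ℕ → ι → ℝ) :
    cor m (∑ γ ∈ s, p γ • ∏ i ∈ Finset.range m, (1 + O i γ • tau i))
        (∑ γ ∈ s, p' γ • ∏ i ∈ Finset.range m, (1 + O i γ • tau i)) =
      (∑ γ ∈ s, p γ * ∏ i ∈ Finset.range m, (O i γ - (∑ γ' ∈ s, p' γ' * O i γ') / ∑ γ' ∈ s, p' γ')) / ∑ γ ∈ s, p' γ := by
  obtain ⟨h1, h2, -⟩ := aug_coef_sum m s p' O
  rw [cor, h1, ← (aug_coef_sum m s p fun i γ => O i γ - (∑ γ' ∈ s, p' γ' * O i γ') / ∑ γ' ∈ s, p' γ').2.2, Finset.sum_mul]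
  congr 2
  refine Finset.sum_congr rfl fun γ _ => ?_
  rw [smul_mul_assoc, ← Finset.prod_mul_distrib]
  congr 1
  refine Finset.prod_congr rfl fun i hi => ?_
  rw [h2 i (Finset.mem_range.1 hi), Algebra.smul_def, Algebra.smul_def, Algebra.smul_def, map_sub]
  linear_combination (-(algebraMap ℝ Al (O i γ) * algebraMap ℝ Al ((∑ γ' ∈ s, p' γ' * O i γ') / ∑ γ' ∈ s, p' γ'))) *
    tau_sq (H := HE) i

theorem alc_kill (𝔤 : Geom) (i : ℕ) (c t : ℝ) :
    killA ∅ (c • (𝔤.oK i - algebraMap ℝ Al t)) = c • (𝔤.oK i - algebraMap ℝ Al t) := by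
  have h : killA ∅ (eM Sum.inl (𝔤.y i) : Al) = eM Sum.inl (𝔤.y i) := by
    refine Subtype.ext ?_
    rw [killA, D1.coe_gmapE, eM, D1.coe_th2, map_mul, D1.gmap_vmap_th, D1.gmap_vmap_th]
    rfl
  rw [map_smul, map_sub, AlgHom.commutes, Geom.oK, map_smul, h]

theorem aug_bgE (𝔤 : Geom) (g : HE → HE → ℝ) (cc : ℕ → ℝ) : augE (bgE 𝔤 g cc) = 1 := by
  rw [← alc_nil, bgE, coefT_prod _ _ _ (fun k => alc_kill 𝔤 k _ _) [] List.nodup_nil (by simp)]
  exact gauss_one _

theorem alc_cor (𝔤 𝔤' : Geom) (hm : 𝔤'.m = 𝔤.m) (g g' : HE → HE → ℝ) (c : ℝ) :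
    cor 𝔤.m (bgE 𝔤 g fun _ => c) (bgE 𝔤' g' fun _ => c) = c ^ 𝔤.m * gauss (extG g) ((∏ i ∈ Finset.range 𝔤.m,
      (𝔤.oK i - algebraMap ℝ Al (tc * gPl (he0 (𝔤.y i)) (he1 (𝔤.y i)) + gauss (extG g')
        ((𝔤'.oK i - algebraMap ℝ Al (tc * gPl (he0 (𝔤'.y i)) (he1 (𝔤'.y i))) : Al) : Gr Ix))) : Al) : Gr Ix) := by
  have h1 : ∀ i ∈ Finset.range 𝔤.m, (1 : Al) - coefT [i] (bgE 𝔤' g' fun _ => c) • tau i = 1 + (-(c * gauss (extG g')
      ((𝔤'.oK i - algebraMap ℝ Al (tc * gPl (he0 (𝔤'.y i)) (he1 (𝔤'.y i))) : Al) : Gr Ix))) • tau i := fun i hi => by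
    rw [bgE, coefT_prod _ _ _ (fun k => alc_kill 𝔤' k _ _) [i] (List.nodup_singleton i) (by simpa [hm] using hi),
      List.map_singleton, List.prod_singleton, Subalgebra.coe_smul, map_smul, smul_eq_mul, neg_smul, sub_eq_add_neg]
  have h2 : ∀ (x : Al) (t u : ℝ), c • (x - algebraMap ℝ Al t) + algebraMap ℝ Al (-(c * u)) = c • (x - algebraMap ℝ Al (t + u)) :=
    fun x t u => by
      simp only [Algebra.smul_def, map_neg, map_mul, map_add]
      ring
  simp only [cor, aug_bgE, div_one]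
  rw [Finset.prod_congr rfl h1, bgE, alc_mul]
  simp only [h2]
  rw [coefT_prod _ _ _ (fun k => alc_kill 𝔤 k _ _) _ List.nodup_range fun k hk => List.mem_range.1 hk, ← smul_eq_mul, ← map_smul,
    ← Subalgebra.coe_smul]
  congr 2
  rw [show c ^ 𝔤.m = ∏ _i ∈ Finset.range 𝔤.m, c by simp, ← Finset.prod_smul]
  rfl

/-- `muE_cst_mul`, `coefT_prod`: both sides are `Π cc · gauss g Π (X_i - gauss g' X'_i)` -/
theorem cor_scale (𝔤 𝔤' : Geom) (hm : 𝔤'.m = 𝔤.m) (g g' : HE → HE → ℝ) (z : ℝ) :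
    cor 𝔤.m (bgE 𝔤 g fun _ => -2 * z) (bgE 𝔤' g' fun _ => -2 * z) =
      z ^ 𝔤.m * cor 𝔤.m (bgE 𝔤 g fun _ => -2) (bgE 𝔤' g' fun _ => -2) := by
  rw [alc_cor 𝔤 𝔤' hm, alc_cor 𝔤 𝔤' hm, mul_pow, mul_comm ((-2 : ℝ) ^ _), mul_assoc]

end Crest.Agent.R165.D7
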