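import Crest.Agent.R165.D7.Defs

/-! # R165 block D7: comparison of the flow of a finite geometry with the plane flows (`flow_local` + `agree_*`) -/

set_option autoImplicit false
noncomputable section
open Classical

namespace Crest.Agent.R165.D7

variable {R : ℕ} {k : Cons} {V : Finset Site → ℝ} {c : ℝ × ℝ}

theorem typ_of_geo {p : Par} {K : ℕ} {Γs : ℝ} {𝔤 : Geom} {j : ℕ} (h : GeoOK p K Γs 𝔤 j) : 𝔤.Typ := by
  obtain ⟨ρ, -, ⟨E, -, h1, h2, -⟩ | ⟨T, -, -, h1, h2, -⟩⟩ := h.typ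
  · exact Or.inl ⟨E, h1, h2⟩
  · exact Or.inr ⟨T, h1, h2⟩

/-- otherwise a black end of the missing edge is a boundary site next to `y i` -/
theorem crit0 (hk : ConsOK R k) {𝔤 : Geom} {j i : ℕ} (h : GeoOK k.p k.K k.Γs 𝔤 j) (hi : i < 𝔤.m) :
    |𝔤.w ((𝔤.y i).1, 0)| = tc := by
  have h1 := D6.l_pos hk.pok (j + 1)
  have h2 : 20 * k.p.l (j + 1) ≤ k.K * k.p.l (j + 1) := Nat.mul_le_mul_right _ hk.big.2
  rw [D6.crit_near h.typ' (h.obs i hi).1 (h.obs i hi).2 (e := ((𝔤.y i).1, 0)) (by rw [supd_self]; omega), eray_0, mul_one,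
    abs_of_pos tc_pos.1]

theorem loca_kill (a : Site) (σ : Site → ℝ) (F : Al) :
    trA a σ (fun _ => none) (cstA F) = algebraMap ℝ Al (augE (cstA F)) := by
  have e : trV a σ (fun _ => none) ∘ₗ D4.cstV = 0 := by
    refine Finsupp.lhom_ext' fun i => LinearMap.ext_ring ?_
    rcases i with i | q
    · simp [D4.cstV, vmap]
    · simp [D4.cstV, vmap, trV, dz]
  refine Subtype.ext ?_
  rw [D4.cstA_eq, D4.augE_gmapE, trA, D4.coe_gmapE, D4.coe_gmapE, gmap_comp, e, gmap_zero]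
  rfl

/-- far from the observables the extracted energy is a scalar: `flow_local` with `𝔤' = 𝔤`, `a = 0`, `σ = 1`, `ρ = none` -/
theorem en_far (hk : ConsOK R k) (hV : PotOK R V) (μ : ℝ) {𝔤 : Geom} (hI : InitOK k.p R c 𝔤) {j : ℕ} {x : Site}
    (hx : ∀ i < 𝔤.m, k.p.l (j + 1) < supd x (𝔤.y i).1) :
    𝔤.en k.p c μ V j x = algebraMap ℝ Al (augE (𝔤.en k.p c μ V j x)) := by
  have h1 := D6.l_pos hk.pok (j + 1)
  have hA : Agree k.p 𝔤 𝔤 0 (fun _ => 1) (fun _ => none) (box x (0 + k.p.l (j + 1) / 20 + 5)) (j + 1) := by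
    refine ⟨fun _ => Or.inl rfl, fun e _ _ => by simp [trE], fun y _ => by rw [add_zero], fun B _ => by simp,
      fun _ _ _ h => by simp at h, fun _ _ h => by simp at h, fun i hi h => ?_, fun i _ u v _ _ => by simp,
      fun i _ y _ => by rw [add_zero], fun i _ y _ _ y' _ _ => by simp⟩
    have h2 := hx i hi
    rw [sub_zero, mem_box, supd_comm] at h
    omega
  have h2 := (flow_local hk.pok hk.l0.2 hV μ hI hI x 0 (j + 1) hA).2 j (Nat.lt_succ_self j) x (self_mem_box x 0)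
  rw [add_zero] at h2
  exact h2.trans (loca_kill _ _ _)

theorem lcb_obsC (R : ℕ) (Γ h : ℕ → ℝ) (c : ℝ × ℝ) (e : Edge) (𝔤 : Geom) (i : ℕ) (a : Site) (F : Al) :
    (gEn R Γ h c e).obsC 0 ((trA a (sgn 𝔤.S (𝔤.y i).1) (fun i' => if i' = i then some 0 else none) F : Al) : Gr Ix) =
      𝔤.obsC i (F : Gr Ix) := by
  have e1 : ∀ (y : Site) (G : Gr Ix), gmap (gaugeV (sgn ∅ y)) G = G := fun y G => by
    have : (fun i : HE => sgn ∅ y i.1) = fun _ => 1 := by funext i; simp [sgn]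
    rw [D4.gaugeV_eq, this, D4.sV_one]
  have e2 : ∀ k₁ k₂ k' : ℕ, (if k₁ = i then some 0 else none) = some k' → (if k₂ = i then some 0 else none) = some k' →
      k₁ = k₂ := fun k₁ k₂ k' e₁ e₂ => by
    split_ifs at e₁ e₂ with a₁ a₂
    exact a₁.trans a₂.symm
  change (-1 / tc : ℝ) • nu0 (gmap (gaugeV (sgn ∅ e.1)) (dTau 0 ((gmapE (trV _ _ _) F : Al) : Gr Ix))) =
    (-1 / tc : ℝ) • nu0 (gmap (gaugeV (sgn 𝔤.S (𝔤.y i).1)) (dTau i (F : Gr Ix)))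
  rw [e1, D4.coe_gmapE, D4.trV_eq, D4.sV_dTau _ _ (D4.rhoB_apply e2 (k := i) (if_pos rfl)), D4.gaugeV_eq,
    ← D4.nu0_sV (one_mul 1) (· + a) (D4.isSrc_rhoB fun i' => if i' = i then some 0 else none)
      (gmap (D4.sV _ id D4.dzq) _), D4.sV_comp']
  simp only [mul_one]
  rfl

/-- `agree_en` at the levels `i' < i` (`qm` vanishes at level `0`), `gEn_rot` -/
theorem cE_eq (hk : ConsOK R k) (hV : PotOK R V) (μ : ℝ) {𝔤 : Geom} (hI : InitOK k.p R c 𝔤) {js : ℕ}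
    (hG : ∀ j < js, GeoOK k.p k.K k.Γs 𝔤 j) (h0 : 0 < 𝔤.jN) {jc : ℕ} (h1 : jc ≤ js + 1) (h2 : (jc : ℕ∞) ≤ 𝔤.jN + 1)
    {i : ℕ} (hi : i < 𝔤.m) :
    𝔤.cE k.p c μ V jc i = (gEn R k.Gam (fun _ => 1) c ((0, 0), 0)).cE k.p c μ V jc 0 := by
  have hR := hk.l0.2
  have e0 : (gEn R k.Gam (fun _ => 1) c ((0, 0), (𝔤.y i).2)).cE k.p c μ V jc 0 =
      (gEn R k.Gam (fun _ => 1) c ((0, 0), 0)).cE k.p c μ V jc 0 := by
    generalize (𝔤.y i).2 = d
    fin_cases d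
    · rfl
    · exact gEn_rot hk.pok hR hV _ _ c μ jc
  rw [← e0]
  unfold Geom.cE
  congr 1
  refine Finset.sum_congr rfl fun j hj => ?_
  have hj' := Finset.mem_range.1 hj
  rcases j with _ | j
  · refine (Finset.sum_eq_zero fun x _ => ?_).trans (Finset.sum_eq_zero fun x _ => ?_).symm <;> exact map_zero _
  have hg := hG j (by omega)
  have h3 : ((j + 1 : ℕ) : ℕ∞) ≤ 𝔤.jN := by
    have h4 : ((j + 1 : ℕ) : ℕ∞) + 1 ≤ 𝔤.jN + 1 := le_trans (by exact_mod_cast hj') h2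
    exact (ENat.add_le_add_iff_right ENat.one_ne_top).1 h4
  have h4 : (j : ℕ∞) < 𝔤.jN := lt_of_lt_of_le (by exact_mod_cast Nat.lt_succ_self j) h3
  have h5 : 20 * k.p.l (j + 1) ≤ k.K * k.p.l (j + 1) := Nat.mul_le_mul_right _ hk.big.2
  have h6 := D3.lam_eq hk.pok (j + 1)
  have hA := agree_en hk hI (typ_of_geo hg) k.Gam (fun _ => 1) hi
    (r := 3 * k.p.l (j + 1) + k.p.l (j + 1) / 20 + 5) h0 h3 (crit0 hk hg hi) fun b hb => by
      rcases hb with hb | hb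
      · have := (hg.obs i hi).2 b hb
        omega
      · have := (hg.sep h4).2.1 i hi b hb
        omega
  have hq := (flow_local hk.pok hR hV μ hI (initOK_plane hk c k.Gam (fun _ => 1) _).2.2 _ _ _ hA).1.qm
  refine Finset.sum_bij' (fun x _ => x + -(𝔤.y i).1) (fun x _ => x + (𝔤.y i).1) (fun x hx => ?_) (fun x hx => ?_)
    (fun x _ => neg_add_cancel_right _ _) (fun x _ => add_neg_cancel_right _ _) fun x hx => ?_
  · change _ ∈ box (0, 0) _
    rw [mem_box] at hx ⊢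
    rwa [← sub_eq_add_neg, show ((0, 0) : Site) = 0 from rfl, supd_sub]
  · change _ ∈ box (0, 0) _ at hx
    rw [mem_box] at hx ⊢
    rwa [← supd_sub, add_sub_cancel_right]
  · rw [hq x hx, lcb_obsC]

theorem locc_coef (a : Site) (σ : Site → ℝ) (i : ℕ) (F : Al) :
    coefT [0] (trA a σ (fun i' => if i' = i then some 0 else none) F) = coefT [i] F := by
  have key : ∀ (b : Bool) (x : Gr Ix), ctr (Finsupp.lapply (Sum.inr (0, b)))
      (gmap (trV a σ fun i' => if i' = i then some 0 else none) x) =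
      gmap (trV a σ fun i' => if i' = i then some 0 else none) (ctr (Finsupp.lapply (Sum.inr (i, b))) x) := fun b x =>
    (gmap_ctr _ (fun j _ => by
      rcases j with a | ⟨q, b'⟩
      · simp [trV, D1.vmap_single, dl]
      · by_cases h : q = i <;> simp [trV, D1.vmap_single, dz, Finsupp.single_apply, h]) (mem_supA_univ x)).symm
  simp only [coefT, List.map_cons, List.map_nil, List.prod_cons, List.prod_nil, mul_one, trA, D1.coe_gmapE, dTau,
    LinearMap.comp_apply]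
  rw [key, key, D1.aug_gmap]

theorem locc_far (hk : ConsOK R k) {𝔤 : Geom} {j i : ℕ} (h : GeoOK k.p k.K k.Γs 𝔤 j) (hi : i < 𝔤.m)
    (hS : (j : ℕ∞) < 𝔤.jN ∨ 𝔤.S = ∅) :
    𝔤.Far (2 * (k.p.rho j + k.p.l (j + 1) / 20 + 5) + 5 * k.p.l (j + 1)) (𝔤.y i).1 := fun b hb => by
  have h1 := D4.l_ge hk.pok j
  have h2 : 20 * k.p.l (j + 1) ≤ k.K * k.p.l (j + 1) := Nat.mul_le_mul_right _ hk.big.2
  have h3 : k.K * k.p.l (j + 1) ≤ supd (𝔤.y i).1 b := hb.elim ((h.obs i hi).2 b) fun hb =>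
    hS.elim (fun hj => (h.sep hj).2.1 i hi b hb) fun e => by simp [e] at hb
  rw [Par.rho]; omega

/-- `agree_en` at the level `j + 1` -/
theorem eT_eq (hk : ConsOK R k) (hV : PotOK R V) (μ : ℝ) {𝔤 : Geom} (hI : InitOK k.p R c 𝔤) {j₁ : ℕ}
    (hG : ∀ j < j₁, GeoOK k.p k.K k.Γs 𝔤 j) (h0 : 0 < 𝔤.jN) (h2 : (j₁ : ℕ∞) ≤ 𝔤.jN) {i : ℕ} (hi : i < 𝔤.m) :
    eT k 𝔤 c μ V j₁ i = eT k (gEn R k.Gam (fun _ => 1) c ((0, 0), (𝔤.y i).2)) c μ V j₁ 0 := by
  refine Finset.sum_congr rfl fun j hj => ?_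
  have hj := Finset.mem_range.1 hj
  have h3 : ((j + 1 : ℕ) : ℕ∞) ≤ 𝔤.jN := le_trans (by exact_mod_cast hj) h2
  have h4 := (flow_local hk.pok hk.l0.2 hV μ hI (initOK_plane hk c k.Gam (fun _ => 1) ((0, 0), (𝔤.y i).2)).2.2 _ _ _
    (agree_en hk hI (typ_of_geo (hG j hj)) _ _ hi h0 h3 (crit0 hk (hG j hj) hi)
      (locc_far hk (hG j hj) hi (Or.inl (lt_of_lt_of_le (by exact_mod_cast hj) h2))))).2 j j.lt_succ_self
  refine Finset.sum_equiv (Equiv.addRight (-(𝔤.y i).1)) (fun x => ?_) fun x hx => ?_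
  · rw [mem_box, mem_box, ← supd_add x _ (-(𝔤.y i).1), add_neg_cancel]; rfl
  · rw [Equiv.coe_addRight, h4 x hx, locc_coef]

/-- `agree_obs` at the level `j + 1` -/
theorem eT_obs (hk : ConsOK R k) (hV : PotOK R V) (μ : ℝ) {𝔤 : Geom} (hI : InitOK k.p R c 𝔤) {j₁ : ℕ}
    (hG : ∀ j < j₁, GeoOK k.p k.K k.Γs 𝔤 j) {O : Cfg → ℝ} {r : ℕ} (hS : 𝔤.S = ∅) (hm : 𝔤.m = 1) (hN : 𝔤.jN = 0)
    (hy : 𝔤.y = fun _ => ((0, 0), 0)) (hO : 𝔤.O = fun _ => O) (ho : 𝔤.oS = fun _ => box 0 r) :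
    eT k 𝔤 c μ V j₁ 0 = eT k (gObs k R 1 O r) c μ V j₁ 0 := by
  refine Finset.sum_congr rfl fun j hj => ?_
  have hj := Finset.mem_range.1 hj
  have h0 : 0 < 𝔤.m := by omega
  have hP := (initOK_plane hk c k.Gam (fun _ => 1) ((0, 0), 0)).1
  have hI' : InitOK k.p R c (gPlane R k.Gam (fun _ => 1) 0 1 𝔤.y 𝔤.O 𝔤.oS) := ⟨hP.shape, hP.full, hP.crit, hP.wle,
    fun i hi => let ⟨a, b, _, d⟩ := hI.obs i (hm ▸ hi); ⟨a, b, Set.subset_univ _, d⟩, fun h => absurd h (lt_irrefl _)⟩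
  have h4 := (flow_local hk.pok hk.l0.2 hV μ hI hI' _ _ _
    (agree_obs hk hI (typ_of_geo (hG j hj)) _ _ hS hm hN (crit0 hk (hG j hj) h0)
      (locc_far hk (hG j hj) h0 (Or.inr hS)))).2 j j.lt_succ_self
  rw [hy, hO, ho] at h4
  rw [hy]
  refine Finset.sum_congr rfl fun x hx => ?_
  rw [← locc_coef 0 (fun _ => 1) 0, ← h4 x hx, add_zero]; rfl

theorem locd_aug (a : Site) (σ : Site → ℝ) (ρ : ℕ → Option ℕ) (F : Al) : augE (trA a σ ρ F) = augE F := D4.augE_gmapE _ F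

theorem locd_far (hk : ConsOK R k) (hV : PotOK R V) (μ : ℝ) {𝔤 : Geom} {w₀ : Edge → ℝ}
    (hw : ∀ e, 𝔤.w e = w₀ e * eray 𝔤.S e) (hI : InitOK k.p R c 𝔤) (hI₀ : InitOK k.p R c (𝔤.noSpin w₀)) {j : ℕ} {x : Site}
    (hx : ∀ v ∈ 𝔤.S, 6 * k.p.l (j + 1) < supd x v) :
    augE (𝔤.en k.p c μ V j x) = augE ((𝔤.noSpin w₀).en k.p c μ V j x) := by
  have hl := D6.l_pos hk.pok (j + 1)
  have hn : InitOK k.p R c { 𝔤.noSpin w₀ with m := 0 } :=
    ⟨hI₀.shape, hI₀.full, hI₀.crit, hI₀.wle, fun i hi => absurd hi (Nat.not_lt_zero i), fun _ i hi => absurd hi (Nat.not_lt_zero i)⟩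
  have h1 := (flow_local hk.pok hk.l0.2 hV μ hI hn x 0 (j + 1) (agree_noSpin hk hw fun v hv => by
    have := hx v hv
    omega)).2 j (Nat.lt_succ_self j) x (self_mem_box x 0)
  have h2 := (flow_local hk.pok hk.l0.2 hV μ hI₀ hn x 0 (j + 1) (agree_noSpin (𝔤 := 𝔤.noSpin w₀) (w₀ := w₀) hk
    (fun e => by rw [show (𝔤.noSpin w₀).S = ∅ from rfl, D5.consb_eray, mul_one]; rfl)
    fun v hv => absurd hv (Finset.notMem_empty v))).2 j (Nat.lt_succ_self j) x (self_mem_box x 0)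
  rw [← locd_aug _ _ _ (𝔤.en k.p c μ V j x), ← h1, h2, locd_aug]

theorem locd_near (hk : ConsOK R k) (hV : PotOK R V) (μ : ℝ) {𝔤 : Geom} {w₀ : Edge → ℝ}
    (hw : ∀ e, 𝔤.w e = w₀ e * eray 𝔤.S e) (hI : InitOK k.p R c 𝔤) (hI₀ : InitOK k.p R c (𝔤.noSpin w₀)) {j : ℕ}
    (hG : GeoOK k.p k.K k.Γs 𝔤 j) (hG₀ : GeoOK k.p k.K k.Γs (𝔤.noSpin w₀) j) (hj : ((j + 1 : ℕ) : ℕ∞) < 𝔤.jN) {v : Site}
    (hv : v ∈ 𝔤.S) {x : Site} (hx : x ∈ box v (6 * k.p.l (j + 1))) :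
    augE (𝔤.en k.p c μ V j x) - augE ((𝔤.noSpin w₀).en k.p c μ V j x) =
      augE ((gBr0 R k.Gam).en k.p c μ V j (x + -v)) - augE ((gPl0 R k.Gam).en k.p c μ V j (x + -v)) := by
  have hl := D6.l_pos hk.pok (j + 1)
  have hK : 20 * k.p.l (j + 1) ≤ k.K * k.p.l (j + 1) := Nat.mul_le_mul_right _ hk.big.2
  have hj' : (j : ℕ∞) < 𝔤.jN := lt_trans (by exact_mod_cast Nat.lt_succ_self j) hj
  obtain ⟨p1, p2, -⟩ := initOK_plane hk c k.Gam k.Gam ((0, 0), 0)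
  obtain ⟨s1, s2⟩ := hG.spin v hv
  have h1 := (flow_local hk.pok hk.l0.2 hV μ hI p2 v (6 * k.p.l (j + 1)) (j + 1)
    (agree_branch hk hI (typ_of_geo hG) k.Gam hv hj s1 fun b hb => by
      rcases hb with hb | hb
      · have := s2 b hb
        omega
      · have := (hG.sep hj').1 v hv b (Finset.mem_of_mem_erase hb) (Finset.ne_of_mem_erase hb).symm
        omega)).2 j (Nat.lt_succ_self j) x hx
  have h2 := (flow_local hk.pok hk.l0.2 hV μ hI₀ p1 v (6 * k.p.l (j + 1)) (j + 1)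
    (D6.agree_gen hk hI₀ (typ_of_geo hG₀) k.Gam _ _ _ _ _ _ (-v) (fun _ => none)
      (by rwa [hw, eray_0, mul_one] at s1) (fun b hb => by
        rcases hb with hb | hb
        · have := s2 b hb
          omega
        · exact absurd hb (Finset.notMem_empty b)) (fun _ _ _ h => by cases h) (fun _ _ h => by cases h)
      fun _ h => absurd h (Nat.not_lt_zero _))).2 j (Nat.lt_succ_self j) x hx
  rw [h1, h2, locd_aug, locd_aug]

/-- far from the spins: `agree_noSpin` for `𝔤` and for `𝔤.noSpin w₀`; within `6 ℓ_{j+1}` of a spin (`j < j₁`):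
`agree_branch` for `𝔤`, `agree_plane` for `𝔤.noSpin w₀` and translation invariance of the plane flow (`s0_symm`, `next_symm`,
or `flow_local` for the plane geometry with itself) -/
theorem aS_diff (hk : ConsOK R k) (hV : PotOK R V) (μ : ℝ) {𝔤 : Geom} {w₀ : Edge → ℝ}
    (hw : ∀ e, 𝔤.w e = w₀ e * eray 𝔤.S e) (hI : InitOK k.p R c 𝔤) (hI₀ : InitOK k.p R c (𝔤.noSpin w₀)) {j₁ js : ℕ}
    (h1 : j₁ ≤ js) (hG : ∀ j < js, GeoOK k.p k.K k.Γs 𝔤 j) (hG₀ : ∀ j < js, GeoOK k.p k.K k.Γs (𝔤.noSpin w₀) j)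
    (h2 : (j₁ : ℕ∞) < 𝔤.jN) {Λf P : Finset Site} (hP : 𝔤.S ⊆ P) (hΛ : ∀ v ∈ 𝔤.S, box v (6 * k.p.l js) ⊆ Λf) :
    aS k 𝔤 c μ V j₁ js Λf P = aS k (𝔤.noSpin w₀) c μ V j₁ js Λf P + 𝔤.S.card * lZp k R V c μ j₁ := by
  rw [← sub_eq_iff_eq_add', aS, aS, ← Finset.sum_sub_distrib, lZp, Finset.mul_sum,
    ← Finset.sum_subset (Finset.range_mono h1) fun j _ hj => ?_]
  · refine Finset.sum_congr rfl fun j hj => ?_
    have hj := Finset.mem_range.1 hj
    have hj1 : ((j + 1 : ℕ) : ℕ∞) < 𝔤.jN := lt_of_le_of_lt (by exact_mod_cast hj) h2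
    have hj' : (j : ℕ∞) < 𝔤.jN := lt_trans (by exact_mod_cast Nat.lt_succ_self j) hj1
    have hl := D6.l_pos hk.pok (j + 1)
    have hK : 20 * k.p.l (j + 1) ≤ k.K * k.p.l (j + 1) := Nat.mul_le_mul_right _ hk.big.2
    have hm := D6.l_mono hk.pok (show j + 1 ≤ js by omega)
    rw [Finset.filter_true_of_mem fun x _ => Or.inl hj, ← Finset.sum_sub_distrib,
      ← Finset.sum_subset (s₁ := 𝔤.S.biUnion fun v => box v (6 * k.p.l (j + 1)))
        (Finset.biUnion_subset.2 fun v hv => (box_mono v (by omega)).trans (hΛ v hv)) fun x _ hx => ?_,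
      Finset.sum_biUnion fun v hv v' hv' hne => ?_, ← nsmul_eq_mul, ← Finset.sum_const]
    · refine Finset.sum_congr rfl fun v hv => ?_
      refine Finset.sum_bij' (fun x _ => x + -v) (fun x _ => x + v) (fun x hx => ?_) (fun x hx => ?_) (fun x _ => by simp)
        (fun x _ => by simp) fun x hx => locd_near hk hV μ hw hI hI₀ (hG j (by omega)) (hG₀ j (by omega)) hj1 hv hx
      · rw [mem_box'] at hx ⊢
        simp only [Prod.fst_add, Prod.snd_add, Prod.fst_neg, Prod.snd_neg, Prod.fst_zero, Prod.snd_zero]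
        omega
      · rw [mem_box'] at hx ⊢
        simp only [Prod.fst_add, Prod.snd_add, Prod.fst_zero, Prod.snd_zero] at hx ⊢
        omega
    · refine Finset.disjoint_left.2 fun x hx hx' => ?_
      have a1 := mem_box.1 hx
      have a2 := mem_box.1 hx'
      have a3 := ((hG j (by omega)).sep hj').1 v hv v' hv' hne
      have a4 := supd_triangle v x v'
      rw [supd_comm v x] at a4
      omega
    · refine sub_eq_zero.2 (locd_far hk hV μ hw hI hI₀ fun v hv => not_le.1 fun h => hx ?_)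
      exact Finset.mem_biUnion.2 ⟨v, hv, mem_box.2 h⟩
  · refine sub_eq_zero.2 (Finset.sum_congr rfl fun x hx => locd_far hk hV μ hw hI hI₀ fun v hv => ?_)
    exact ((Finset.mem_filter.1 hx).2.resolve_left fun h => hj (Finset.mem_range.2 h)) v (hP hv)

end Crest.Agent.R165.D7
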