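import Crest.Agent.R165.D7.Alg
import Crest.Agent.R165.D7.Loc

/-! # R165 block D7: decomposition of the generating function -/

set_option autoImplicit false
noncomputable section
open Classical

namespace Crest.Agent.R165.D7

variable {R : ℕ} {k : Cons} {V : Finset Site → ℝ} {c : ℝ × ℝ} {J lam C₁ B₁ ε₂ CM B : ℝ}

theorem Good.flow (h : Ctx k R V c J lam C₁ B₁ ε₂ CM B) {𝔤 : Geom} {g : HE → HE → ℝ} {js : ℕ} {Λ₀ Λf : Finset Site}
    {𝒮 : Finset (Finset Site)} {E₁ : Finset Edge} {N : ℕ} (hg : Good k R c ε₂ CM 𝔤 g js Λ₀ Λf 𝒮 E₁ N) :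
    FlowOK k 𝔤 c (betaOf J c * lam) V js (C₁ * B) :=
  h.fl 𝔤 c _ B js h.tu h.sm.1 h.sm.2.1 hg.pos hg.init hg.geo hg.jN hg.gam.1 hg.gam.2 (Or.inr hg.src)

/-- a sum over a set covered by `n` boxes of radius `M ℓ` -/
theorem sn_sum {h : ℝ} {l M : ℕ} (hl : 1 ≤ l) {q : Site → Al} {α : ℝ} (hq : geoZ.SN (fun _ F t => BdT h F t) l q α)
    (P A : Finset Site) (hA : ∀ x ∈ A, ∃ v ∈ P, supd x v ≤ M * l) :
    BdT h (∑ x ∈ A, q x) (P.card * (2 * M + 3) ^ 2 * α) := by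
  have hα := hq.nonneg 0
  obtain ⟨b, h1, h2⟩ := hq
  choose C hC hC' using fun v => geoZ.cover v (M * l) l hl
  have hB := bdAx_BdT (H := HE) h
  have h3 := Geo.sum_cover (κ := fun _ => 1) (fun x => (h1 x).1) h2 A (P.biUnion C) (fun _ => 1) (fun x hx => by
    obtain ⟨v, hv, h4⟩ := hA x hx
    obtain ⟨y, hy, h5⟩ := hC' v x (by rw [geoZ.mem_ball, D2.geoZ_d, supd_comm]; exact h4)
    exact ⟨y, Finset.mem_biUnion.2 ⟨v, hv, hy⟩, h5⟩) (fun _ _ _ _ => le_rfl) fun _ => zero_le_one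
  refine hB.mono (Z := ∅) (Z' := ∅) (hB.sum (Z := ∅) A fun x _ => (h1 x).2) subset_rfl ?_
  simp only [one_mul, Finset.sum_const, nsmul_eq_mul, mul_one] at h3
  refine h3.trans (mul_le_mul_of_nonneg_right ?_ hα)
  have h4 : (P.biUnion C).card ≤ P.card * (2 * M + 3) ^ 2 :=
    Finset.card_biUnion_le_card_mul _ _ _ fun v _ => by simpa [Nat.mul_div_cancel _ hl] using hC v
  exact_mod_cast h4

theorem deca_xi {X A : Type} [CommRing A] [Algebra ℝ A] [Algebra ℚ A] [Nonempty X] (G : Geo X) {e : A →ₐ[ℝ] ℝ}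
    {Bd : Finset X → A → ℝ → Prop} (hB : BdAx Bd e) {l : ℕ} {a ε : ℝ} (ha : 1 ≤ a) {M : Finset X → A} {Λ : Finset X} {N : ℕ}
    (hN : G.cov l Λ ≤ N) (hM : G.PN Bd l a M ε) : Bd Λ (G.Xi l M Λ) (Real.exp (N * ε)) := by
  obtain ⟨m, m1, m2⟩ := hM
  obtain ⟨C, hC, hc⟩ := G.cov_spec l Λ
  obtain ⟨y₀⟩ := ‹Nonempty X›
  have hCN : (C.card : ℝ) ≤ N := by exact_mod_cast hC.trans_le hN
  have hP : ∑ Y ∈ Λ.powerset.filter Finset.Nonempty, m Y ≤ N * ε :=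
    ((Finset.sum_le_sum fun Y _ => le_mul_of_one_le_left (m1 Y).1 (one_le_pow₀ ha)).trans
      (Geo.NB.near m2 (by positivity) (fun Y => (m1 Y).1) C _ fun Y hY => by
        obtain ⟨h1, z, hz⟩ := Finset.mem_filter.1 hY
        obtain ⟨c, h2, h3⟩ := hc z (Finset.mem_powerset.1 h1 hz)
        exact ⟨c, h2, z, hz, h3⟩)).trans (mul_le_mul_of_nonneg_right hCN (Geo.NB.nonneg m2 y₀))
  have p1 := (sm_prod (Λ.powerset.filter Finset.Nonempty) (fun Y => (m1 Y).1) fun Y => (m1 Y).1).1.trans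
    (Real.exp_le_exp.2 hP)
  simp only [Finset.prod_one_add] at p1
  exact hB.mono (hB.sum _ fun 𝒳 h => hB.prod _ fun Y hY => hB.mono (m1 Y).2 ((Geo.mem_fams.1 h).1 Y hY) le_rfl) subset_rfl
    ((Finset.sum_le_sum_of_subset_of_nonneg (sm_fams G l Λ) fun 𝒳 _ _ => Finset.prod_nonneg fun Y _ => (m1 Y).1).trans p1)

/-- norm of the background (`PN` bound of `M`, `final_cst`) -/
theorem bgF_bound (h : Ctx k R V c J lam C₁ B₁ ε₂ CM B) {𝔤 : Geom} {g : HE → HE → ℝ} {js : ℕ} {Λ₀ Λf : Finset Site}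
    {𝒮 : Finset (Finset Site)} {E₁ : Finset Edge} {N : ℕ} (hg : Good k R c ε₂ CM 𝔤 g js Λ₀ Λf 𝒮 E₁ N) :
    BdT (𝔤.h js) (bgF k 𝔤 c (betaOf J c * lam) V g js Λf) (Real.exp (N * k.ε)) := by
  have hh : 0 < 𝔤.h js := by
    have := (hg.geo (js - 1) (Nat.sub_lt hg.pos one_pos)).wt.2.1
    rwa [Nat.sub_add_cancel (show 1 ≤ js from hg.pos)] at this
  have ha : 1 ≤ k.a := by linarith [h.hk.one.2.1, h.hk.one.2.2.1]
  refine final_cst hh hg.gram (fun u hu => ?_)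
    (deca_xi geoZ (bdAx_BdU (𝔤.U k.p js)) ha hg.cov ((Good.flow h hg).M js le_rfl))
  simp only [Set.mem_iUnion] at hu
  obtain ⟨y, -, hu | ⟨i, b, t, -, -, h1, h2⟩⟩ := hu
  · exact Or.inl fun i hi => (hu.1 i hi).imp fun a h => h.1
  · exact Or.inr ⟨i, b, t, h1, h2⟩

theorem decb_geom (j₁ js : ℕ) : ∑ j ∈ Finset.Ico j₁ js, vth ^ j ≤ 2 * vth ^ j₁ := by
  have h := geom_sum_Ico_le_of_lt_one (x := vth) (by norm_num [vth]) (by norm_num [vth]) (m := j₁) (n := js)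
  refine h.trans ?_
  have h0 : 0 ≤ vth ^ j₁ := pow_nonneg (by norm_num [vth]) _
  rw [div_le_iff₀ (by norm_num [vth])]
  generalize vth ^ j₁ = t at *
  norm_num [vth]
  linarith

theorem decb_split (hk : ConsOK R k) (hV : PotOK R V) (μ : ℝ) {𝔤 : Geom} (hI : InitOK k.p R c 𝔤) {j₁ js : ℕ}
    (hG : ∀ j < js, GeoOK k.p k.K k.Γs 𝔤 j) (h1 : j₁ ≤ js) (h2 : (j₁ : ℕ∞) ≤ 𝔤.jN ∨ 𝔤.m ≤ 1) {Λf P : Finset Site}
    (hP : ∀ i < 𝔤.m, (𝔤.y i).1 ∈ P ∧ box (𝔤.y i).1 (6 * k.p.l js) ⊆ Λf) :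
    ∑ j ∈ Finset.range js, ∑ x ∈ Λf, 𝔤.en k.p c μ V j x =
      algebraMap ℝ Al (aS k 𝔤 c μ V j₁ js Λf P) + ∑ i ∈ Finset.range 𝔤.m, eT k 𝔤 c μ V j₁ i • tau i +
        ∑ j ∈ Finset.Ico j₁ js, ∑ x ∈ Λf.filter (fun x => ¬ ∀ v ∈ P, 6 * k.p.l (j + 1) < supd x v), 𝔤.en k.p c μ V j x := by
  have e1 : ∀ j ∈ Finset.range j₁, ∑ x ∈ Λf, 𝔤.en k.p c μ V j x =
      algebraMap ℝ Al (∑ x ∈ Λf.filter (fun x => j < j₁ ∨ ∀ v ∈ P, 6 * k.p.l (j + 1) < supd x v), augE (𝔤.en k.p c μ V j x)) +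
        ∑ i ∈ Finset.range 𝔤.m, (∑ x ∈ box (𝔤.y i).1 (k.p.rho j), coefT [i] (𝔤.en k.p c μ V j x)) • tau i := by
    intro j hj
    rw [Finset.mem_range] at hj
    have hj' : (j : ℕ∞) < 𝔤.jN ∨ 𝔤.m ≤ 1 := h2.imp_left fun h => lt_of_lt_of_le (by exact_mod_cast hj) h
    rw [Finset.sum_congr rfl fun x _ => en_form hk μ hI (hG j (by omega)) hj' x, Finset.sum_add_distrib,
      Finset.filter_true_of_mem fun x _ => Or.inl hj, map_sum, Finset.sum_comm]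
    congr 1
    refine Finset.sum_congr rfl fun i hi => ?_
    rw [← Finset.sum_smul, ← Finset.sum_filter]
    congr 2
    ext x
    rw [Finset.mem_filter, mem_box, and_iff_right_iff_imp]
    intro hx
    refine (hP i (Finset.mem_range.1 hi)).2 (mem_box.2 (hx.trans ?_))
    have a1 := D6.l_mono hk.pok (show j ≤ js by omega)
    have a2 := D6.l_pos hk.pok j
    unfold Par.rho
    omega
  have e2 : ∀ j ∈ Finset.Ico j₁ js, ∑ x ∈ Λf, 𝔤.en k.p c μ V j x =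
      algebraMap ℝ Al (∑ x ∈ Λf.filter (fun x => j < j₁ ∨ ∀ v ∈ P, 6 * k.p.l (j + 1) < supd x v), augE (𝔤.en k.p c μ V j x)) +
        ∑ x ∈ Λf.filter (fun x => ¬ ∀ v ∈ P, 6 * k.p.l (j + 1) < supd x v), 𝔤.en k.p c μ V j x := by
    intro j hj
    have hj1 : ¬ j < j₁ := not_lt.2 (Finset.mem_Ico.1 hj).1
    rw [← Finset.sum_filter_add_sum_filter_not Λf (fun x => ∀ v ∈ P, 6 * k.p.l (j + 1) < supd x v), map_sum]
    congr 1
    refine Finset.sum_congr (Finset.filter_congr fun x _ => (or_iff_right hj1).symm) fun x hx => ?_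
    refine en_far hk hV μ hI fun i hi => ?_
    have := ((or_iff_right hj1).1 (Finset.mem_filter.1 hx).2) _ (hP i hi).1
    omega
  rw [aS, ← Finset.sum_range_add_sum_Ico _ h1, ← Finset.sum_range_add_sum_Ico _ h1, Finset.sum_congr rfl e1,
    Finset.sum_congr rfl e2, Finset.sum_add_distrib, Finset.sum_add_distrib, map_add, map_sum (algebraMap ℝ Al) _ (Finset.range j₁),
    map_sum (algebraMap ℝ Al) _ (Finset.Ico j₁ js), Finset.sum_comm (s := Finset.range j₁) (t := Finset.range 𝔤.m)]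
  simp only [eT, Finset.sum_smul]
  abel

/-- `final_formula`; steps `j < j₁`: `en_form`; steps `j ≥ j₁`: `en_far` away from `P`, `sn_sum` near `P`;
`exA_affine`, `bdT_exA`; `C₁ B ≤ 1` -/
theorem dec (h : Ctx k R V c J lam C₁ B₁ ε₂ CM B) (N np : ℕ) (η : ℝ) (hη : 0 < η) : ∃ j₀ : ℕ,
    ∀ (𝔤 : Geom) (g : HE → HE → ℝ) (j₁ js : ℕ) (Λ₀ Λf P : Finset Site) (𝒮 : Finset (Finset Site)) (E₁ : Finset Edge),
      Good k R c ε₂ CM 𝔤 g js Λ₀ Λf 𝒮 E₁ N → j₀ ≤ j₁ → j₁ ≤ js → ((j₁ : ℕ∞) ≤ 𝔤.jN ∨ 𝔤.m ≤ 1) → P.card ≤ np →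
      (∀ i < 𝔤.m, (𝔤.y i).1 ∈ P ∧ box (𝔤.y i).1 (6 * k.p.l js) ⊆ Λf) → (∀ j, j₁ ≤ j → j < js → 𝔤.h js ≤ 𝔤.h (j + 1)) →
      ∃ r : Al, BdT (𝔤.h js) r η ∧ 𝔤.Ztau c (betaOf J c * lam) V 𝒮 E₁ =
        (Real.sqrt (1 + c.2) ^ (-(4 * Λ₀.card : ℤ)) * Zc E₁ 𝔤.w * Real.exp (aS k 𝔤 c (betaOf J c * lam) V j₁ js Λf P)) •
          ((∏ i ∈ Finset.range 𝔤.m, (1 + eT k 𝔤 c (betaOf J c * lam) V j₁ i • tau i)) *
            (bgF k 𝔤 c (betaOf J c * lam) V g js Λf + r)) := by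
  obtain ⟨D, hD⟩ : ∃ D : ℝ, D = np * (2 * ((6 * k.p.L : ℕ) : ℝ) + 3) ^ 2 * 2 := ⟨_, rfl⟩
  obtain ⟨E, hE⟩ : ∃ E : ℝ, E = Real.exp (N * k.ε) := ⟨_, rfl⟩
  have hE0 : 0 < E := hE ▸ Real.exp_pos _
  have hv0 : 0 ≤ vth := by norm_num [vth]
  have hv1 : vth < 1 := by norm_num [vth]
  have hφ : Continuous fun t : ℝ => (Real.exp (3 * (D * t)) - 1) * (E + E * (Real.exp (7 * N * t) - 1)) +
      E * (Real.exp (7 * N * t) - 1) := by fun_prop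
  have ht := (hφ.tendsto' 0 0 (by simp)).comp (tendsto_pow_atTop_nhds_zero_of_lt_one hv0 hv1)
  obtain ⟨j₀, hj₀⟩ := Filter.eventually_atTop.1 (ht.eventually (ge_mem_nhds hη))
  refine ⟨j₀, fun 𝔤 g j₁ js Λ₀ Λf P 𝒮 E₁ hg h0 h1 h2 h3 hP hh => ?_⟩
  have hF := hg.flow h
  have hB0 : 0 ≤ B := (abs_nonneg _).trans h.sm.1
  have hC := h.cst.1
  have hα0 : 0 ≤ C₁ * B := by positivity
  have hα1 : C₁ * B ≤ 1 := (mul_le_mul_of_nonneg_left h.sm.2.1 (by linarith)).trans h.cst.2.2.2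
  have hpos : 0 < 𝔤.h js := by
    have := (hg.geo (js - 1) (by have := hg.pos; omega)).wt.2.1
    rwa [Nat.sub_add_cancel hg.pos] at this
  have hc : -1 < c.2 := by
    have := (abs_le.1 h.sm.2.2.2.1).1
    linarith
  obtain ⟨err, herr, hZ⟩ := final_formula h.hk hc _ hg.init hF hpos hg.fin hg.cov hg.gram
  have hax := bdAx_BdT (H := HE) (𝔤.h js)
  obtain ⟨Rm, hRm⟩ : ∃ Rm : Al, Rm = ∑ j ∈ Finset.Ico j₁ js, ∑ x ∈ Λf.filter (fun x => ¬ ∀ v ∈ P, 6 * k.p.l (j + 1) < supd x v),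
    𝔤.en k.p c (betaOf J c * lam) V j x := ⟨_, rfl⟩
  have hR : BdT (𝔤.h js) Rm (D * vth ^ j₁) := by
    have a1 := hax.sum (Z := ∅) (Finset.Ico j₁ js) (c := fun j => np * (2 * ((6 * k.p.L : ℕ) : ℝ) + 3) ^ 2 * vth ^ j)
      (F := fun j => ∑ x ∈ Λf.filter (fun x => ¬ ∀ v ∈ P, 6 * k.p.l (j + 1) < supd x v), 𝔤.en k.p c (betaOf J c * lam) V j x)
      fun j hj => by
        obtain ⟨b1, b2⟩ := Finset.mem_Ico.1 hj
        have b3 := sn_sum (M := 6 * k.p.L) (D5.one_le_l h.hk j) (hF.en j b2) P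
          (Λf.filter (fun x => ¬ ∀ v ∈ P, 6 * k.p.l (j + 1) < supd x v)) fun x hx => by
            have b4 := (Finset.mem_filter.1 hx).2
            push Not at b4
            obtain ⟨v, hv, b5⟩ := b4
            exact ⟨v, hv, by rwa [mul_assoc, ← D6.l_succ]⟩
        refine hax.mono (Z := ∅) (bdT_anti hpos (hh j b1 b2) b3) subset_rfl ?_
        have b6 : (P.card : ℝ) ≤ np := by exact_mod_cast h3
        have b7 : C₁ * B * vth ^ j ≤ vth ^ j := mul_le_of_le_one_left (by positivity) hα1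
        gcongr
    rw [← hRm, ← Finset.mul_sum] at a1
    refine hax.mono (Z := ∅) a1 subset_rfl ?_
    rw [hD, mul_assoc _ (2 : ℝ)]
    exact mul_le_mul_of_nonneg_left (decb_geom j₁ js) (by positivity)
  have hu := hax.exA (Z := ∅) hR
  have hbg := bgF_bound h hg
  have herr' : BdT (𝔤.h js) err (E * (Real.exp (7 * N * vth ^ j₁) - 1)) := by
    refine hax.mono (Z := ∅) herr subset_rfl ?_
    have b7 : C₁ * B * vth ^ js ≤ vth ^ j₁ :=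
      (mul_le_of_le_one_left (by positivity) hα1).trans (pow_le_pow_of_le_one hv0 hv1.le h1)
    rw [← hE]
    gcongr
  rw [← hE] at hbg
  refine ⟨(exA augE Rm - 1) * (bgF k 𝔤 c (betaOf J c * lam) V g js Λf + err) + err,
    hax.mono (Z := ∅) (hax.add (Z := ∅) (hax.mul (Z := ∅) hu (hax.add (Z := ∅) hbg herr')) herr') subset_rfl (hj₀ j₁ h0), ?_⟩
  rw [hZ, decb_split h.hk h.hV _ hg.init hg.geo h1 h2 hP, ← hRm, exA_affine, smul_mul_assoc, smul_smul, ← bgF]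
  congr 1
  ring


end Crest.Agent.R165.D7
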