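import Crest.Agent.R165.D.Defs3

/-! # R165 block D7: definitions (route.md §D7) -/

set_option autoImplicit false
noncomputable section
open Classical Filter Topology Crest.ProbabilityR.IsingModel

namespace Crest.Agent.R165.D7

/-- centred correlation read off the generating functions `Z` (with spins) and `Z'` (without spins) -/
def cor (m : ℕ) (Z Z' : Al) : ℝ :=
  coefT (List.range m) (Z * ∏ i ∈ Finset.range m, (1 - (coefT [i] Z' / augE Z') • tau i)) / augE Z'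

/-- Gaussian generating function of the energy observables with coefficients `cc` -/
def bgE (𝔤 : Geom) (g : HE → HE → ℝ) (cc : ℕ → ℝ) : Al :=
  cstA (muE (extG g) (∏ i ∈ Finset.range 𝔤.m,
    (1 + tau i * (cc i • (𝔤.oK i - algebraMap ℝ Al (tc * gPl (he0 (𝔤.y i)) (he1 (𝔤.y i))))))))

/-- all hypotheses on a finite geometry for the flow up to the scale `js` and the last integration -/
structure Good (k : Cons) (R : ℕ) (c : ℝ × ℝ) (ε₂ CM : ℝ) (𝔤 : Geom) (g : HE → HE → ℝ) (js : ℕ) (Λ₀ Λf : Finset Site)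
    (𝒮 : Finset (Finset Site)) (E₁ : Finset Edge) (N : ℕ) : Prop where
  pos : 0 < js
  init : InitOK k.p R c 𝔤
  geo : ∀ j < js, GeoOK k.p k.K k.Γs 𝔤 j
  jN : 0 < 𝔤.jN ∨ 𝔤.S = ∅
  gam : 𝔤.Gam 0 = k.Gam 0 ∧ ∀ j ≤ js, 𝔤.Gam j ≤ k.Gam j
  src : SrcOK k 𝔤 js ε₂ CM
  fin : FinOK 𝔤 g Λ₀ Λf 𝒮 E₁
  cov : geoZ.cov (k.p.l js) Λf ≤ N
  gram : Gram (⋃ x ∈ Λf, 𝔤.U k.p js x) (extG (g - 𝔤.gle k.p js)) 1

section
variable (k : Cons) (𝔤 : Geom) (c : ℝ × ℝ) (μ : ℝ) (V : Finset Site → ℝ)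

/-- scalar part of the extracted energy; for `j ≥ j₁` the neighbourhood of the points `P` is left out -/
def aS (j₁ js : ℕ) (Λf P : Finset Site) : ℝ :=
  ∑ j ∈ Finset.range js, ∑ x ∈ Λf.filter (fun x => j < j₁ ∨ ∀ v ∈ P, 6 * k.p.l (j + 1) < supd x v),
    augE (𝔤.en k.p c μ V j x)
/-- part of the extracted energy that is linear in `τ_i` -/
def eT (j₁ i : ℕ) : ℝ :=
  ∑ j ∈ Finset.range j₁, ∑ x ∈ box (𝔤.y i).1 (k.p.rho j), coefT [i] (𝔤.en k.p c μ V j x)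
/-- the background after the last integration -/
def bgF (g : HE → HE → ℝ) (js : ℕ) (Λf : Finset Site) : Al :=
  cstA (muE (extG (g - 𝔤.gle k.p js)) (geoZ.Xi (k.p.l js) (𝔤.st k.p c μ V js).M Λf))
end

/-- partial sums of `lZs` -/
def lZp (k : Cons) (R : ℕ) (V : Finset Site → ℝ) (c : ℝ × ℝ) (μ : ℝ) (j₁ : ℕ) : ℝ :=
  ∑ j ∈ Finset.range j₁, ∑ x ∈ box 0 (6 * k.p.l (j + 1)),
    (augE ((gBr0 R k.Gam).en k.p c μ V j x) - augE ((gPl0 R k.Gam).en k.p c μ V j x))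

/-! ### geometries of lattice domains (`b = plus` or `b = free`) -/

def wD (b : BoundaryCondition) (T S : Finset Site) : Edge → ℝ := if b = .free then wFree ↑T S else wOf (ePlus ↑T) S
def eD (b : BoundaryCondition) (T : Finset Site) : Set Edge := if b = .free then eDual ↑T else ePlus ↑T
def lamD (R : ℕ) (T : Finset Site) : Finset Site := T.biUnion fun z => box z (R + 3)
def e1D (b : BoundaryCondition) (T : Finset Site) (r : ℕ) : Finset Edge :=
  if b = .free then eNear T r else (ePlus_finite T.finite_toSet).toFinset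

def gDom (R : ℕ) (b : BoundaryCondition) (T S : Finset Site) (gB gS : HE → HE → ℝ) (jN : ℕ∞) (Gam h : ℕ → ℝ) (m : ℕ)
    (y : ℕ → Edge) (O : ℕ → Cfg → ℝ) (oS : ℕ → Finset Site) : Geom where
  w := wD b T S
  S := S
  Bb := {z | BdryB (eD b T) z}
  gB := gB
  jN := jN
  gS := gS
  Gam := Gam
  h := h
  Λ := ↑(lamD R T)
  shp := ↑(shapes T b R)
  m := m
  y := y
  O := O
  oS := oS

/-- the edge of the `i`-th bond observable -/
def yE {m : ℕ} (u : Fin m → Site) (d : Fin m → Fin 2) (i : ℕ) : Edge :=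
  if h : i < m then bondEdge (u ⟨i, h⟩) (d ⟨i, h⟩) else ((0, 0), 0)

/-- the kernel bound at all scales `l ≤ l₁` -/
def KerB (S : Finset Site) (g : HE → HE → ℝ) (l₁ : ℕ) (CS : ℝ) : Prop :=
  ∀ (l : ℕ) (i i' : HE), 1 ≤ l → l ≤ l₁ → l ≤ supd i.1 i'.1 + 1 → g i i' ^ 2 * (dB S l i.1 * dB S l i'.1) ≤ CS ^ 2

/-! ### schedules -/

/-- amplitudes: `Γ₁ 2^j` capped at `G D^s`, then `s` drops by the factor `D` after `jN` -/
def gamS (k : Cons) (G D : ℝ) (s jN j : ℕ) : ℝ :=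
  if j = 0 then k.Γ₀ else min (k.Γ₁ * 2 ^ j) (G * D ^ (s - (j - jN)))
/-- weights of the energy sources -/
def hS (k : Cons) (Γ : ℕ → ℝ) (ε₂ CM : ℝ) (m jN j : ℕ) : ℝ :=
  if j = 0 then ε₂ / Γ 0 ^ 2 else if j ≤ jN then ε₂ * k.p.l j / Γ j ^ 2
  else ε₂ * k.p.l jN / Γ jN ^ 2 / (CM * (m + 1))

end Crest.Agent.R165.D7
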