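import Crest.Agent.R165.D7.Alg

/-! # R165 block D7: lattice domains as geometries -/

set_option autoImplicit false
noncomputable section
open Classical Crest.ProbabilityR.IsingModel

namespace Crest.Agent.R165.D7

variable {R : ℕ} {b : BoundaryCondition} {T S : Finset Site} {gB gS : HE → HE → ℝ} {jN : ℕ∞} {Gam h : ℕ → ℝ} {m : ℕ}
  {y : ℕ → Edge} {O : ℕ → Cfg → ℝ} {oS : ℕ → Finset Site}

theorem wD_eray (b : BoundaryCondition) (T S : Finset Site) (e : Edge) : wD b T S e = wD b T ∅ e * eray S e := by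
  have h0 : eray ∅ e = 1 := by simp [eray]
  unfold wD
  split_ifs
  · simp only [wFree, h0, mul_one]
  · simp only [wOf, h0, mul_one]
    split_ifs <;> simp

theorem noSpin_gDom : (gDom R b T S gB gS jN Gam h m y O oS).noSpin (wD b T ∅) = gDom R b T ∅ gB gS jN Gam h m y O oS := rfl

/-- deep inside `T` the edges are critical and the boundary is far -/
theorem inside {v : Site} {r : ℕ} (hv : box v (r + 2) ⊆ T) :
    (∀ e : Edge, supd v e.1 ≤ r → wD b T S e = tc * eray S e) ∧ ∀ z, BdryB (eD b T) z → r ≤ supd v z := by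
  have key : ∀ e : Edge, supd v e.1 ≤ r → e.1 ∈ T ∧ e.1 + uv e.2 ∈ T ∧ edgeB0 e ∈ T ∧ edgeB1 e ∈ T := by
    rintro ⟨x, j⟩ he
    have he' : supd v x ≤ r := he
    refine ⟨hv ?_, hv ?_, hv ?_, hv ?_⟩ <;> rw [mem_box] <;> fin_cases j <;>
      simp [supd, uv, edgeB0, edgeB1] at he' ⊢ <;> omega
  refine ⟨fun e he => ?_, fun z hz => ?_⟩
  · obtain ⟨-, -, h3, h4⟩ := key e he
    unfold wD
    split_ifs
    · rw [wFree, if_pos (show e ∈ eIn ↑T from ⟨h3, h4⟩)]
    · rw [wOf, if_pos (show e ∈ ePlus ↑T from Or.inl h3)]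
  · by_contra hn
    obtain ⟨⟨e, he, hez⟩, -⟩ := hz
    have h1 : supd v e.1 ≤ r := by
      obtain ⟨x, j⟩ := e
      rcases hez with rfl | rfl <;> fin_cases j <;> simp [supd, edgeB0, edgeB1] at hn ⊢ <;> omega
    obtain ⟨h1, h2, h3, -⟩ := key e h1
    apply he
    unfold eD
    split_ifs
    · exact ⟨h1, h2⟩
    · exact Or.inl h3

theorem domb_lam {z x : Site} (hz : z ∈ T) (h : supd x z ≤ R + 3) : x ∈ lamD R T :=
  Finset.mem_biUnion.2 ⟨z, hz, mem_box_supd.2 h⟩

theorem domb_abs_free (e : Edge) : |wFree ↑T S e| = if e ∈ eIn (↑T : Set Site) then tc else 1 := by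
  rw [wFree, abs_mul, D3.typ_abs_eray, mul_one]
  split_ifs
  · exact abs_of_pos tc_pos.1
  · exact abs_one

theorem domb_abs_plus (e : Edge) : |wOf (ePlus ↑T) S e| = if e ∈ ePlus (↑T : Set Site) then tc else 0 := by
  rw [wOf]
  split_ifs
  · rw [abs_mul, D3.typ_abs_eray, mul_one, abs_of_pos tc_pos.1]
  · exact abs_zero

theorem domb_free {e : Edge} (h : |wFree ↑T S e| = tc) : edgeB0 e ∈ T ∧ edgeB1 e ∈ T := by
  rw [domb_abs_free] at h
  by_cases h1 : e ∈ eIn (↑T : Set Site)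
  · exact h1
  · rw [if_neg h1] at h
    exact absurd h tc_pos.2.ne'

theorem domb_plus {e : Edge} (h : |wOf (ePlus ↑T) S e| = tc) : e ∈ ePlus (↑T : Set Site) := by
  rw [domb_abs_plus] at h
  by_contra h1
  rw [if_neg h1] at h
  exact absurd h tc_pos.1.ne

theorem domb_crit {e : Edge} (h : |wD b T S e| = tc) : edgeB0 e ∈ T ∨ edgeB1 e ∈ T := by
  rw [wD] at h
  split_ifs at h
  · exact Or.inl (domb_free h).1
  · exact domb_plus h

theorem domb_frozen (hT : ExtConn ↑T) {z : Site} (hz : z ∉ T) : FrozenB (ePlus ↑T) z := by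
  obtain ⟨z', hz'⟩ := Infinite.exists_notMem_finset (insert z T)
  rw [Finset.mem_insert, not_or] at hz'
  rcases (hT z z' hz hz'.2).cases_head with h | ⟨u, ⟨-, hu, α, rfl⟩, -⟩
  · exact absurd h.symm hz'.1
  · obtain ⟨z₁, z₂⟩ := z
    fin_cases α
    · refine ⟨((z₁, z₂ - 1), 1), ?_, Or.inl ?_⟩
      · simpa [ePlus, edgeB0, edgeB1, dv] using And.intro hz hu
      · simp [edgeB0]
    · refine ⟨((z₁ - 1, z₂), 0), ?_, Or.inl ?_⟩
      · simpa [ePlus, edgeB0, edgeB1, dv] using And.intro hz hu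
      · simp [edgeB0]
    · refine ⟨((z₁ - 1, z₂ - 1), 1), ?_, Or.inr ?_⟩
      · simpa [ePlus, edgeB0, edgeB1, dv, sub_eq_add_neg] using And.intro hu hz
      · simp [edgeB1]
    · refine ⟨((z₁ - 1, z₂ - 1), 0), ?_, Or.inr ?_⟩
      · simpa [ePlus, edgeB0, edgeB1, dv, sub_eq_add_neg] using And.intro hu hz
      · simp [edgeB1]

theorem domb_in (hT : ExtConn ↑T) {z : Site} (hw : |wD b T S (z, 0)| = tc) (hB : ∀ u, BdryB (eD b T) u → 2 ≤ supd z u) :
    z ∈ T := by
  by_contra hz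
  rw [wD] at hw
  rw [eD] at hB
  split_ifs at hw hB
  · have h := domb_free hw
    have := hB (z + (1, 1)) ⟨⟨(z, 0), fun h' => hz h'.1, Or.inr rfl⟩, (z + (1, 0), 1), ⟨h.1, ?_⟩, ?_⟩
    · simp [supd] at this
    · have h2 := h.2
      simpa [edgeB1, uv, add_assoc] using h2
    · simp [supd]
  · have := hB z ⟨domb_frozen hT hz, (z, 0), domb_plus hw, by simp [supd]⟩
    simp [supd] at this

/-- `full`: plus: a site `z ∉ T` has a neighbour outside `T` (`ExtConn`, `T` finite), hence is frozen and a boundary site;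
free: if `z ∉ T` then `z + (1,1)` is a boundary site of `eDual T` -/
theorem initOK_dom (p : Par) (c : ℝ × ℝ) (hb : b ≠ .minus) (hT : ExtConn ↑T)
    (ho : ∀ i < m, geoZ.Conn p.l0 (oS i) ∧ (y i).1 ∈ oS i ∧ oS i ⊆ T ∧ DependsOn (O i) ↑(edgesIn (oS i)))
    (he : 0 < jN → ∀ i < m, O i = enO c (y i) ∧ oS i = enS (y i) ∧ wD b T S (y i) = tc * eray S (y i)) :
    InitOK p R c (gDom R b T S gB gS jN Gam h m y O oS) := by
  refine ⟨fun B hB => ?_, fun B hB h => ?_, fun e h => ?_, fun e => ?_, fun k hk => ?_, he⟩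
  · obtain ⟨-, h1, h2⟩ := Finset.mem_filter.1 (Finset.mem_coe.1 hB)
    refine ⟨h1, fun x hx => ?_⟩
    obtain ⟨z, hzB, hzT⟩ : ∃ z ∈ B, z ∈ T := by
      split_ifs at h2
      · obtain ⟨z, hz⟩ := h1.1
        exact ⟨z, hz, h2 hz⟩
      · obtain ⟨z, hz⟩ := h2
        exact ⟨z, (Finset.mem_inter.1 hz).1, (Finset.mem_inter.1 hz).2⟩
    have hb : ∀ u ∈ bbox B, supd u z ≤ R := fun u hu => by
      obtain ⟨⟨x₁, m₁, h₁⟩, ⟨x₂, m₂, h₂⟩, ⟨x₃, m₃, h₃⟩, x₄, m₄, h₄⟩ := D4.mem_bbox.1 hu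
      have e₁ := supd_le.1 (h1.2 _ m₁ _ hzB)
      have e₂ := supd_le.1 (h1.2 _ m₂ _ hzB)
      have e₃ := supd_le.1 (h1.2 _ m₃ _ hzB)
      have e₄ := supd_le.1 (h1.2 _ m₄ _ hzB)
      rw [supd_le]
      omega
    refine Finset.mem_coe.2 (domb_lam hzT ?_)
    rcases D4.mem_bSites.1 (Finset.mem_coe.1 hx) with h | h | h | h <;>
    · have := supd_le.1 (hb _ h)
      rw [supd_le]
      try simp only [Prod.fst_add, Prod.snd_add] at this
      push_cast
      omega
  · have hBT : B ⊆ T := fun z hz => domb_in hT (h z hz).1 fun u hu => le_trans (by omega) ((h z hz).2 u hu)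
    refine Finset.mem_coe.2 (Finset.mem_filter.2 ⟨Finset.mem_powerset.2 fun z hz =>
      Finset.mem_biUnion.2 ⟨z, hBT hz, self_mem_box z R⟩, hB, ?_⟩)
    split_ifs
    · exact hBT
    · obtain ⟨z, hz⟩ := hB.1
      exact ⟨z, Finset.mem_inter.2 ⟨hz, hBT hz⟩⟩
  · obtain ⟨⟨x₁, x₂⟩, j⟩ := e
    rcases domb_crit h with h1 | h1 <;> refine ⟨Finset.mem_coe.2 (domb_lam h1 ?_), Finset.mem_coe.2 (domb_lam h1 ?_)⟩ <;>
      fin_cases j <;> simp [supd, edgeB0, edgeB1, uv]
  · change |wD b T S e| ≤ 1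
    have := tc_pos
    rw [wD]
    split_ifs
    · rw [domb_abs_free]
      split_ifs <;> linarith
    · rw [domb_abs_plus]
      split_ifs <;> linarith
  · obtain ⟨h1, h2, h3, h4⟩ := ho k hk
    exact ⟨h1, h2, fun z hz => Finset.mem_coe.2 (domb_lam (h3 hz) (by simp [supd])), h4⟩

theorem obs_en (p : Par) (hp : p.OK) (c : ℝ × ℝ) (e : Edge) :
    geoZ.Conn p.l0 (enS e) ∧ e.1 ∈ enS e ∧ enS e ⊆ box e.1 1 ∧ DependsOn (enO c e) ↑(edgesIn (enS e)) := by
  refine ⟨D5.consb_conn hp.2.2.1 e, Finset.mem_insert_self _ _, fun x hx => ?_, D5.consb_dep c e⟩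
  obtain ⟨y, j⟩ := e
  simp only [enS, Finset.mem_insert, Finset.mem_singleton] at hx
  rw [mem_box]
  rcases hx with rfl | rfl <;> fin_cases j <;> simp [supd, uv]

theorem conn_box (p : Par) (hp : p.OK) (r : ℕ) : geoZ.Conn p.l0 (box 0 r) := by
  have hd : geoZ.d = supd := exists_geoZ.choose_spec.1
  have hl : 0 < p.l0 := hp.2.2.1
  have key : ∀ n : ℕ, ∀ x ∈ box 0 r, supd 0 x ≤ n →
      Relation.ReflTransGen (fun a b => a ∈ box 0 r ∧ b ∈ box 0 r ∧ geoZ.d a b ≤ p.l0) 0 x := by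
    intro n
    induction n with
    | zero =>
      intro x _ hx
      have : x = 0 := by
        obtain ⟨a, b⟩ := x
        simp [supd] at hx ⊢
        omega
      rw [this]
    | succ n ih =>
      intro x hx hn
      obtain ⟨a, b⟩ := x
      have hx' := mem_box.1 hx
      have h1 : supd 0 ((a - a.sign, b - b.sign) : Site) ≤ n ∧ supd ((a - a.sign, b - b.sign) : Site) 0 ≤ r ∧
          supd ((a - a.sign, b - b.sign) : Site) (a, b) ≤ 1 := by
        simp only [supd, Prod.fst_zero, Prod.snd_zero] at hx' hn ⊢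
        rcases lt_trichotomy a 0 with ha | ha | ha <;> rcases lt_trichotomy b 0 with hb | hb | hb <;>
          simp only [Int.sign_eq_neg_one_of_neg, Int.sign_eq_one_of_pos, ha, hb, Int.sign_zero] at hx' hn ⊢ <;> omega
      refine (ih _ (mem_box.2 h1.2.1) h1.1).tail ⟨mem_box.2 h1.2.1, hx, ?_⟩
      rw [hd]; omega
  refine ⟨⟨0, mem_box.2 (by simp [supd])⟩, fun x hx y hy => Relation.ReflTransGen.trans ?_ (key _ y hy le_rfl)⟩
  have h := key _ x hx le_rfl
  clear hx
  induction h with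
  | refl => exact .refl
  | tail _ h ih => exact ih.head ⟨h.2.1, h.1, by rw [geoZ.d_comm]; exact h.2.2⟩

/-- free: `ker_free_local` -/
theorem finOK_dom {g : HE → HE → ℝ} (hg : IsKer (wD b T S) g) (hf : FinRow g) (hS : S ⊆ T) (hne : T.Nonempty)
    {x₀ : Site} {M M' r : ℕ} (hT : T ⊆ box x₀ M) (hM : M + R + 4 ≤ M') (hr : 2 * M' + 10 ≤ r) :
    FinOK (gDom R b T S gB gS jN Gam h m y O oS) g (lamD R T) (box x₀ M') (shapes T b R) (e1D b T r) := by
  obtain ⟨z₀, hz₀⟩ := hne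
  have h0 := mem_box'.1 (hT hz₀)
  have hp : b ≠ .free → ∀ e, e ∉ e1D b T r → wD b T S e = 0 := fun hb e he => by
    rw [e1D, if_neg hb, Set.Finite.mem_toFinset] at he
    rw [wD, if_neg hb, wOf, if_neg he]
  have hfr : b = .free → ∀ e, e ∉ e1D b T r → ∀ z ∈ T, r < supd e.1 z := fun hb e he z hz => by
    rw [e1D, if_pos hb] at he
    by_contra h
    exact he (Finset.mem_product.2 ⟨Finset.mem_biUnion.2 ⟨z, hz, mem_box_supd.2 (not_lt.1 h)⟩, Finset.mem_univ _⟩)
  refine ⟨⟨hg, hf⟩, rfl, fun x hx => ?_, rfl, fun e he hw x hx α => ?_, fun x hx α he => ?_⟩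
  · obtain ⟨z, hz, hx⟩ := Finset.mem_biUnion.1 hx
    have h1 := mem_box'.1 hx
    have h2 := mem_box'.1 (hT hz)
    push_cast at h1
    refine ⟨mem_box'.2 (by omega), fun α => mem_box'.2 ?_⟩
    fin_cases α <;> simp [dv] <;> omega
  · by_cases hb : b = .free
    · have h1 := hfr hb e he
      obtain ⟨u, hu, hx⟩ := Finset.mem_biUnion.1 hx
      have h2 := mem_box'.1 hx
      have h3 := mem_box'.1 hu
      have h4 := h1 z₀ hz₀
      rw [wD, if_pos hb] at hg
      have key : ∀ i : HE, supd i.1 e.1 ≤ 1 → g (x, α) i = 0 := fun i hi => by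
        rw [hg.1 i (x, α), ker_free_local T.finite_toSet (Finset.coe_subset.2 hS) hg hf i (x, α), neg_zero]
        · intro z hz
          have := h1 z hz
          unfold supd at *
          omega
        · change 3 ≤ supd i.1 x
          unfold supd at *
          omega
      refine ⟨key _ (by simp [he0, supd]), key _ ?_⟩
      obtain ⟨⟨x₁, x₂⟩, j⟩ := e
      fin_cases j <;> simp [he1, supd, uv]
    · exact absurd (hp hb e he) hw
  · by_cases hb : b = .free
    · have h1 := hfr hb _ he z₀ hz₀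
      have h2 := mem_box'.1 hx
      exfalso
      obtain ⟨x₁, x₂⟩ := x
      unfold supd at h1
      fin_cases α <;> simp [edgeOf] at h1 h2 <;> omega
    · exact hp hb _ he

theorem geoOK_dom {p : Par} {K : ℕ} {Γs ρ : ℝ} {j : ℕ} (hρ : (K * p.l (j + 1) : ℝ) ≤ ρ) (hE : Reg (eD b T) ρ)
    (hB : IsKer (wD b T ∅) gB ∧ FinRow gB) (hS : ∀ v ∈ S, box v (K * p.l (j + 1) + 2) ⊆ T)
    (hy : ∀ i < m, box (y i).1 (K * p.l (j + 1) + 2) ⊆ T) :
    let 𝔤 := gDom R b T S gB gS jN Gam h m y O oS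
    (∃ ρ : ℝ, (K * p.l (j + 1) : ℝ) ≤ ρ ∧
      ((∃ E : Set Edge, Reg E ρ ∧ 𝔤.w = wOf E 𝔤.S ∧ 𝔤.Bb = {b | BdryB E b} ∧
          (E ≠ Set.univ → E.Finite ∧ IsKer (wOf E ∅) 𝔤.gB ∧ FinRow 𝔤.gB)) ∨
        ∃ T : Set Site, T.Finite ∧ Reg (eDual T) ρ ∧ 𝔤.w = wFree T 𝔤.S ∧ 𝔤.Bb = {b | BdryB (eDual T) b} ∧ ↑𝔤.S ⊆ T ∧
          IsKer (wFree T ∅) 𝔤.gB ∧ FinRow 𝔤.gB)) ∧
    (∀ v ∈ 𝔤.S, |𝔤.w (v, 0)| = tc ∧ ∀ b ∈ 𝔤.Bb, K * p.l (j + 1) ≤ supd v b) ∧
    ∀ k < 𝔤.m, |𝔤.w (𝔤.y k)| = tc ∧ ∀ b ∈ 𝔤.Bb, K * p.l (j + 1) ≤ supd (𝔤.y k).1 b := by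
  intro 𝔤
  have habs : ∀ e : Edge, |tc * eray S e| = tc := fun e => by
    have h : |eray S e| = 1 := by
      unfold eray; split_ifs <;> simp
    rw [abs_mul, h, mul_one, abs_of_pos tc_pos.1]
  have hs : ∀ v : Site, supd v v ≤ K * p.l (j + 1) := fun v => by simp [supd]
  refine ⟨⟨ρ, hρ, ?_⟩, fun v hv => ⟨?_, (inside (b := b) (S := S) (hS v hv)).2⟩,
    fun k hk => ⟨?_, (inside (b := b) (S := S) (hy k hk)).2⟩⟩
  · by_cases hb : b = .free
    · subst hb
      refine Or.inr ⟨↑T, T.finite_toSet, by simpa [eD] using hE, by simp [𝔤, gDom, wD], by simp [𝔤, gDom, eD],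
        fun v hv => hS v hv (mem_box.2 (by simp [supd])), by simpa [𝔤, gDom, wD] using hB.1, hB.2⟩
    · refine Or.inl ⟨ePlus ↑T, by simpa [eD, hb] using hE, by simp [𝔤, gDom, wD, hb], by simp [𝔤, gDom, eD, hb],
        fun _ => ⟨ePlus_finite T.finite_toSet, by simpa [𝔤, gDom, wD, hb] using hB.1, hB.2⟩⟩
  · change |wD b T S (v, 0)| = tc
    rw [(inside (hS v hv)).1 (v, 0) (hs v), habs]
  · change |wD b T S (y k)| = tc
    rw [(inside (hy k hk)).1 (y k) (hs _), habs]

/-- `ising_plus`, `ising_free` in terms of `wT` -/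
theorem expect_dom {D : Set ℂ} {a : ℝ} (hD : (domainSites D a).Finite) (hc : ExtConn (domainSites D a)) (hb : b ≠ .minus)
    {J lam β t : ℝ} (ht : Real.exp (-2 * β * J) = t) {V : Finset Site → ℝ} (hV : PotOK R V) (hS : S ⊆ hD.toFinset)
    (hSe : b = .free → Even S.card) (F : Cfg → ℝ) (hF : DependsOn F (eIn (domainSites D a))) {r : ℕ} (hr : R + 3 ≤ r) :
    domainExpect D a b J lam R V β (fun σ => (∏ v ∈ S, spinSign (σ v)) * F (nOf σ)) =
      (∑ γ ∈ (e1D b hD.toFinset r).powerset.filter EvenSub,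
        ((∏ e ∈ γ, (gDom R b hD.toFinset S gB gS jN Gam h m y O oS).wT t e) *
          pertF (shapes hD.toFinset b R) (β * lam) V (ind γ)) * F (ind γ)) /
      ∑ γ ∈ (e1D b hD.toFinset r).powerset.filter EvenSub,
        (∏ e ∈ γ, (gDom R b hD.toFinset ∅ gB gS jN Gam h m y O oS).wT t e) *
          pertF (shapes hD.toFinset b R) (β * lam) V (ind γ) := by
  have t0 := tc_pos.1
  have ha : ∀ (S : Finset Site) (e : Edge), |tc * eray S e| = tc := fun S e => by
    rw [abs_mul, D3.typ_abs_eray, mul_one, abs_of_pos t0]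
  cases b with
  | minus => exact absurd rfl hb
  | plus =>
    have hE : e1D .plus hD.toFinset r = (ePlus_finite hD).toFinset := by
      ext e
      simp [e1D]
    have hw : ∀ (S : Finset Site), ∀ γ ∈ (ePlus_finite hD).toFinset.powerset.filter EvenSub,
        ∏ e ∈ γ, wPlusT t S e = ∏ e ∈ γ, (gDom R .plus hD.toFinset S gB gS jN Gam h m y O oS).wT t e := fun S γ hγ => by
      refine Finset.prod_congr rfl fun e he => ?_
      have h1 : e ∈ ePlus ↑hD.toFinset := by simpa using Finset.mem_powerset.1 (Finset.mem_filter.1 hγ).1 he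
      have h2 : (gDom R .plus hD.toFinset S gB gS jN Gam h m y O oS).w e = tc * eray S e := by
        change wD .plus hD.toFinset S e = _
        rw [wD, if_neg (by simp), wOf, if_pos h1]
      rw [Geom.wT, h2, if_pos (ha S e), wPlusT]
      field_simp
    rw [ising_plus hD hc J lam β hV S F, ht, hE, Zf, Zf]
    congr 1
    · exact Finset.sum_congr rfl fun γ hγ => by rw [hw S γ hγ, mul_assoc]
    · exact Finset.sum_congr rfl fun γ hγ => by rw [hw ∅ γ hγ]
  | free =>
    have hE : e1D .free hD.toFinset r = eNear hD.toFinset r := if_pos rfl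
    have hw : ∀ (S : Finset Site) (e : Edge),
        wFreeT t (domainSites D a) S e = (gDom R .free hD.toFinset S gB gS jN Gam h m y O oS).wT t e := fun S e => by
      have h2 : (gDom R .free hD.toFinset S gB gS jN Gam h m y O oS).w e =
          (if e ∈ eIn (domainSites D a) then tc else 1) * eray S e := by
        change wD .free hD.toFinset S e = _
        rw [wD, if_pos rfl, wFree, Set.Finite.coe_toFinset]
      rw [Geom.wT, h2, wFreeT]
      by_cases h1 : e ∈ eIn (domainSites D a)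
      · simp only [if_pos h1]
        rw [if_pos (ha S e)]
        field_simp
      · simp only [if_neg h1]
        rw [if_neg (by rw [one_mul, D3.typ_abs_eray]; exact tc_pos.2.ne')]
    rw [ising_free hD J lam β hV S (by simpa using Finset.coe_subset.2 hS) (hSe rfl) F hF r hr, ht, hE, Zf, Zf]
    simp only [hw, mul_assoc]

theorem domc_add {D : Set ℂ} {a : ℝ} (hD : (domainSites D a).Finite) (J lam β : ℝ) (V : Finset Site → ℝ)
    (f : (Site → Bool) → ℝ) (k : ℝ) :
    domainExpect D a b J lam R V β (fun σ => f σ + k) = domainExpect D a b J lam R V β f + k := by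
  have : 0 < ∑ σ : hD.toFinset → Bool,
      Real.exp (-β * domainEnergy hD.toFinset b J lam R V (extendConfig hD.toFinset b σ)) :=
    Finset.sum_pos (fun _ _ => Real.exp_pos _) Finset.univ_nonempty
  rw [domainExpect, domainExpect, dif_pos hD, dif_pos hD]
  simp only [add_mul, Finset.sum_add_distrib, ← Finset.mul_sum]
  rw [add_div, mul_div_cancel_right₀ _ this.ne']

/-- `σ_z σ_{z+e} = 1 - 2 n (bondEdge z j) = enO c (bondEdge z j) n + const`; `expect_dom` (also with `S = ∅`), `cor_sum`;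
`domainExpect (f + const) = domainExpect f + const` -/
theorem corr_dom {D : Set ℂ} {a : ℝ} (hD : (domainSites D a).Finite) (hc : ExtConn (domainSites D a)) (hb : b ≠ .minus)
    {J lam β : ℝ} {c : ℝ × ℝ} (ht : Real.exp (-2 * β * J) = tOf c) {V : Finset Site → ℝ} (hV : PotOK R V) {n : ℕ}
    (x : Fin n → ℂ) (yy : Fin m → ℂ) (d : Fin m → Fin 2) (hx : Function.Injective fun i => meshIndex a (x i))
    (hxT : ∀ i, meshIndex a (x i) ∈ domainSites D a) (hn : b = .free → Even n)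
    (hyT : ∀ i, ↑(box (meshIndex a (yy i)) 1) ⊆ domainSites D a) {r : ℕ} (hr : R + 3 ≤ r) :
    domainMixedCorr D a b J lam R V β x yy d =
      cor m ((gDom R b hD.toFinset (spinsOf fun i => meshIndex a (x i)) gB gS jN Gam h m (yE (fun i => meshIndex a (yy i)) d)
          (fun i => enO c (yE (fun i => meshIndex a (yy i)) d i)) oS).Ztau c (β * lam) V (shapes hD.toFinset b R)
          (e1D b hD.toFinset r))
        ((gDom R b hD.toFinset ∅ gB gS jN Gam h m (yE (fun i => meshIndex a (yy i)) d)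
          (fun i => enO c (yE (fun i => meshIndex a (yy i)) d i)) oS).Ztau c (β * lam) V (shapes hD.toFinset b R)
          (e1D b hD.toFinset r)) := by
  set Y := yE (fun i => meshIndex a (yy i)) d with hY
  have hY' : ∀ k : Fin m, Y k = bondEdge (meshIndex a (yy k)) (d k) := fun k => by simp [hY, yE]
  have hb' : ∀ (k : Fin m) (σ : Site → Bool),
      spinSign (σ (meshIndex a (yy k))) * spinSign (σ (meshIndex a (yy k) + unitVec (d k))) =
        enO c (Y k) (nOf σ) + (1 - 2 * ((1 + c.2) * tOf c * gPl (he0 (Y k)) (he1 (Y k)))) := fun k σ => by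
    rw [BA.spinSign_mul, enO, nOf, hY', BA.edgeB0_bondEdge, BA.edgeB1_bondEdge]
    split_ifs <;> ring
  have hdep : ∀ k < m, DependsOn (enO c (Y k)) (eIn (domainSites D a)) := fun k hk n n' hn' => by
    have h1 : Y k ∈ eIn (domainSites D a) := by
      have := hY' ⟨k, hk⟩
      change Y k = _ at this
      rw [this, eIn, Set.mem_ofPred_eq, BA.edgeB0_bondEdge, BA.edgeB1_bondEdge]
      refine ⟨hyT ⟨k, hk⟩ (Finset.mem_coe.2 (mem_box'.2 (by omega))), hyT ⟨k, hk⟩ (Finset.mem_coe.2 (mem_box'.2 ?_))⟩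
      unfold unitVec
      split_ifs <;> simp <;> omega
    simp only [enO, hn' _ h1]
  have h0 := fun k (hk : k < m) => expect_dom (gB := gB) (gS := gS) (jN := jN) (Gam := Gam) (h := h) (m := m) (y := Y)
    (O := fun i => enO c (Y i)) (oS := oS) (lam := lam) hD hc hb ht hV (Finset.empty_subset _) (fun _ => by simp) _ (hdep k hk) hr
  simp only [Finset.prod_empty, one_mul] at h0
  have h1 := expect_dom (gB := gB) (gS := gS) (jN := jN) (Gam := Gam) (h := h) (m := m) (y := Y)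
    (O := fun i => enO c (Y i)) (oS := oS) (lam := lam) (S := spinsOf fun i => meshIndex a (x i)) hD hc hb ht hV
    (fun v hv => by
      obtain ⟨i, -, rfl⟩ := Finset.mem_image.1 hv
      exact hD.mem_toFinset.2 (hxT i))
    (fun hf => by
      rw [spinsOf, Finset.card_image_of_injective _ hx, Finset.card_univ, Fintype.card_fin]
      exact hn hf)
    (fun n => ∏ i ∈ Finset.range m, (enO c (Y i) n - domainExpect D a b J lam R V β fun σ => enO c (Y i) (nOf σ)))
    (fun n n' hn' => Finset.prod_congr rfl fun i hi => by rw [hdep i (Finset.mem_range.1 hi) hn']) hr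
  refine Eq.trans ?_ (h1.trans (Eq.trans ?_ (cor_sum m _ _ _ fun i γ => enO c (Y i) (ind γ)).symm))
  · rw [domainMixedCorr]
    congr 1
    funext σ
    rw [spinsOf, Finset.prod_image fun i _ j _ e => hx e, Finset.prod_range]
    simp only [hb', domc_add hD, add_sub_add_right_eq_sub]
  · congr 1
    refine Finset.sum_congr rfl fun γ _ => ?_
    congr 1
    exact Finset.prod_congr rfl fun i hi => by rw [h0 i (Finset.mem_range.1 hi)]

theorem domd_dep {A : Type} [CommRing A] (y : ℕ → Edge) (f : ℕ → Bool → A) (s : Finset ℕ) :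
    DependsOn (fun n : Cfg => ∏ i ∈ s, f i (n (y i))) ↑(s.image y) := fun n n' hn =>
  Finset.prod_congr rfl fun i hi => by rw [hn _ (Finset.mem_coe.2 (Finset.mem_image_of_mem y hi))]

theorem domd_hat {A : Type} [CommRing A] (x : Edge → A) (y : ℕ → Edge) (f : ℕ → Bool → A) (s : Finset ℕ)
    (hy : Set.InjOn y s) : hat x (s.image y) (fun n => ∏ i ∈ s, f i (n (y i))) =
      ∏ i ∈ s, (f i false + x (y i) * (f i true - f i false)) := by
  induction s using Finset.induction_on with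
  | empty => simp [BA.hat_empty]
  | insert a s ha ih =>
    have h1 : Disjoint {y a} (s.image y) := Finset.disjoint_singleton_left.2 fun h => by
      obtain ⟨i, hi, e⟩ := Finset.mem_image.1 h
      exact ha (hy (by simp [hi]) (by simp) e ▸ hi)
    have h2 := hat_mul x h1 (F := fun n => f a (n (y a))) (fun n n' hn => congrArg (f a) (hn (y a) (by simp))) (domd_dep y f s)
    rw [ih (hy.mono (by simp)), ← insert_empty_eq, BA.hat_insert x (Finset.notMem_empty _), BA.hat_empty,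
      BA.hat_empty] at h2
    simp only [Finset.prod_insert ha, Finset.image_insert]
    convert h2 using 2
    · simp
    · rfl
    · simp [ind]

/-- the unperturbed critical model: `rep_general` with `r = 1`, `w' = w` (`pLoc = 0`), `hat_mul` over the distinct edges `y i` -/
theorem ztau_zero {𝔤 : Geom} {g : HE → HE → ℝ} {Λ₀ Λf : Finset Site} {𝒮 : Finset (Finset Site)} {E₁ : Finset Edge}
    (hf : FinOK 𝔤 g Λ₀ Λf 𝒮 E₁) (V : Finset Site → ℝ) (hO : ∀ i < 𝔤.m, 𝔤.O i = enO (0, 0) (𝔤.y i))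
    (hy : ∀ i < 𝔤.m, (𝔤.y i).1 ∈ Λ₀ ∧ (𝔤.y i).1 + uv (𝔤.y i).2 ∈ Λ₀) (hi : ∀ i < 𝔤.m, ∀ i' < 𝔤.m, 𝔤.y i = 𝔤.y i' → i = i') :
    𝔤.Ztau (0, 0) 0 V 𝒮 E₁ = Zc E₁ 𝔤.w • bgE 𝔤 g fun _ => -2 := by
  obtain ⟨f, hF⟩ : ∃ f : ℕ → Bool → Al, f = fun i t => 1 + (-2 * ((if t = true then 1 else 0) -
    tc * gPl (he0 (𝔤.y i)) (he1 (𝔤.y i)))) • tau i := ⟨_, rfl⟩
  have hs : ∀ n : Cfg, ((∏ i ∈ Finset.range 𝔤.m, f i (n (𝔤.y i)) : Al) : Gr Ix) ∈
      supA (Set.range (Sum.inl : HE → Ix))ᶜ := fun n => by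
    refine Finset.prod_induction _ (fun a : Al => (a : Gr Ix) ∈ supA (Set.range (Sum.inl : HE → Ix))ᶜ)
      (fun a b ha hb => mul_mem ha hb) (one_mem _) fun i _ => ?_
    rw [hF]
    refine add_mem (one_mem _) (Subalgebra.smul_mem _ (x := ((tau i : Al) : Gr Ix)) ?_ _)
    exact mul_mem (th_mem_supA (by simp)) (th_mem_supA (by simp))
  have key := rep_general (Sum.inl : HE → Ix) Sum.inl_injective (w' := 𝔤.w) hf.ker.1 Λ₀ Λf hf.big one_pos
    (fun _ _ => rfl) E₁ hf.e₁ (fun x hx α hα => ⟨hf.e₂ x hx α hα, hf.e₂ x hx α hα⟩) hf.ker.2 _ (fun e he => by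
      obtain ⟨i, hi, rfl⟩ := Finset.mem_image.1 he
      exact hy i (Finset.mem_range.1 hi)) _ (domd_dep 𝔤.y f _) hs cstA D4.cstA_proj
  rw [extK_inl, domd_hat _ _ _ _ fun i h i' h' => hi i (by simpa using h) i' (by simpa using h'),
    Finset.sum_eq_zero fun x _ => D4.za_pLoc _ (ite_self _) (fun _ => ite_self _) fun _ => rfl] at key
  have e0 : exA augE (0 : Al) = 1 := by simp [exA]
  have hw : 𝔤.wT (tOf (0, 0)) = 𝔤.w := by
    funext e
    simp [Geom.wT, tOf, tc_pos.1.ne']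
  rw [e0, one_mul, one_zpow, one_mul] at key
  unfold Geom.Ztau bgE
  rw [hw]
  convert key using 2 with γ _
  · simp only [pertF, zero_mul, Real.exp_zero, Finset.prod_const_one, mul_one]
    congr 1
    refine Finset.prod_congr rfl fun i hi => ?_
    rw [hO i (Finset.mem_range.1 hi), hF]
    simp [enO, tOf]
  · congr 2
    refine Finset.prod_congr rfl fun i _ => ?_
    simp only [hF, Geom.oK, one_pow, one_mul, if_true, Bool.false_eq_true, if_false, Algebra.smul_def, map_mul, map_sub,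
      map_one, map_zero]
    ring

end Crest.Agent.R165.D7
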