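import Crest.Agent.R165.D7.Univ

/-! # R165 block D7: universality for an abstract finite geometry -/

set_option autoImplicit false
noncomputable section
open Classical Filter Topology

namespace Crest.Agent.R165.D7

variable {R : ℕ} {k : Cons} {V : Finset Site → ℝ} {c : ℝ × ℝ} {J lam C₁ B₁ ε₂ CM B : ℝ}

theorem lat_h {𝔤 : Geom} {js jN : ℕ} (hG : ∀ j < js, GeoOK k.p k.K k.Γs 𝔤 j) (hN : 𝔤.jN = jN) {a b : ℕ} (ha : jN ≤ a)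
    (hab : a ≤ b) (hb : b ≤ js) : 𝔤.h b ≤ 𝔤.h a := by
  induction b, hab using Nat.le_induction with
  | base => exact le_rfl
  | succ b hab ih =>
    have h1 := (hG b hb).wt.2.2
    rw [hN, if_neg (by rw [Nat.cast_lt]; omega), one_mul] at h1
    exact h1.trans (ih (by omega))

/-- the background is the Gaussian one with the plane coefficient at an index `≥ j₁` -/
theorem lat_bg (h : Ctx k R V c J lam C₁ B₁ ε₂ CM B) {𝔤 : Geom} {g : HE → HE → ℝ} {j₁ js : ℕ} {Λ₀ Λf : Finset Site}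
    {𝒮 : Finset (Finset Site)} {E₁ : Finset Edge} {N : ℕ} (hg : Good k R c ε₂ CM 𝔤 g js Λ₀ Λf 𝒮 E₁ N)
    (hN : 𝔤.jN = (j₁ + 1 : ℕ)) :
    bgF k 𝔤 c (betaOf J c * lam) V g js Λf = bgE 𝔤 g fun _ => -2 *
      ((gEn R k.Gam (fun _ => 1) c ((0, 0), 0)).cE k.p c (betaOf J c * lam) V (if js ≤ j₁ + 1 then js else j₁ + 2) 0 / (-2)) := by
  have hc : -1 < c.2 := by linarith [(abs_le.1 h.sm.2.2.2.1).1]
  have h0 : 0 < 𝔤.jN := by rw [hN]; exact_mod_cast Nat.succ_pos j₁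
  rw [bgF, bg_energy h.hk hc _ hg.init (typ_of_geo (hg.geo 0 hg.pos)) hg.pos hg.geo h0 hg.fin, bgE]
  congr 2
  refine Finset.prod_congr rfl fun i hi => ?_
  rw [show (if (js : ℕ∞) ≤ 𝔤.jN then js else 𝔤.jN.toNat + 1) = if js ≤ j₁ + 1 then js else j₁ + 2 by
    simp only [hN, Nat.cast_le, ENat.toNat_natCast], mul_div_cancel₀ _ (by norm_num : (-2 : ℝ) ≠ 0),
    cE_eq h.hk h.hV _ hg.init hg.geo h0 (by split_ifs <;> omega) ?_ (Finset.mem_range.1 hi)]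
  rw [hN]
  norm_cast
  split_ifs <;> omega

theorem lat_est {ρ a a₀ z z₀ X T ε E H : ℝ} (h1 : |a * z - a₀ * z₀| ≤ ε) (ha : 0 ≤ a) (h2 : a ≤ E) (hE : 0 < E)
    (h3 : |T - z * X| ≤ ε / E * H) : |ρ * a * T - a₀ * z₀ * (ρ * X)| ≤ ε * (|ρ * X| + H * |ρ|) := by
  have e : ρ * a * T - a₀ * z₀ * (ρ * X) = (a * z - a₀ * z₀) * (ρ * X) + a * (T - z * X) * ρ := by ring
  have h4 : a * |T - z * X| ≤ ε * H :=
    (mul_le_mul h2 h3 (abs_nonneg _) hE.le).trans_eq (by field_simp)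
  rw [e, mul_add, ← mul_assoc ε H]
  refine (abs_add_le _ _).trans (add_le_add ?_ ?_)
  · rw [abs_mul]
    exact mul_le_mul_of_nonneg_right h1 (abs_nonneg _)
  · rw [abs_mul, abs_mul, abs_of_nonneg ha]
    exact mul_le_mul_of_nonneg_right h4 (abs_nonneg _)

/-- `dec` for both geometries with `P = S ∪ {y i}`, `eT_eq`, `cor_smul`, `cor_shift`, `cor_pert` (`bgF_bound`),
`bg_energy`, `cE_eq`, `cor_scale`, `aS_diff`, `lZs_facts`, `zeC_facts` -/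
theorem U_lat (h : Ctx k R V c J lam C₁ B₁ ε₂ CM B) (N n m : ℕ) (ε : ℝ) (hε : 0 < ε) : ∃ j₀ : ℕ,
    ∀ (𝔤 : Geom) (w₀ : Edge → ℝ) (g g₀ : HE → HE → ℝ) (j₁ js : ℕ) (Λ₀ Λf : Finset Site) (𝒮 : Finset (Finset Site))
      (E₁ : Finset Edge), Good k R c ε₂ CM 𝔤 g js Λ₀ Λf 𝒮 E₁ N → Good k R c ε₂ CM (𝔤.noSpin w₀) g₀ js Λ₀ Λf 𝒮 E₁ N →
      (∀ e, 𝔤.w e = w₀ e * eray 𝔤.S e) → j₀ ≤ j₁ → j₁ ≤ js → 𝔤.jN = (j₁ + 1 : ℕ) → 𝔤.S.card = n → 𝔤.m = m →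
      (∀ v ∈ 𝔤.S, box v (6 * k.p.l js) ⊆ Λf) → (∀ i < m, box (𝔤.y i).1 (6 * k.p.l js) ⊆ Λf) →
      |cor m (𝔤.Ztau c (betaOf J c * lam) V 𝒮 E₁) ((𝔤.noSpin w₀).Ztau c (betaOf J c * lam) V 𝒮 E₁) -
          Real.exp (lZs k R V c (betaOf J c * lam)) ^ n * zeC k R V c (betaOf J c * lam) ^ m *
            (Zc E₁ 𝔤.w / Zc E₁ w₀ * cor m (bgE 𝔤 g fun _ => -2) (bgE (𝔤.noSpin w₀) g₀ fun _ => -2))| ≤
        ε * (|Zc E₁ 𝔤.w / Zc E₁ w₀ * cor m (bgE 𝔤 g fun _ => -2) (bgE (𝔤.noSpin w₀) g₀ fun _ => -2)| +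
          (𝔤.h js)⁻¹ ^ m * |Zc E₁ 𝔤.w / Zc E₁ w₀|) := by
  obtain ⟨-, hl⟩ := (lZs_facts k C₁).choose_spec R V c J lam B₁ ε₂ CM B h
  obtain ⟨-, hz⟩ := (zeC_facts k C₁ ε₂).choose_spec R V c J lam B₁ CM B h
  have hl' := ((Real.continuous_exp.tendsto _).comp hl).pow n
  have hE : 0 < Real.exp (lZs k R V c (betaOf J c * lam)) ^ n + 1 := by positivity
  obtain ⟨η, hη, hp⟩ := cor_pert m (Real.exp (N * k.ε)) _ (div_pos hε hE)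
  obtain ⟨j₂, hd⟩ := dec h N (n + m) η hη
  obtain ⟨j₃, h₃⟩ := eventually_atTop.1 (hl'.eventually_le_const (lt_add_one _))
  have hlz := (hl'.comp (tendsto_fst (g := (atTop : Filter ℕ)))).mul ((hz.pow m).comp tendsto_snd)
  rw [prod_atTop_atTop_eq] at hlz
  obtain ⟨j₄, h₄⟩ := eventually_atTop_prod_self.1 (Metric.tendsto_nhds.1 hlz ε hε)
  refine ⟨max j₂ (max j₃ j₄), fun 𝔤 w₀ g g₀ j₁ js Λ₀ Λf 𝒮 E₁ hg hg₀ hw hj hjs hN hn hm hS hy => ?_⟩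
  subst hm hn
  obtain ⟨hj₂, hj₃, hj₄⟩ : j₂ ≤ j₁ ∧ j₃ ≤ j₁ ∧ j₄ ≤ j₁ := by simpa using hj
  have hlt : (j₁ : ℕ∞) < 𝔤.jN := by rw [hN]; exact_mod_cast Nat.lt_succ_self j₁
  have h0 : 0 < 𝔤.jN := lt_of_le_of_lt zero_le hlt
  have hh : 0 < 𝔤.h js := by
    have := (hg.geo (js - 1) (by have := hg.pos; omega)).wt.2.1
    rwa [Nat.sub_add_cancel hg.pos] at this
  have hP : (𝔤.S ∪ (Finset.range 𝔤.m).image fun i => (𝔤.y i).1).card ≤ 𝔤.S.card + 𝔤.m :=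
    (Finset.card_union_le _ _).trans (Nat.add_le_add_left (Finset.card_image_le.trans (Finset.card_range _).le) _)
  have hP' : ∀ i < 𝔤.m, (𝔤.y i).1 ∈ (𝔤.S ∪ (Finset.range 𝔤.m).image fun i => (𝔤.y i).1) ∧
      box (𝔤.y i).1 (6 * k.p.l js) ⊆ Λf := fun i hi =>
    ⟨Finset.mem_union_right _ (Finset.mem_image_of_mem _ (Finset.mem_range.2 hi)), hy i hi⟩
  have hH : ∀ j, j₁ ≤ j → j < js → 𝔤.h js ≤ 𝔤.h (j + 1) := fun j a b => lat_h hg.geo hN (by omega) b le_rfl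
  obtain ⟨r, hr, e⟩ := hd 𝔤 g j₁ js Λ₀ Λf _ 𝒮 E₁ hg hj₂ hjs (Or.inl hlt.le) hP hP' hH
  obtain ⟨r₀, hr₀, e₀⟩ := hd (𝔤.noSpin w₀) g₀ j₁ js Λ₀ Λf _ 𝒮 E₁ hg₀ hj₂ hjs (Or.inl hlt.le) hP hP' hH
  have eT₀ : ∏ i ∈ Finset.range (𝔤.noSpin w₀).m, (1 + eT k (𝔤.noSpin w₀) c (betaOf J c * lam) V j₁ i • (tau i : Al)) =
      ∏ i ∈ Finset.range 𝔤.m, (1 + eT k 𝔤 c (betaOf J c * lam) V j₁ i • (tau i : Al)) :=
    Finset.prod_congr rfl fun i hi => by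
      rw [eT_eq h.hk h.hV _ hg.init (fun j a => hg.geo j (a.trans_le hjs)) h0 hlt.le (Finset.mem_range.1 hi),
        eT_eq h.hk h.hV _ hg₀.init (fun j a => hg₀.geo j (a.trans_le hjs)) h0 hlt.le (Finset.mem_range.1 hi)]
      rfl
  have h5 := hp _ _ (bgF k (𝔤.noSpin w₀) c (betaOf J c * lam) V g₀ js Λf) r r₀ hh (bgF_bound h hg) (bgF_bound h hg₀ :)
    (by rw [lat_bg h hg₀ hN, aug_bgE]) hr hr₀
  have hA : Real.sqrt (1 + c.2) ^ (-(4 * Λ₀.card : ℤ)) ≠ 0 :=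
    zpow_ne_zero _ (Real.sqrt_pos.2 (by linarith [(abs_le.1 h.sm.2.2.2.1).1])).ne'
  rw [e, e₀, eT₀, cor_smul, cor_shift,
    aS_diff h.hk h.hV _ hw hg.init hg₀.init hjs hg.geo hg₀.geo hlt Finset.subset_union_left hS, Real.exp_add,
    Real.exp_nat_mul, show ∀ A Z Z' a b : ℝ, A ≠ 0 → a ≠ 0 → A * Z * (a * b) / (A * Z' * a) = Z / Z' * b from
      fun A Z Z' a b hA ha => by rw [show A * Z * (a * b) = Z * b * (A * a) by ring, show A * Z' * a = Z' * (A * a) by ring,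
        mul_div_mul_right _ _ (mul_ne_zero hA ha), div_mul_eq_mul_div]]
  · refine lat_est (h₄ j₁ (if js ≤ j₁ + 1 then js else j₁ + 2) hj₄ (by split_ifs <;> omega)).le (by positivity) (h₃ j₁ hj₃) hE ?_
    rw [Function.comp_apply, ← cor_scale 𝔤 (𝔤.noSpin w₀) rfl, ← lat_bg h hg hN, ← lat_bg h hg₀ hN]
    exact h5
  · exact hA
  · exact (Real.exp_pos _).ne'

end Crest.Agent.R165.D7
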