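import Crest.Agent.R165.D7.UDom

/-! # R165 block D7: local observables in large discs -/

set_option autoImplicit false
noncomputable section
open Classical Filter Topology Crest.ProbabilityR.IsingModel

namespace Crest.Agent.R165.D7

variable {R : ℕ} {k : Cons} {V : Finset Site → ℝ} {c : ℝ × ℝ} {J lam C₁ B₁ ε₂ CM B : ℝ}

theorem u3a_in {a K : ℝ} (ha : 0 < a) {n : ℕ} (hn : 2 * (n + 1 : ℝ) ≤ K / a) : ↑(box 0 n) ⊆ domainSites (Metric.ball 0 K) a := by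
  intro z hz
  rw [Finset.mem_coe, mem_box'] at hz
  simp only [Prod.fst_zero, Prod.snd_zero, zero_sub, zero_add] at hz
  rw [le_div_iff₀ ha] at hn
  have key : ∀ u : ℤ, -(n : ℤ) ≤ u → u ≤ n → |a * u| ≤ a * n := fun u h1 h2 => by
    rw [abs_mul, abs_of_pos ha]
    exact mul_le_mul_of_nonneg_left (abs_le.2 ⟨by exact_mod_cast h1, by exact_mod_cast h2⟩) ha.le
  refine mem_ball_zero_iff.2 ((Complex.norm_le_abs_re_add_abs_im _).trans_lt ?_)
  have h1 := key _ hz.1 hz.2.1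
  have h2 := key _ hz.2.2.1 hz.2.2.2
  simp only [meshPoint]
  linarith

theorem u3a_out {a K : ℝ} (ha : 0 < a) {n : ℕ} (hn : K / a ≤ n) : domainSites (Metric.ball 0 K) a ⊆ ↑(box 0 n) := by
  intro z hz
  have h0 : ‖meshPoint a z‖ ≤ a * n := (mem_ball_zero_iff.1 hz).le.trans (by rwa [div_le_iff₀' ha] at hn)
  have key : ∀ u : ℤ, |a * u| ≤ a * n → -(n : ℤ) ≤ u ∧ u ≤ n := fun u hu => by
    rw [abs_mul, abs_of_pos ha] at hu
    have := abs_le.1 (le_of_mul_le_mul_left hu ha)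
    exact ⟨by exact_mod_cast this.1, by exact_mod_cast this.2⟩
  have h1 := key z.1 ((Complex.abs_re_le_norm (meshPoint a z)).trans h0)
  have h2 := key z.2 ((Complex.abs_im_le_norm (meshPoint a z)).trans h0)
  rw [Finset.mem_coe, mem_box']
  simp only [Prod.fst_zero, Prod.snd_zero]
  omega

theorem u3a_src (k : Cons) {O : Cfg → ℝ} {oS : Finset Site} (hO : DependsOn O ↑(edgesIn oS)) {ε₁ : ℝ} (hε : 0 < ε₁) :
    ∃ h b : ℝ, 0 < h ∧ (∀ n, |O n| ≤ b) ∧ (3 * k.a) ^ oS.card * (1 + 4 * k.Γ₀ ^ 2) ^ (edgesIn oS).card * (h * b) ≤ ε₁ := by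
  set b := ∑ T ∈ (edgesIn oS).powerset, |O (ind T)| with hb
  set A := (3 * k.a) ^ oS.card * (1 + 4 * k.Γ₀ ^ 2) ^ (edgesIn oS).card with hA
  have hb0 : 0 ≤ b := Finset.sum_nonneg fun _ _ => abs_nonneg _
  have hp : 0 < |A| * b + 1 := by positivity
  refine ⟨ε₁ / (|A| * b + 1), b, div_pos hε hp, fun n => ?_, ?_⟩
  · have e : O n = O (ind ((edgesIn oS).filter fun e => n e = true)) := hO fun e he => by
      have he' : e ∈ edgesIn oS := he
      simp [ind, he']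
    rw [e]
    exact Finset.single_le_sum (f := fun T => |O (ind T)|) (fun _ _ => abs_nonneg _)
      (Finset.mem_powerset.2 (Finset.filter_subset _ _))
  · rw [div_mul_eq_mul_div, ← mul_div_assoc, div_le_iff₀ hp]
    nlinarith [mul_le_mul_of_nonneg_right (le_abs_self A) (mul_nonneg hε.le hb0)]

theorem u3a_w (T : Finset Site) : wD .plus T ∅ = wOf ↑(ePlus_finite T.finite_toSet).toFinset ∅ := by
  rw [Set.Finite.coe_toFinset]; rfl

/-- discs with one local observable are good: `jN = 0`, `h` a small constant (`Src0`), `Γ = gamS k G 1 0 _`,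
`ℓ_{js} ≈ c₃ K / a`, `reg_ball`, `exists_ker`, `ker_bound` -/
theorem good_obs (h : Ctx k R V c J lam C₁ B₁ ε₂ CM B) (O : Cfg → ℝ) (r : ℕ) (hO : DependsOn O ↑(edgesIn (box 0 r)))
    {a : ℝ} (ha : 0 < a) : ∃ (N : ℕ) (h₀ : ℝ), 0 < h₀ ∧ ∀ j₀ : ℕ, ∃ K₀ : ℝ, ∀ K, K₀ ≤ K →
      ∃ (hf : (domainSites (Metric.ball 0 K) a).Finite) (js : ℕ) (g : HE → HE → ℝ) (Γ : ℕ → ℝ) (Λf : Finset Site),
        j₀ ≤ js ∧ box 0 (6 * k.p.l js) ⊆ Λf ∧ ExtConn (domainSites (Metric.ball 0 K) a) ∧ box 0 (r + 2) ⊆ hf.toFinset ∧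
        Good k R c ε₂ CM (gDom R .plus hf.toFinset ∅ g g 0 Γ (fun _ => h₀) 1 (fun _ => ((0, 0), 0)) (fun _ => O)
          fun _ => box 0 r) g js (lamD R hf.toFinset) Λf (shapes hf.toFinset .plus R) (e1D .plus hf.toFinset (R + 3)) N := by
  have hk := h.hk
  have hp := hk.pok
  obtain ⟨h₀, b, hh, hb, hsrc⟩ := u3a_src k hO h.cst.2.1
  obtain ⟨c₃, hc₃, M₀, hreg⟩ := reg_ball
  obtain ⟨CS, K', hker⟩ := ker_bound 0
  obtain ⟨A, hA, hA1, hA2⟩ : ∃ A : ℝ, 0 < A ∧ (k.K + K' * (1 + K') : ℝ) ≤ c₃ * A ∧ 2 * (k.K + r + 3 : ℝ) ≤ A := by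
    have h1 : 0 ≤ (k.K + K' * (1 + K') : ℝ) / c₃ := by positivity
    refine ⟨(k.K + K' * (1 + K') : ℝ) / c₃ + 2 * (k.K + r + 3), by positivity, ?_, by linarith⟩
    rw [mul_add c₃, mul_div_cancel₀ _ hc₃.ne']
    exact le_add_of_nonneg_right (by positivity)
  obtain ⟨N₁, hN₁⟩ := exists_nat_ge (A * k.p.L)
  obtain ⟨Γf, hfin⟩ := hk.fin (N₁ + R + 6) 0 CS
  have hΓ₁ : 0 < k.Γ₁ := by linarith [hk.one.1, hk.gam.1]
  obtain ⟨j₁, hj₁, hj₂⟩ : ∃ j₁ : ℕ, 1 ≤ j₁ ∧ max (2 * k.Γ₁) Γf * 1 ^ 0 ≤ k.Γ₁ * 2 ^ j₁ :=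
    ((eventually_ge_atTop 1).and (((tendsto_pow_atTop_atTop_of_one_lt (one_lt_two (α := ℝ))).const_mul_atTop hΓ₁).eventually_ge_atTop _)).exists
  obtain ⟨g1, g2, g3, -, -, -, g7⟩ := gamS_facts hk (le_max_left _ Γf) le_rfl 0 hj₁ hj₂
  refine ⟨(2 * (N₁ + R + 6) + 3) ^ 2, h₀, hh, fun j₀ => ⟨max M₀ (A * k.p.l (max j₀ j₁)) * a, fun K hK => ?_⟩⟩
  rw [← le_div_iff₀ ha, max_le_iff] at hK
  obtain ⟨hR, hE⟩ := hreg a K ha hK.1
  obtain ⟨js, hjs, s1, s2⟩ := exists_scale hp (max j₀ j₁) (t := K / a / A) (by rw [le_div_iff₀' hA]; exact hK.2)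
  rw [max_le_iff] at hjs
  rw [le_div_iff₀' hA] at s1
  rw [div_lt_iff₀' hA] at s2
  have hl : 1 ≤ k.p.l js := D5.one_le_l hk js
  have hl' : (1 : ℝ) ≤ k.p.l js := by exact_mod_cast hl
  have hout := u3a_out ha (K := K) (n := N₁ * k.p.l js) (by push_cast; nlinarith)
  have hf := (Finset.finite_toSet _).subset hout
  have hK0 : (0 : ℝ) ≤ k.K := Nat.cast_nonneg _
  have hK1 : (0 : ℝ) ≤ K' := Nat.cast_nonneg _
  have hr0 : (0 : ℝ) ≤ r := Nat.cast_nonneg _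
  have hin : ∀ n : ℕ, n ≤ k.K * k.p.l js + r + 2 → box 0 n ⊆ hf.toFinset := fun n hn => by
    have hn' : (n : ℝ) ≤ k.K * k.p.l js + r + 2 := by exact_mod_cast hn
    exact Set.Finite.subset_toFinset.2 (u3a_in ha (by nlinarith [mul_le_mul_of_nonneg_right hA2 (zero_le_one.trans hl')]))
  have hρ : (k.K + K' * (1 + K') : ℝ) * k.p.l js ≤ c₃ * (K / a) :=
    (mul_le_mul_of_nonneg_right hA1 (by positivity)).trans (by rw [mul_assoc]; exact mul_le_mul_of_nonneg_left s1 hc₃.le)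
  have hT : (↑hf.toFinset : Set Site) = domainSites (Metric.ball 0 K) a := hf.coe_toFinset
  have hR' : Reg ↑(ePlus_finite hf.toFinset.finite_toSet).toFinset (c₃ * (K / a)) := by rwa [Set.Finite.coe_toFinset, hT]
  obtain ⟨g, hg, hg'⟩ := exists_ker hR' ∅
  have hkb := hker _ _ ∅ g hR' le_rfl hg hg'
  rw [← u3a_w] at hg
  have hgeo : ∀ j < js, GeoOK k.p k.K k.Γs (gDom R .plus hf.toFinset ∅ g g 0 (gamS k (max (2 * k.Γ₁) Γf) 1 0 (j₁ + 1)) (fun _ => h₀) 1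
      (fun _ => ((0, 0), 0)) (fun _ => O) fun _ => box 0 r) j := fun j hj => by
    have h1 : k.p.l (j + 1) ≤ k.p.l js := D6.l_mono hp hj
    have h2 : (k.p.l (j + 1) : ℝ) ≤ k.p.l js := by exact_mod_cast h1
    obtain ⟨t1, t2, t3⟩ := geoOK_dom (R := R) (b := .plus) (T := hf.toFinset) (S := ∅) (gB := g) (gS := g) (jN := 0)
      (Gam := gamS k (max (2 * k.Γ₁) Γf) 1 0 (j₁ + 1)) (h := fun _ => h₀) (m := 1) (y := fun _ => ((0, 0), 0)) (O := fun _ => O)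
      (oS := fun _ => box 0 r) (p := k.p) (K := k.K) (Γs := k.Γs) (j := j) (ρ := c₃ * (K / a))
      (le_trans (by nlinarith [mul_nonneg (mul_nonneg hK1 (add_nonneg zero_le_one hK1)) (zero_le_one.trans hl')]) hρ)
      (by rwa [Set.Finite.coe_toFinset] at hR') ⟨hg, hg'⟩ (by simp)
      fun _ _ => hin _ (by have := Nat.mul_le_mul_left k.K h1; omega)
    refine ⟨t1, t2, t3, fun h => absurd h not_lt_zero, fun _ h => absurd h Finset.not_nonempty_empty,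
      fun _ => Or.inl ⟨0, 0, Nat.zero_le _, Even.zero, fun v hv => absurd hv (Finset.notMem_empty v), fun _ _ => self_mem_box _ _⟩,
      g7 j, ⟨hh, hh, ?_⟩, fun _ => rfl⟩
    simp [gDom]
  have hpos : 0 < js := hj₁.trans hjs.2
  refine ⟨hf, js, g, _, box 0 ((N₁ + R + 6) * k.p.l js), hjs.1, box_mono _ (Nat.mul_le_mul_right _ (by omega)), hE, hin _ (by omega),
    hpos, initOK_dom _ _ (by decide) (hT.symm ▸ hE) (fun _ _ => ⟨conn_box _ hp r, self_mem_box _ _, hin _ (by omega), hO⟩)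
      (fun h => absurd h (lt_irrefl _)), hgeo, Or.inr rfl, ⟨g1, fun j _ => g2 j⟩, ⟨?_, fun j _ h1 h2 => ?_, fun _ => le_rfl, fun j _ h1 h2 => ?_⟩,
    (finOK_dom hg hg' (Finset.empty_subset _) ⟨0, hin 0 (by omega) (self_mem_box _ _)⟩ (Finset.coe_subset.1 (hT ▸ hout)) ?_ le_rfl :),
    cov_box hl _ _, ?_⟩
  · exact (if_pos rfl).mpr ⟨fun _ => b, fun _ _ => hb, (Finset.sum_range_one _).trans_le hsrc⟩
  · have : j = 0 := by simpa [gDom] using h2
    omega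
  · exact absurd (by simpa [gDom] using h1) h2
  · nlinarith [Nat.mul_le_mul_left (R + 6) hl]
  · obtain ⟨j, rfl⟩ : ∃ j, js = j + 1 := ⟨js - 1, by omega⟩
    refine hfin _ j g 0 (hgeo j j.lt_succ_self) le_rfl hg (fun _ _ => rfl) (fun l i i' h1 h2 h3 => hkb l i i' h1 (le_trans ?_ hρ) h3)
      ((le_max_right _ _).trans (g3 _ hjs.2))
    have h4 : (l : ℝ) ≤ k.p.l (j + 1) := by exact_mod_cast h2
    nlinarith [mul_le_mul_of_nonneg_left h4 hK1, mul_le_mul_of_nonneg_left hl' (mul_nonneg hK1 hK1), mul_nonneg hK0 (zero_le_one.trans hl')]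

/-- kernels of large discs converge to the plane kernel (`ker_tendsto_gPl` along sequences, `reg_ball`) -/
theorem ker_disc {a : ℝ} (ha : 0 < a) (F : Gr Ix) (ε : ℝ) (hε : 0 < ε) : ∃ K₀ : ℝ, ∀ K, K₀ ≤ K →
    ∀ (hf : (domainSites (Metric.ball 0 K) a).Finite) (g : HE → HE → ℝ), IsKer (wD .plus hf.toFinset ∅) g → FinRow g →
      |gauss (extG g) F - gauss (extG gPl) F| ≤ ε := by
  obtain ⟨c₃, hc₃, M₀, hreg⟩ := reg_ball
  by_contra hc
  push Not at hc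
  choose K hK hf g hg hg' hlt using fun n : ℕ => hc ((max M₀ 0 + n) * a)
  simp only [← le_div_iff₀ ha] at hK
  have ht : Tendsto (fun n => K n / a) atTop atTop :=
    tendsto_atTop_mono hK (tendsto_atTop_add_const_left _ _ tendsto_natCast_atTop_atTop)
  have hl := ker_tendsto_gPl (fun n => (ePlus_finite (hf n).toFinset.finite_toSet).toFinset) (fun n => c₃ * (K n / a)) g
    (ht.const_mul_atTop hc₃) (fun n => ?_) (fun n => ⟨u3a_w _ ▸ hg n, hg' n⟩) fun e => ?_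
  · have h1 := gauss_tendsto (g := fun n => extG (g n)) (g₀ := extG gPl) (l := atTop) (fun i j => by
      rcases i with i | i <;> rcases j with j | j
      exacts [hl i j, tendsto_const_nhds, tendsto_const_nhds, tendsto_const_nhds]) F
    obtain ⟨n, hn⟩ := (Metric.tendsto_nhds.1 h1 ε hε).exists
    exact (hlt n).not_gt hn
  · rw [Set.Finite.coe_toFinset, Set.Finite.coe_toFinset]
    exact (hreg a (K n) ha (le_trans (by linarith [le_max_left M₀ 0, n.cast_nonneg (α := ℝ)]) (hK n))).1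
  · filter_upwards [ht.eventually_ge_atTop (2 * (supd (edgeB1 e) 0 + 1 : ℝ))] with n hn
    rw [Set.Finite.mem_toFinset, Set.Finite.coe_toFinset]
    exact Or.inr (u3a_in ha hn (mem_box.2 le_rfl))

theorem u3b_add (l : List ℕ) (F G : Al) : coefT l (F + G) = coefT l F + coefT l G := by
  simp only [coefT, Subalgebra.coe_add, map_add]

theorem u3b_smul (l : List ℕ) (t : ℝ) (F : Al) : coefT l (t • F) = t * coefT l F := by
  simp only [coefT, Subalgebra.coe_smul, map_smul, smul_eq_mul]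

theorem u3b_lin (G : ℝ) : augE (1 + G • (tau 0 : Al)) = 1 ∧ coefT [0] (1 + G • (tau 0 : Al)) = G := by
  have := aug_coef_sum 1 ({()} : Finset Unit) (fun _ => 1) fun _ _ => G
  simp only [Finset.sum_singleton, Finset.prod_range_one, one_smul, one_mul] at this
  exact ⟨this.1, this.2.1 0 one_pos⟩

theorem u3b_num {G G₀ e e₀ r₀ r₁ η h₀ ε : ℝ} (hε : 0 < ε) (h1 : |G - G₀| ≤ ε / 4) (h2 : |e - e₀| < ε / 4) (h3 : |r₀| ≤ η)
    (h4 : |r₁| ≤ η * h₀) (h5 : η ≤ 1 / 2) (h6 : η * (h₀ + |G₀| + ε) ≤ ε / 8) :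
    |(G + r₁ + e * (1 + r₀)) / (1 + r₀) - (G₀ + e₀)| < ε := by
  have h7 : 1 / 2 ≤ 1 + r₀ := by linarith [neg_abs_le r₀]
  have hη : 0 ≤ η := (abs_nonneg _).trans h3
  have h8 : |G| ≤ |G₀| + ε := by linarith [abs_sub_abs_le_abs_sub G G₀]
  have h9 : |(r₁ - G * r₀) / (1 + r₀)| ≤ ε / 4 := by
    rw [abs_div, abs_of_pos (by linarith : 0 < 1 + r₀), div_le_iff₀ (by linarith)]
    have a1 := abs_sub r₁ (G * r₀)
    have a2 : |G * r₀| ≤ (|G₀| + ε) * η := by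
      rw [abs_mul]
      exact mul_le_mul h8 h3 (abs_nonneg _) (by positivity)
    nlinarith
  rw [show (G + r₁ + e * (1 + r₀)) / (1 + r₀) - (G₀ + e₀) = (r₁ - G * r₀) / (1 + r₀) + (G - G₀) + (e - e₀) by
    field_simp; ring]
  linarith [abs_add_three ((r₁ - G * r₀) / (1 + r₀)) (G - G₀) (e - e₀)]

/-- `good_obs`, `dec` (`j₁ = js`, `P = {0}`), `bg_local`, `eT_obs`, `eT_obs_tendsto`, `expect_dom`, `aug_coef_sum`,
`coef_prod_mul`, `aug_prod_mul`, `ker_disc`, `BdT.coef` -/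
theorem U3_disc' (h : Ctx k R V c J lam C₁ B₁ ε₂ CM B)
    (O : Cfg → ℝ) (r : ℕ) (hO : DependsOn O ↑(edgesIn (box 0 r))) {a : ℝ} (ha : 0 < a) :
    Tendsto (fun K : ℝ => domainExpect (Metric.ball 0 K) a .plus J lam R V (betaOf J c) fun σ => O (nOf σ)) atTop
      (𝓝 (omegaO k R V c (betaOf J c * lam) O r)) := by
  rw [Metric.tendsto_atTop]
  intro ε hε
  obtain ⟨N, h₀, hh, H⟩ := good_obs h O r hO ha
  obtain ⟨F, hF⟩ : ∃ F : Al, F = hat ((gObs k R 1 O r).xE c) (edgesIn (box 0 r)) (fun n => algebraMap ℝ Al (O n)) := ⟨_, rfl⟩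
  obtain ⟨η, hη, hη1, hη2⟩ : ∃ η : ℝ, 0 < η ∧ η ≤ 1 / 2 ∧ η * (h₀⁻¹ + |gauss (extG gPl) (F : Gr Ix)| + ε) ≤ ε / 8 := by
    have hp : 0 < h₀⁻¹ + |gauss (extG gPl) (F : Gr Ix)| + ε := by positivity
    exact ⟨min (1 / 2) (ε / 8 / _), lt_min one_half_pos (div_pos (by positivity) hp), min_le_left _ _,
      (le_div_iff₀ hp).1 (min_le_right _ _)⟩
  obtain ⟨j₀, hj₀⟩ := dec h N 1 η hη
  obtain ⟨j₂, hj₂⟩ := Metric.tendsto_atTop.1 (eT_obs_tendsto h O r hO) (ε / 4) (by positivity)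
  obtain ⟨K₀, hK₀⟩ := H (max j₀ j₂)
  obtain ⟨K₁, hK₁⟩ := ker_disc ha (F : Gr Ix) (ε / 4) (by positivity)
  refine ⟨max K₀ K₁, fun K hK => ?_⟩
  obtain ⟨hf, js, g, Γ, Λf, hjs, hΛ, hext, hbox, hg⟩ := hK₀ K (le_of_max_le_left hK)
  obtain ⟨ρ, hρ, hZ⟩ := hj₀ _ g js js _ Λf {0} _ _ hg (le_of_max_le_left hjs) le_rfl (Or.inr le_rfl) (by simp)
    (fun i _ => ⟨Finset.mem_singleton_self _, hΛ⟩) (fun j _ _ => le_rfl)
  have hG := hK₁ K (le_of_max_le_right hK) hf g hg.fin.ker.1 hg.fin.ker.2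
  have he := hj₂ js (le_of_max_le_right hjs)
  rw [← eT_obs h.hk h.hV _ hg.init hg.geo rfl rfl rfl rfl rfl rfl, Real.dist_eq] at he
  have hb := bg_local h.hk (V := V) (betaOf J c * lam) hg.init js rfl rfl hg.fin
  have hx : hat ((gDom R .plus hf.toFinset ∅ g g 0 Γ (fun _ => h₀) 1 (fun _ => ((0, 0), 0)) (fun _ => O) fun _ => box 0 r).xE c)
      (edgesIn (box 0 r)) (fun n => algebraMap ℝ Al (O n)) = F := by
    rw [hF]
    refine BA.hat_congr_x _ (fun e he => ?_) _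
    have h1 : wD .plus hf.toFinset ∅ e = tc := by
      rw [(inside (b := .plus) (S := ∅) hbox).1 e (by rw [supd_comm]; exact mem_box.1 (D4.mem_edgesIn.1 he).1)]
      simp [eray]
    simp only [Geom.xE, Geom.wT, gDom, gObs, gPlane, wPl, h1]
  change bgF k _ c _ V g js Λf = 1 + gauss (extG g) ((hat _ (edgesIn (box 0 r)) (fun n => algebraMap ℝ Al (O n)) : Al) : Gr Ix) • tau 0 at hb
  rw [hx] at hb
  rw [hb] at hZ
  change _ = (_ * Zc _ (wD .plus hf.toFinset ∅) * _) • ((∏ i ∈ Finset.range 1, _) * _) at hZ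
  have hD : DependsOn O (eIn (domainSites (Metric.ball 0 K) a)) := hO.mono fun e he => by
    have h1 := mem_box'.1 (D4.mem_edgesIn.1 he).1
    obtain ⟨x, j⟩ := e
    refine ⟨hf.mem_toFinset.1 (hbox (mem_box'.2 ?_)), hf.mem_toFinset.1 (hbox (mem_box'.2 ?_))⟩
    · fin_cases j <;> simp [edgeB0] at h1 ⊢ <;> omega
    · simp [edgeB1] at h1 ⊢
      omega
  have hE := expect_dom (R := R) (b := .plus) (S := ∅) (gB := g) (gS := g) (jN := 0) (Gam := Γ) (h := fun _ => h₀) (m := 1)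
    (y := fun _ => ((0, 0), 0)) (O := fun _ => O) (oS := fun _ => box 0 r) (lam := lam) hf hext (by decide) h.t h.hV
    (Finset.empty_subset _) (fun _ => by simp) O hD le_rfl
  simp only [Finset.prod_empty, one_mul] at hE
  obtain ⟨a1, a2, -⟩ := aug_coef_sum 1 ((e1D .plus hf.toFinset (R + 3)).powerset.filter EvenSub)
    (fun γ => (∏ e ∈ γ, (gDom R .plus hf.toFinset ∅ g g 0 Γ (fun _ => h₀) 1 (fun _ => ((0, 0), 0)) (fun _ => O)
      fun _ => box 0 r).wT (tOf c) e) * pertF (shapes hf.toFinset .plus R) (betaOf J c * lam) V (ind γ)) fun _ γ => O (ind γ)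
  have a3 := a2 0 one_pos
  change augE (Geom.Ztau _ c _ V _ _) = _ at a1
  change coefT [0] (Geom.Ztau _ c _ V _ _) = _ at a3
  have hA : Real.sqrt (1 + c.2) ^ (-(4 * (lamD R hf.toFinset).card : ℤ)) * Zc (e1D .plus hf.toFinset (R + 3)) (wD .plus hf.toFinset ∅) *
      Real.exp (aS k (gDom R .plus hf.toFinset ∅ g g 0 Γ (fun _ => h₀) 1 (fun _ => ((0, 0), 0)) (fun _ => O) fun _ => box 0 r) c
        (betaOf J c * lam) V js js Λf {0}) ≠ 0 := by
    refine mul_ne_zero (mul_ne_zero (zpow_ne_zero _ (Real.sqrt_ne_zero'.2 ?_)) ?_) (Real.exp_ne_zero _)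
    · linarith [neg_abs_le c.2, h.sm.2.2.2.1]
    · refine Zc_ne_zero (fun e he => ?_) hg.fin.ker.1 hg.fin.ker.2
      simp only [e1D, reduceCtorEq, if_false, Set.Finite.mem_toFinset] at he
      simp only [wD, reduceCtorEq, if_false, wOf, he]
  rw [hE, ← a1, ← a3, hZ, u3b_smul, map_smul, smul_eq_mul, mul_div_mul_left _ _ hA, coef_prod_mul one_pos, aug_prod_mul, u3b_add,
    map_add, (u3b_lin _).1, (u3b_lin _).2, Real.dist_eq, omegaO, ← hF]
  refine u3b_num hε hG he ?_ ?_ hη1 hη2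
  · have := BdT.coef hh hρ []
    rwa [List.length_nil, pow_zero, mul_one] at this
  · have := BdT.coef hh hρ [0]
    rwa [List.length_singleton, pow_one] at this

end Crest.Agent.R165.D7
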