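import Crest.Agent.R165.D7.Mesh
import Crest.Agent.R165.D7.U3

/-! # R165 block D7: universality in domains, discs, and for local observables
(statements FROZEN, auxiliaries in namespace `R165.D7`). route.md §D7. -/

set_option autoImplicit false
noncomputable section
open Classical Filter Topology Crest.ProbabilityR.IsingModel

namespace Crest.Agent.R165

variable {k : Cons} {R : ℕ} {V : Finset Site → ℝ}

theorem D7.fin_ineq {ε c₂ a C X Y : ℝ} {l m : ℕ} (hε : 0 < ε) (hc : 0 < c₂) (ha : 0 < a) (h : c₂ ≤ a * l) (hX : 0 ≤ X)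
    (hY : 0 ≤ Y) : ε / (1 + (|C| / c₂) ^ m) * (X + (C / l) ^ m * Y) ≤ ε * (X + a ^ m * Y) := by
  have hl : (0 : ℝ) < l := by
    by_contra h'
    nlinarith [not_lt.1 h']
  have h1 : (C / l) ^ m ≤ (|C| / c₂) ^ m * a ^ m := by
    rw [← mul_pow]
    refine (le_abs_self _).trans ?_
    rw [abs_pow]
    refine pow_le_pow_left₀ (abs_nonneg _) ?_ m
    rw [abs_div, abs_of_pos hl, div_mul_eq_mul_div, div_le_div_iff₀ hl hc, mul_assoc]
    exact mul_le_mul_of_nonneg_left h (abs_nonneg _)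
  have h2 : 0 ≤ (|C| / c₂) ^ m := by positivity
  have h3 : 0 ≤ a ^ m * Y := by positivity
  rw [div_mul_eq_mul_div, div_le_iff₀ (by positivity), mul_assoc]
  refine mul_le_mul_of_nonneg_left ?_ hε.le
  nlinarith [mul_le_mul_of_nonneg_right h1 hY, mul_nonneg h2 hX]

theorem U1 {c : ℝ × ℝ} {J lam C₁ B₁ ε₂ CM B : ℝ} (hJ : 0 < J) (h : Ctx k R V c J lam C₁ B₁ ε₂ CM B)
    {D : Set ℂ} (hD : Nice D) (b : BoundaryCondition) (n m : ℕ) (x : Fin n → ℂ) (y : Fin m → ℂ) (j : Fin m → Fin 2)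
    (hb : b = .plus ∨ (b = .free ∧ Even n)) (hx : ∀ i, x i ∈ D) (hy : ∀ i, y i ∈ D)
    (hi : Function.Injective (Fin.append x y)) : ∀ ε > 0, ∃ a₀ > 0, ∀ a, 0 < a → a < a₀ →
      |domainMixedCorr D a b J lam R V (betaOf J c) x y j -
          Real.exp (lZs k R V c (betaOf J c * lam)) ^ n * zeC k R V c (betaOf J c * lam) ^ m *
            domainMixedCorr D a b J 0 R V (criticalBeta J) x y j| ≤
        ε * (|domainMixedCorr D a b J 0 R V (criticalBeta J) x y j| +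
          a ^ m * |domainMixedCorr D a b J 0 R V (criticalBeta J) x ![] ![]|) := by
  obtain ⟨N₀, CS, c₂, hCS, hc₂, H⟩ := D7.domOK_nice h.hk hD b x y hb hx hy hi
  obtain ⟨C, hC⟩ := D7.U_dom hJ h n m N₀ 0 hCS
  intro ε hε
  obtain ⟨j₀, hj₀⟩ := hC (ε / (1 + (|C| / c₂) ^ m)) (by positivity)
  obtain ⟨a₀, ha₀, H'⟩ := H j₀
  refine ⟨a₀, ha₀, fun a ha ha' => ?_⟩
  obtain ⟨hf, j₁, h1, h2, h3⟩ := H' a ha ha'
  exact (hj₀ D a hf b x y j j₁ j₁ h3 h1 le_rfl).trans (D7.fin_ineq hε hc₂ ha h2 (abs_nonneg _) (abs_nonneg _))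

theorem U2 {c : ℝ × ℝ} {J lam C₁ B₁ ε₂ CM B : ℝ} (hJ : 0 < J) (h : Ctx k R V c J lam C₁ B₁ ε₂ CM B)
    (n m : ℕ) (x : Fin n → ℂ) (y : Fin m → ℂ) (j : Fin m → Fin 2) (hn : Even n)
    (hi : Function.Injective (Fin.append x y)) : ∀ ε > 0, ∃ a₀ > 0, ∃ K₀ : ℝ, ∀ a, 0 < a → a < a₀ → ∀ K, K₀ ≤ K →
      |domainMixedCorr (Metric.ball 0 K) a .plus J lam R V (betaOf J c) x y j -
          Real.exp (lZs k R V c (betaOf J c * lam)) ^ n * zeC k R V c (betaOf J c * lam) ^ m *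
            domainMixedCorr (Metric.ball 0 K) a .plus J 0 R V (criticalBeta J) x y j| ≤
        ε * (|domainMixedCorr (Metric.ball 0 K) a .plus J 0 R V (criticalBeta J) x y j| +
          a ^ m * |domainMixedCorr (Metric.ball 0 K) a .plus J 0 R V (criticalBeta J) x ![] ![]|) := by
  obtain ⟨N₀, s, CS, c₂, hCS, hc₂, H⟩ := D7.domOK_ball h.hk x y hn hi
  obtain ⟨C, hC⟩ := D7.U_dom hJ h n m N₀ s hCS
  intro ε hε
  obtain ⟨j₀, hj₀⟩ := hC (ε / (1 + (|C| / c₂) ^ m)) (by positivity)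
  obtain ⟨a₀, ha₀, K₀, H'⟩ := H j₀
  refine ⟨a₀, ha₀, K₀, fun a ha ha' K hK => ?_⟩
  obtain ⟨hf, j₁, js, h1, h1', h2, h3⟩ := H' a ha ha' K hK
  exact (hj₀ _ a hf .plus x y j j₁ js h3 h1 h1').trans (D7.fin_ineq hε hc₂ ha h2 (abs_nonneg _) (abs_nonneg _))

theorem U3_disc {c : ℝ × ℝ} {J lam C₁ B₁ ε₂ CM B : ℝ} (h : Ctx k R V c J lam C₁ B₁ ε₂ CM B)
    (O : Cfg → ℝ) (r : ℕ) (hO : DependsOn O ↑(edgesIn (box 0 r))) {a : ℝ} (ha : 0 < a) :
    Tendsto (fun K : ℝ => domainExpect (Metric.ball 0 K) a .plus J lam R V (betaOf J c) fun σ => O (nOf σ)) atTop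
      (𝓝 (omegaO k R V c (betaOf J c * lam) O r)) :=
  D7.U3_disc' h O r hO ha

end Crest.Agent.R165
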