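import Crest.Agent.R165.D7.UDom
import Crest.Agent.R165.C.Main

/-! # R165 block D7: continuum domains satisfy `DomOK` -/

set_option autoImplicit false
noncomputable section
open Classical Filter Topology Crest.ProbabilityR.IsingModel

namespace Crest.Agent.R165.D7

theorem mesha_fl {a : ℝ} (ha : 0 < a) (t : ℝ) : a * (⌊t / a⌋ : ℤ) ≤ t ∧ t < a * (⌊t / a⌋ : ℤ) + a := by
  have h1 := mul_le_mul_of_nonneg_left (Int.floor_le (t / a)) ha.le
  have h2 := mul_lt_mul_of_pos_left (Int.lt_floor_add_one (t / a)) ha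
  rw [mul_div_cancel₀ _ ha.ne'] at h1 h2
  exact ⟨h1, by linarith⟩

theorem mesha_near {a : ℝ} (ha : 0 < a) (t : ℝ) {z : ℤ} {r : ℕ} (h1 : ⌊t / a⌋ - r ≤ z) (h2 : z ≤ ⌊t / a⌋ + r) :
    |a * z - t| < a * (r + 1) := by
  obtain ⟨h3, h4⟩ := mesha_fl ha t
  have h5 : ((⌊t / a⌋ : ℤ) : ℝ) - r ≤ z := by exact_mod_cast h1
  have h6 : (z : ℝ) ≤ (⌊t / a⌋ : ℤ) + r := by exact_mod_cast h2
  have h7 := mul_le_mul_of_nonneg_left h5 ha.le
  have h8 := mul_le_mul_of_nonneg_left h6 ha.le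
  rw [abs_lt]
  constructor <;> nlinarith

theorem box_mesh {D : Set ℂ} {a δ : ℝ} (ha : 0 < a) {x : ℂ} (hx : Metric.ball x δ ⊆ D) {r : ℕ} (hr : 2 * a * (r + 1) ≤ δ) :
    ↑(box (meshIndex a x) r) ⊆ domainSites D a := by
  intro z hz
  rw [Finset.mem_coe, mem_box'] at hz
  obtain ⟨h1, h2, h3, h4⟩ := hz
  refine hx ?_
  rw [Metric.mem_ball, dist_eq_norm]
  have h5 := mesha_near ha x.re h1 h2
  have h6 := mesha_near ha x.im h3 h4
  refine (Complex.norm_le_abs_re_add_abs_im _).trans_lt ?_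
  simp only [meshPoint, Complex.sub_re, Complex.sub_im]
  linarith

theorem sep_mesh {a : ℝ} (ha : 0 < a) {x x' : ℂ} {r : ℕ} (hr : 2 * a * (r + 1) ≤ ‖x - x'‖) :
    r ≤ supd (meshIndex a x) (meshIndex a x') := by
  by_contra h
  rcases Nat.eq_zero_or_pos r with rfl | h0
  · exact h (Nat.zero_le _)
  obtain ⟨r, rfl⟩ : ∃ r', r = r' + 1 := ⟨r - 1, by omega⟩
  simp only [supd, meshIndex, not_le] at h
  have h5 := mesha_near ha x.re (z := ⌊x'.re / a⌋) (r := r) (by omega) (by omega)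
  have h6 := mesha_near ha x.im (z := ⌊x'.im / a⌋) (r := r) (by omega) (by omega)
  obtain ⟨h1, h2⟩ := mesha_fl ha x'.re
  obtain ⟨h3, h4⟩ := mesha_fl ha x'.im
  have h7 := Complex.norm_le_abs_re_add_abs_im (x - x')
  rw [Complex.sub_re, Complex.sub_im] at h7
  rw [abs_lt] at h5 h6
  have h8 : |x.re - x'.re| < a * (r + 2) := abs_lt.2 ⟨by linarith, by linarith⟩
  have h9 : |x.im - x'.im| < a * (r + 2) := abs_lt.2 ⟨by linarith, by linarith⟩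
  push_cast at hr
  linarith

theorem sites_box {D : Set ℂ} {a ρ : ℝ} (ha : 0 < a) (hD : D ⊆ Metric.closedBall 0 ρ) {r : ℕ} (hr : ρ ≤ a * r) :
    domainSites D a ⊆ ↑(box 0 r) ∧ ∀ x ∈ D, meshIndex a x ∈ box 0 (r + 1) := by
  have key : ∀ z ∈ D, |z.re| ≤ a * r ∧ |z.im| ≤ a * r := fun z hz => by
    have h := mem_closedBall_zero_iff.1 (hD hz)
    exact ⟨(Complex.abs_re_le_norm z).trans (h.trans hr), (Complex.abs_im_le_norm z).trans (h.trans hr)⟩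
  have k1 : ∀ u : ℤ, |a * u| ≤ a * r → -(r : ℤ) ≤ u ∧ u ≤ r := fun u hu => by
    rw [abs_mul, abs_of_pos ha] at hu
    have := abs_le.1 (le_of_mul_le_mul_left hu ha)
    exact ⟨by exact_mod_cast this.1, by exact_mod_cast this.2⟩
  have k2 : ∀ t : ℝ, |t| ≤ a * r → -(r : ℤ) ≤ ⌊t / a⌋ ∧ ⌊t / a⌋ ≤ r := fun t ht => by
    obtain ⟨h1, h2⟩ := abs_le.1 ht
    refine ⟨Int.le_floor.2 ?_, Int.floor_le_iff.2 ?_⟩
    · rw [le_div_iff₀ ha]; push_cast; linarith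
    · rw [div_lt_iff₀ ha]; push_cast; linarith
  refine ⟨fun z hz => ?_, fun x hx => ?_⟩
  · obtain ⟨h1, h2⟩ := key _ hz
    have h3 := k1 z.1 h1
    have h4 := k1 z.2 h2
    rw [Finset.mem_coe, mem_box']
    simp only [Prod.fst_zero, Prod.snd_zero]
    omega
  · obtain ⟨h1, h2⟩ := key _ hx
    have h3 := k2 _ h1
    have h4 := k2 _ h2
    rw [mem_box']
    simp only [Prod.fst_zero, Prod.snd_zero, meshIndex]
    omega

theorem mesha_pts {N : ℕ} {z : Fin N → ℂ} (hi : Function.Injective z) :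
    ∃ δ ρ₀ : ℝ, 0 < δ ∧ 0 < ρ₀ ∧ (∀ i i', i ≠ i' → δ ≤ ‖z i - z i'‖) ∧ ∀ i, ‖z i‖ ≤ ρ₀ := by
  obtain ⟨ρ₀, hρ, h1⟩ := (Set.finite_range z).isBounded.exists_pos_norm_le
  have h2 : ∀ᶠ δ in 𝓝[>] (0 : ℝ), ∀ i i', i ≠ i' → δ ≤ ‖z i - z i'‖ := by
    refine eventually_all.2 fun i => eventually_all.2 fun i' => eventually_all.2 fun h => ?_
    exact nhdsWithin_le_nhds (eventually_le_nhds (norm_pos_iff.2 (sub_ne_zero.2 (hi.ne h))))
  obtain ⟨δ, h3, h4⟩ := (h2.and self_mem_nhdsWithin).exists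
  exact ⟨δ, ρ₀, h4, hρ, h3, fun i => h1 _ ⟨i, rfl⟩⟩

theorem mesha_app {n m : ℕ} (a : ℝ) (x : Fin n → ℂ) (y : Fin m → ℂ) (i : Fin (n + m)) :
    Fin.append (fun i => meshIndex a (x i)) (fun i => meshIndex a (y i)) i = meshIndex a (Fin.append x y i) := by
  refine Fin.addCases (fun i => ?_) (fun i => ?_) i <;> simp

theorem meshb_ker {D : Set ℂ} (hD : Nice D) (b : BoundaryCondition) {n : ℕ} (x : Fin n → ℂ)
    (hb : b = .plus ∨ (b = .free ∧ Even n)) (hx : ∀ i, x i ∈ D) (hi : Function.Injective x) :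
    ∃ C c a₀ : ℝ, 0 < c ∧ 0 < a₀ ∧ ∀ a (ha : 0 < a), a < a₀ → ∀ l : ℕ, (l : ℝ) ≤ c / a → ∀ CS, |C| ≤ CS →
      ∃ g, IsKer (wD b (hD.sites_finite ha).toFinset (spinsOf fun i => meshIndex a (x i))) g ∧ FinRow g ∧
        KerB (spinsOf fun i => meshIndex a (x i)) g l CS := by
  have hsq : ∀ {C CS : ℝ}, |C| ≤ CS → C ^ 2 ≤ CS ^ 2 := fun h => by
    rw [← sq_abs]
    exact pow_le_pow_left₀ (abs_nonneg _) h 2
  rcases hb with rfl | ⟨rfl, hn⟩
  · obtain ⟨ρ₀, hρ₀, a₀, ha₀, hreg⟩ := hD.reg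
    obtain ⟨C, K, hC⟩ := ker_bound n
    refine ⟨C, ρ₀ / (2 * (K + 1)), min a₀ (ρ₀ / (2 * (K + 1) ^ 2)), by positivity, by positivity, fun a ha hlt l hl CS hCS => ?_⟩
    have hE : Reg ↑(ePlus_finite (hD.sites_finite ha)).toFinset (ρ₀ / a) := by
      rw [Set.Finite.coe_toFinset]
      exact (hreg a ha (hlt.trans_le (min_le_left _ _))).1
    obtain ⟨g, g1, g2⟩ := exists_ker hE (spinsOf fun i => meshIndex a (x i))
    refine ⟨g, ?_, g2, fun l' i i' l1 l2 l3 => (hC _ _ _ g hE (Finset.card_image_le.trans (by simp)) g1 g2 l' i i' l1 ?_ l3).trans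
      (hsq hCS)⟩
    · rw [Set.Finite.coe_toFinset] at g1
      rwa [wD, if_neg (by decide), Set.Finite.coe_toFinset]
    · have h1 : (l' : ℝ) ≤ ρ₀ / (2 * (K + 1)) / a := le_trans (by exact_mod_cast l2) hl
      have h2 := hlt.trans_le (min_le_right _ _)
      rw [lt_div_iff₀ (by positivity)] at h2
      rw [le_div_iff₀ ha, le_div_iff₀ (by positivity)] at h1
      rw [le_div_iff₀ ha]
      have h3 : (0 : ℝ) ≤ K := Nat.cast_nonneg _
      nlinarith [mul_nonneg (Nat.cast_nonneg (α := ℝ) l') ha.le, mul_nonneg h3 ha.le]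
  · obtain ⟨C, c, a₀, hc, ha₀, H⟩ := ker_free_spins hD hn x hi hx
    refine ⟨C, c, a₀, hc, ha₀, fun a ha hlt l hl CS hCS => ?_⟩
    obtain ⟨g, g1, g2, g3⟩ := H a ha hlt
    refine ⟨g, ?_, g2, fun l' i i' l1 l2 l3 => (g3 l' i i' l1 (le_trans (by exact_mod_cast l2) hl) l3).trans (hsq hCS)⟩
    rwa [wD, if_pos rfl, Set.Finite.coe_toFinset]

/-- `Nice.reg`; kernels: plus `exists_ker`, `ker_bound`; free `ker_free_spins`, `exists_ker_free`, `ker_bound_free`;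
`j₁ = js` with `ℓ_{js} ≤ c₂ / a < L ℓ_{js}` (`exists_scale`). If `D = ∅`-like degenerate cases (`n = m = 0`) matter, note `Nice.riem`
gives a point of `D`. -/
theorem domOK_nice {R : ℕ} {k : Cons} (hk : ConsOK R k) {D : Set ℂ} (hD : Nice D) (b : BoundaryCondition) {n m : ℕ}
    (x : Fin n → ℂ) (y : Fin m → ℂ) (hb : b = .plus ∨ (b = .free ∧ Even n)) (hx : ∀ i, x i ∈ D) (hy : ∀ i, y i ∈ D)
    (hi : Function.Injective (Fin.append x y)) : ∃ (N₀ : ℕ) (CS c₂ : ℝ), 1 ≤ CS ∧ 0 < c₂ ∧ ∀ j₀ : ℕ, ∃ a₀ > 0, ∀ a, 0 < a → a < a₀ →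
      ∃ (hf : (domainSites D a).Finite) (j₁ : ℕ), j₀ ≤ j₁ ∧ c₂ ≤ a * k.p.l j₁ ∧
        DomOK k b hf.toFinset (fun i => meshIndex a (x i)) (fun i => meshIndex a (y i)) j₁ j₁ N₀ 0 CS := by
  obtain ⟨δ₀, -, hδ₀, -, hsep, -⟩ := mesha_pts hi
  obtain ⟨z₀, hz₀⟩ : D.Nonempty := by
    obtain ⟨φ, -, h, -⟩ := hD.riem
    obtain ⟨z, hz, -⟩ := h.surjOn (Metric.mem_ball_self one_pos)
    exact ⟨z, hz⟩
  have hz : ∀ i, Fin.append x y i ∈ D := fun i => Fin.addCases (fun i => by simpa using hx i) (fun i => by simpa using hy i) i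
  have hball : ∀ z ∈ D, ∀ᶠ δ in 𝓝[>] (0 : ℝ), Metric.ball z δ ⊆ D := fun z h => by
    obtain ⟨r, hr, h1⟩ := Metric.isOpen_iff.1 hD.isOpen z h
    exact nhdsWithin_le_nhds ((eventually_le_nhds hr).mono fun δ h2 => (Metric.ball_subset_ball h2).trans h1)
  obtain ⟨δ, ⟨⟨d1, d2⟩, d3⟩, hδ⟩ := ((((eventually_all.2 fun i => hball _ (hz i)).and (hball _ hz₀)).and
    (nhdsWithin_le_nhds (eventually_le_nhds hδ₀))).and self_mem_nhdsWithin).exists
  replace hδ : 0 < δ := hδ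
  obtain ⟨ρ, hρ⟩ := hD.bdd.subset_closedBall 0
  obtain ⟨ρ₀, hρ₀, a₀, ha₀, hreg⟩ := hD.reg
  obtain ⟨C₁, c₁, a₁, hc₁, ha₁, k1⟩ := meshb_ker hD b x hb hx fun i i' h =>
    Fin.castAdd_injective n m (hi (by simpa using h))
  obtain ⟨C₂, c₂, a₂, hc₂, ha₂, k2⟩ := meshb_ker hD b (n := 0) ![] (hb.imp_right fun h => ⟨h.1, Even.zero⟩) (fun i => i.elim0)
    fun i => i.elim0
  have hp := hk.pok
  have hK₁ : (20 : ℝ) ≤ k.K := by exact_mod_cast hk.big.2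
  have hL : (400 : ℝ) ≤ k.p.L := by exact_mod_cast hp.1
  have hl : ∀ j, (0 : ℝ) < k.p.l j := fun j => by
    have := D6.l_pos hp j
    exact_mod_cast (by omega : 0 < k.p.l j)
  obtain ⟨c, hc, e1, e2, e3, e4⟩ : ∃ c : ℝ, 0 < c ∧ c ≤ c₁ ∧ c ≤ c₂ ∧ c ≤ ρ₀ / k.K ∧ c ≤ δ / (4 * k.K * k.p.L) :=
    ⟨min (min c₁ c₂) (min (ρ₀ / k.K) (δ / (4 * k.K * k.p.L))), by positivity, (min_le_left _ _).trans (min_le_left _ _),
      (min_le_left _ _).trans (min_le_right _ _), (min_le_right _ _).trans (min_le_left _ _),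
      (min_le_right _ _).trans (min_le_right _ _)⟩
  rw [le_div_iff₀ (by positivity)] at e3 e4
  obtain ⟨N₀, hN₀⟩ := exists_nat_ge (ρ * k.p.L / c)
  rw [div_le_iff₀ hc] at hN₀
  refine ⟨N₀, max (max |C₁| |C₂|) 1, c / k.p.L, le_max_right _ _, by positivity, fun j₀ =>
    ⟨min (min (min a₀ a₁) (min a₂ (δ / 16))) (c / k.p.l j₀), by have := hl j₀; positivity, fun a ha hlt => ?_⟩⟩
  simp only [lt_min_iff] at hlt
  obtain ⟨⟨⟨a1, a2⟩, a3, a4⟩, a5⟩ := hlt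
  obtain ⟨j, hj, b1, b2⟩ := exists_scale hp j₀ (t := c / a) (by
    rw [lt_div_iff₀ (hl _)] at a5
    rw [le_div_iff₀ ha]
    linarith)
  have g1 := k1 a ha a2 _ (b1.trans (div_le_div_of_nonneg_right e1 ha.le)) _ ((le_max_left _ |C₂|).trans (le_max_left _ 1))
  have g2 := k2 a ha a3 _ (b1.trans (div_le_div_of_nonneg_right e2 ha.le)) _ ((le_max_right |C₁| _).trans (le_max_left _ 1))
  rw [show (spinsOf fun i : Fin 0 => meshIndex a (![] i)) = ∅ by simp [spinsOf]] at g2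
  obtain ⟨r1, r2, r3⟩ := hreg a ha a1
  rw [le_div_iff₀ ha] at b1
  rw [div_lt_iff₀ ha] at b2
  have hKc := mul_le_mul_of_nonneg_left b1 (show (0 : ℝ) ≤ k.K by positivity)
  have hKL := mul_le_mul_of_nonneg_left b1 (show (0 : ℝ) ≤ k.K * k.p.L by positivity)
  refine ⟨hD.sites_finite ha, j, hj, ?_, hb, ?_, ⟨meshIndex a z₀, ?_⟩, ⟨ρ₀ / a, ?_, ?_⟩, fun i => ?_, fun i i' hne => ?_,
    ⟨0, ?_⟩, g1, g2, Or.inl rfl⟩
  · rw [div_le_iff₀ (by positivity)]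
    linarith
  · rwa [Set.Finite.coe_toFinset]
  · rw [Set.Finite.mem_toFinset]
    exact box_mesh ha d2 (r := 0) (by push_cast; linarith) (Finset.mem_coe.2 (mem_box.2 (supd_self _).le))
  · rw [le_div_iff₀ ha]
    linarith
  · rw [eD, Set.Finite.coe_toFinset]
    split_ifs
    exacts [r2, r1]
  · rw [mesha_app, ← Finset.coe_subset, Set.Finite.coe_toFinset]
    refine box_mesh ha (d1 i) ?_
    push_cast
    nlinarith [mul_le_mul_of_nonneg_left hL (show (0 : ℝ) ≤ c * k.K by positivity)]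
  · rw [mesha_app, mesha_app]
    refine sep_mesh ha (le_trans ?_ (d3.trans (hsep i i' hne)))
    rw [D6.l_succ]
    push_cast
    linarith
  · rw [← Finset.coe_subset, Set.Finite.coe_toFinset]
    refine (sites_box ha hρ ?_).1
    push_cast
    refine le_of_mul_le_mul_left ?_ (show (0 : ℝ) < k.p.L by positivity)
    nlinarith [mul_le_mul_of_nonneg_left b2.le (Nat.cast_nonneg (α := ℝ) N₀)]

/-- `reg_ball`, `exists_ker`, `ker_bound`; `ℓ_{j₁} ≈ c₂ / a`, `ℓ_{js} ≈ c₃ K / a` -/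
theorem domOK_ball {R : ℕ} {k : Cons} (hk : ConsOK R k) {n m : ℕ} (x : Fin n → ℂ) (y : Fin m → ℂ) (hn : Even n)
    (hi : Function.Injective (Fin.append x y)) : ∃ (N₀ s : ℕ) (CS c₂ : ℝ), 1 ≤ CS ∧ 0 < c₂ ∧ ∀ j₀ : ℕ, ∃ a₀ > 0, ∃ K₀ : ℝ,
      ∀ a, 0 < a → a < a₀ → ∀ K, K₀ ≤ K → ∃ (hf : (domainSites (Metric.ball 0 K) a).Finite) (j₁ js : ℕ),
        j₀ ≤ j₁ ∧ j₁ ≤ js ∧ c₂ ≤ a * k.p.l j₁ ∧
        DomOK k .plus hf.toFinset (fun i => meshIndex a (x i)) (fun i => meshIndex a (y i)) j₁ js N₀ s CS := by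
  obtain ⟨δ, ρ₀, hδ, hρ₀, hsep, hbd⟩ := mesha_pts hi
  obtain ⟨c₄, hc₄, M₀, hreg⟩ := reg_ball
  obtain ⟨C, K', hker⟩ := ker_bound n
  have hp := hk.pok
  have hK₁ : (20 : ℝ) ≤ k.K := by exact_mod_cast hk.big.2
  have hL : (400 : ℝ) ≤ k.p.L := by exact_mod_cast hp.1
  have hK' : (0 : ℝ) ≤ K' := Nat.cast_nonneg _
  have hl : ∀ j, (0 : ℝ) < k.p.l j := fun j => by
    have := D6.l_pos hp j
    exact_mod_cast (by omega : 0 < k.p.l j)
  obtain ⟨c, hc, hcδ⟩ : ∃ c : ℝ, 0 < c ∧ 4 * k.K * k.p.L * c ≤ δ :=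
    ⟨δ / (4 * k.K * k.p.L), by positivity, (mul_div_cancel₀ _ (by positivity)).le⟩
  obtain ⟨c₃, hc₃, e1, e2, e3⟩ : ∃ c₃ : ℝ, 0 < c₃ ∧ k.K * c₃ ≤ c₄ ∧ 4 * k.K * c₃ ≤ 1 ∧ 2 * K' * c₃ ≤ c₄ := by
    have h0 : 0 < min c₄ 1 / (4 * (k.K + K')) := div_pos (lt_min hc₄ one_pos) (by positivity)
    have h1 : 4 * (k.K + K') * (min c₄ 1 / (4 * (k.K + K'))) = min c₄ 1 := mul_div_cancel₀ _ (by positivity)
    refine ⟨_, h0, ?_⟩
    generalize min c₄ 1 / (4 * (k.K + K')) = t at h0 h1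
    have h2 := min_le_left c₄ 1
    have h3 := min_le_right c₄ 1
    have h4 : 0 ≤ (k.K : ℝ) * t := by positivity
    have h5 : 0 ≤ (K' : ℝ) * t := by positivity
    refine ⟨?_, ?_, ?_⟩ <;> linarith
  obtain ⟨N₀, hN₀⟩ := exists_nat_ge (k.p.L / c₃)
  obtain ⟨N₁, hN₁⟩ := exists_nat_ge (ρ₀ / c)
  rw [div_le_iff₀ hc₃] at hN₀
  rw [div_le_iff₀ hc] at hN₁
  refine ⟨N₀, k.K * (N₁ + 2), max |C| 1, c / k.p.L, le_max_right _ _, by positivity, fun j₀ =>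
    ⟨min (min 1 (δ / 12)) (c / k.p.l j₀), lt_min (lt_min one_pos (by positivity)) (div_pos hc (hl _)),
      max (max M₀ (c / c₃)) (max (2 * ρ₀ + 16) (2 * K' ^ 2 / c₄)), fun a ha ha₀ K hK => ?_⟩⟩
  simp only [lt_min_iff] at ha₀
  simp only [max_le_iff] at hK
  obtain ⟨⟨a1, a2⟩, a3⟩ := ha₀
  obtain ⟨⟨k1, k2⟩, k3, k4⟩ := hK
  rw [div_le_iff₀ hc₃] at k2
  rw [div_le_iff₀ hc₄] at k4
  have hK0 : 0 < K := by linarith
  have hKa : K ≤ K / a := by rw [le_div_iff₀ ha]; nlinarith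
  obtain ⟨j₁, hj₁, b1, b2⟩ := exists_scale hp j₀ (t := c / a) (by
    rw [lt_div_iff₀ (hl _)] at a3
    rw [le_div_iff₀ ha]
    linarith)
  obtain ⟨js, hjs, b3, b4⟩ := exists_scale hp j₁ (t := c₃ * (K / a)) (b1.trans (by
    rw [← mul_div_assoc]
    exact div_le_div_of_nonneg_right (by linarith) ha.le))
  have b3' : a * k.p.l js ≤ c₃ * K := by
    rw [← mul_div_assoc, le_div_iff₀ ha] at b3
    linarith
  rw [← mul_div_assoc, div_lt_iff₀ ha] at b4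
  rw [le_div_iff₀ ha] at b1
  rw [div_lt_iff₀ ha] at b2
  have hbox := (sites_box ha (Metric.ball_subset_closedBall (x := (0 : ℂ)) (ε := K)) (r := N₀ * k.p.l js) (by
    push_cast
    refine le_of_mul_le_mul_left ?_ hc₃
    nlinarith [mul_le_mul_of_nonneg_right hN₀ (mul_pos (hl js) ha).le])).1
  have hf := (box 0 (N₀ * k.p.l js)).finite_toSet.subset hbox
  obtain ⟨r1, r2⟩ := hreg a K ha (k1.trans hKa)
  have hE : Reg ↑(ePlus_finite hf.toFinset.finite_toSet).toFinset (c₄ * (K / a)) := by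
    rwa [Set.Finite.coe_toFinset, Set.Finite.coe_toFinset]
  have hg : ∀ S : Finset Site, S.card ≤ n →
      ∃ g, IsKer (wD .plus hf.toFinset S) g ∧ FinRow g ∧ KerB S g (k.p.l js) (max |C| 1) := fun S hS => by
    obtain ⟨g, g1, g2⟩ := exists_ker hE S
    refine ⟨g, ?_, g2, fun l i i' l1 l2 l3 => (hker _ _ S g hE hS g1 g2 l i i' l1 ?_ l3).trans ?_⟩
    · rw [Set.Finite.coe_toFinset] at g1
      rwa [wD, if_neg (by decide)]
    · have l4 : (l : ℝ) ≤ c₃ * (K / a) := le_trans (by exact_mod_cast l2) b3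
      nlinarith [mul_le_mul_of_nonneg_left l4 hK', mul_le_mul_of_nonneg_right e3 (hK0.le.trans hKa),
        mul_le_mul_of_nonneg_left hKa hc₄.le]
    · rw [← sq_abs C]
      exact pow_le_pow_left₀ (abs_nonneg _) (le_max_left _ _) 2
  refine ⟨hf, j₁, js, hj₁, hjs, ?_, Or.inl rfl, ?_, ⟨0, ?_⟩, ⟨c₄ * (K / a), ?_, ?_⟩, fun i => ?_, fun i i' hne => ?_,
    ⟨0, ?_⟩, hg _ ?_, hg _ (Nat.zero_le _), Or.inr ⟨hn, 0, N₁ * k.p.l (j₁ + 1) + 1, ?_, fun i => ?_⟩⟩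
  · rw [div_le_iff₀ (by positivity)]
    linarith
  · rwa [Set.Finite.coe_toFinset]
  · rw [Set.Finite.mem_toFinset]
    refine Metric.mem_ball.2 ?_
    rw [show meshPoint a 0 = 0 from Complex.ext (by simp [meshPoint]) (by simp [meshPoint]), dist_self]
    exact hK0
  · nlinarith [mul_le_mul_of_nonneg_left b3 (show (0 : ℝ) ≤ k.K by positivity),
      mul_le_mul_of_nonneg_right e1 (hK0.le.trans hKa)]
  · rwa [eD, if_neg (by decide), Set.Finite.coe_toFinset]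
  · rw [mesha_app, ← Finset.coe_subset, Set.Finite.coe_toFinset]
    refine box_mesh ha (δ := K - ρ₀) (Metric.ball_subset_ball' ?_) ?_
    · rw [dist_zero_right]
      linarith [hbd i]
    · push_cast
      nlinarith [mul_le_mul_of_nonneg_left b3' (show (0 : ℝ) ≤ k.K by positivity), mul_le_mul_of_nonneg_right e2 hK0.le]
  · rw [mesha_app, mesha_app]
    refine sep_mesh ha (le_trans ?_ (hsep i i' hne))
    rw [D6.l_succ]
    push_cast
    nlinarith [mul_le_mul_of_nonneg_left b1 (show (0 : ℝ) ≤ k.K * k.p.L by positivity)]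
  · rw [← Finset.coe_subset, Set.Finite.coe_toFinset]
    exact hbox
  · exact Finset.card_image_le.trans (by simp)
  · have h1 := D6.l_pos hp (j₁ + 1)
    have h2 : k.K * (N₁ + 2) < k.p.L ^ (k.K * (N₁ + 2)) := Nat.lt_pow_self (by have := hp.1; omega)
    calc k.K * (N₁ * k.p.l (j₁ + 1) + 1 + 1) ≤ k.K * (N₁ * k.p.l (j₁ + 1) + 2 * k.p.l (j₁ + 1)) :=
          Nat.mul_le_mul_left _ (by omega)
      _ = k.p.l (j₁ + 1) * (k.K * (N₁ + 2)) := by ring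
      _ ≤ k.p.l (j₁ + 1) * k.p.L ^ (k.K * (N₁ + 2)) := Nat.mul_le_mul_left _ h2.le
      _ = _ := by simp only [Par.l, pow_add]; ring
  · rw [mesha_app]
    refine (sites_box ha (D := Metric.closedBall 0 ρ₀) subset_rfl ?_).2 _ (mem_closedBall_zero_iff.2 (hbd i))
    rw [D6.l_succ]
    push_cast
    nlinarith [mul_le_mul_of_nonneg_left b2.le (Nat.cast_nonneg (α := ℝ) N₁)]

end Crest.Agent.R165.D7
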