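import Crest.Agent.R165.D7.Defs

/-! # R165 block D7: schedules of the amplitudes and of the source weights (elementary) -/

set_option autoImplicit false
noncomputable section
open Classical

namespace Crest.Agent.R165.D7

variable {R : ℕ} {k : Cons}

theorem sched_l_pos {p : Par} (hp : p.OK) (j : ℕ) : (1 : ℝ) ≤ p.l j := by
  have h : 0 < p.l j := Nat.mul_pos hp.2.2.1 (pow_pos (lt_of_lt_of_le (by norm_num) hp.1) j)
  exact_mod_cast h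

theorem sched_l_succ (p : Par) (j : ℕ) : (p.l (j + 1) : ℝ) = p.L * p.l j := by
  rw [D2.l_succ, Nat.cast_mul]

theorem gamS_facts (hk : ConsOK R k) {G D : ℝ} (hG : 2 * k.Γ₁ ≤ G) (hD : 1 ≤ D) (s : ℕ) {j₁ : ℕ} (h1 : 1 ≤ j₁)
    (hj : G * D ^ s ≤ k.Γ₁ * 2 ^ j₁) :
    let Γ := gamS k G D s (j₁ + 1)
    Γ 0 = k.Gam 0 ∧ (∀ j, Γ j ≤ k.Gam j) ∧ (∀ j, j₁ ≤ j → G ≤ Γ j) ∧ (∀ j, 1 ≤ j → Γ j ≤ G * D ^ s) ∧
    (∀ j, j₁ + 1 ≤ j → j < j₁ + 1 + s → D * Γ (j + 1) ≤ Γ j) ∧ (∀ j, 1 ≤ j → j ≤ j₁ → Γ j ≤ Γ (j + 1)) ∧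
    ∀ j, k.Γs ≤ Γ j ∧ k.Γs ≤ Γ (j + 1) ∧ Γ (j + 1) ≤ 2 * Γ j ∧
      (j = 0 → k.Γs * k.p.l 1 * Γ 1 ≤ Γ 0 ∧ Γ 0 ≤ 4 * k.Γs * k.p.l 1 * Γ 1) := by
  intro Γ
  have a1 := hk.one.1
  obtain ⟨a2, a3⟩ := hk.gam
  have a4 := sched_l_pos hk.pok 1
  have e0 : Γ 0 = k.Γ₀ := rfl
  have e1 : ∀ j, 1 ≤ j → Γ j = min (k.Γ₁ * 2 ^ j) (G * D ^ (s - (j - (j₁ + 1)))) := fun j hj => if_neg (by omega)
  have m1 : ∀ {a b : ℕ}, a ≤ b → G * D ^ a ≤ G * D ^ b := fun h =>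
    mul_le_mul_of_nonneg_left (pow_le_pow_right₀ hD h) (by linarith)
  have m2 : ∀ {a b : ℕ}, a ≤ b → k.Γ₁ * 2 ^ a ≤ k.Γ₁ * 2 ^ b := fun h =>
    mul_le_mul_of_nonneg_left (pow_le_pow_right₀ one_le_two h) (by linarith)
  have m3 : ∀ a : ℕ, G ≤ G * D ^ a := fun a => by simpa using m1 a.zero_le
  have m4 : ∀ a : ℕ, k.Γ₁ ≤ k.Γ₁ * 2 ^ a := fun a => by simpa using m2 a.zero_le
  have e2 : Γ 1 = 2 * k.Γ₁ := by rw [e1 1 le_rfl, pow_one, mul_comm, min_eq_left (hG.trans (m3 _))]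
  have a5 : 1 ≤ k.Γs * k.p.l 1 := one_le_mul_of_one_le_of_one_le a1 a4
  have a6 : k.Γ₁ ≤ k.Γ₀ := by rw [a3]; nlinarith
  have lo : ∀ j, k.Γs ≤ Γ j := fun j => by
    rcases j.eq_zero_or_pos with rfl | h
    · exact a2.trans a6
    · rw [e1 j h]; exact le_min (a2.trans (m4 _)) (le_trans (by linarith) (m3 _))
  refine ⟨rfl, fun j => ?_, fun j h => ?_, fun j h => ?_, fun j h h' => ?_, fun j h h' => ?_,
    fun j => ⟨lo j, lo _, ?_, ?_⟩⟩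
  · rcases j.eq_zero_or_pos with rfl | h
    · exact le_rfl
    · rw [e1 j h, Cons.Gam, if_neg h.ne']; exact min_le_left _ _
  · rw [e1 j (h1.trans h)]; exact le_min (((m3 s).trans hj).trans (m2 h)) (m3 _)
  · rw [e1 j h]; exact (min_le_right _ _).trans (m1 (Nat.sub_le _ _))
  · have h2 : D * Γ (j + 1) ≤ G * D ^ (s - (j - (j₁ + 1))) := by
      rw [e1 _ (by omega), show s - (j - (j₁ + 1)) = s - (j + 1 - (j₁ + 1)) + 1 by omega, pow_succ D, ← mul_assoc, mul_comm D]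
      exact mul_le_mul_of_nonneg_right (min_le_right _ _) (by linarith)
    rw [e1 j (by omega)]
    exact le_min (h2.trans (((m1 (Nat.sub_le _ _)).trans hj).trans (m2 (by omega)))) h2
  · rw [e1 j h, e1 _ (by omega)]
    exact min_le_min (m2 j.le_succ) (m1 (by omega))
  · rcases j.eq_zero_or_pos with rfl | h
    · rw [zero_add, e2, e0]; linarith
    · rw [e1 j h, e1 _ (by omega), mul_min_of_nonneg _ _ zero_le_two]
      refine min_le_min (le_of_eq (by ring)) ((m1 (b := s - (j - (j₁ + 1))) (by omega)).trans ?_)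
      linarith [m3 (s - (j - (j₁ + 1)))]
  · rintro -
    rw [e2, e0, a3]
    constructor <;> nlinarith

theorem hS_facts (hk : ConsOK R k) {Γ : ℕ → ℝ} {ε₂ CM Gt : ℝ} (hε : 0 < ε₂) (hC : 1 ≤ CM) (m : ℕ) {j₁ : ℕ} (h1 : 1 ≤ j₁)
    (hΓ : ∀ j, 0 < Γ j) (hm : ∀ j, 1 ≤ j → j ≤ j₁ → Γ j ≤ Γ (j + 1)) (ht : ∀ j, 1 ≤ j → Γ j ≤ Gt) :
    let h := hS k Γ ε₂ CM m (j₁ + 1)
    (∀ j, 0 < h j ∧ 0 < h (j + 1) ∧ h (j + 1) ≤ (if (j : ℕ∞) < (j₁ + 1 : ℕ) then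
      (if j = 0 then Γ 0 ^ 2 * k.p.l 1 / Γ 1 ^ 2 else (k.p.L : ℝ)) else 1) * h j) ∧
    h 0 * Γ 0 ^ 2 = ε₂ ∧ (∀ j, 1 ≤ j → j ≤ j₁ + 1 → h j * Γ j ^ 2 = ε₂ * k.p.l j) ∧
    CM * (m + 1) * h (j₁ + 2) ≤ h (j₁ + 1) ∧ ∀ j, j₁ ≤ j → ε₂ / (Gt ^ 2 * (CM * (m + 1))) * k.p.l j₁ ≤ h j := by
  intro h
  have lp := fun j => lt_of_lt_of_le one_pos (sched_l_pos hk.pok j)
  have hc : 1 ≤ CM * (m + 1) := one_le_mul_of_one_le_of_one_le hC (le_add_of_nonneg_left m.cast_nonneg)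
  have hc0 : 0 < CM * (m + 1) := one_pos.trans_le hc
  have e0 : h 0 = ε₂ / Γ 0 ^ 2 := rfl
  have e1 : ∀ j, 1 ≤ j → j ≤ j₁ + 1 → h j = ε₂ * k.p.l j / Γ j ^ 2 := fun j h1 h2 => by
    simp only [h, hS, if_neg (show j ≠ 0 by omega), if_pos h2]
  have e2 : ∀ j, j₁ + 1 < j → h j = h (j₁ + 1) / (CM * (m + 1)) := fun j h1 => by
    rw [e1 _ (by omega) le_rfl]
    simp only [h, hS, if_neg (show j ≠ 0 by omega), if_neg h1.not_ge]
  have p1 : ∀ j, 1 ≤ j → j ≤ j₁ + 1 → 0 < h j := fun j h1 h2 => by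
    rw [e1 j h1 h2]; exact div_pos (mul_pos hε (lp j)) (pow_pos (hΓ j) 2)
  have p2 : ∀ j, 0 < h j := fun j => by
    rcases j.eq_zero_or_pos with rfl | h1
    · exact div_pos hε (pow_pos (hΓ 0) 2)
    rcases le_or_gt j (j₁ + 1) with h2 | h2
    · exact p1 j h1 h2
    · rw [e2 j h2]; exact div_pos (p1 _ (by omega) le_rfl) hc0
  have hL : (1 : ℝ) ≤ k.p.L := by exact_mod_cast le_trans (by norm_num) hk.pok.1
  have p3 : ∀ j, j₁ ≤ j → j ≤ j₁ + 1 → ε₂ / Gt ^ 2 * k.p.l j₁ ≤ h j := fun j h2 h3 => by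
    rw [e1 j (h1.trans h2) h3, div_mul_eq_mul_div]
    refine div_le_div₀ (mul_pos hε (lp j)).le (mul_le_mul_of_nonneg_left ?_ hε.le) (pow_pos (hΓ j) 2)
      (pow_le_pow_left₀ (hΓ j).le (ht j (h1.trans h2)) 2)
    rcases h2.eq_or_lt with rfl | h4
    · exact le_rfl
    · rw [show j = j₁ + 1 by omega, sched_l_succ]
      exact le_mul_of_one_le_left (lp _).le hL
  refine ⟨fun j => ⟨p2 j, p2 _, ?_⟩, div_mul_cancel₀ _ (pow_pos (hΓ 0) 2).ne', fun j h1 h2 => ?_, ?_, fun j h2 => ?_⟩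
  · by_cases h2 : j < j₁ + 1
    · rw [if_pos (Nat.cast_lt.2 h2), e1 (j + 1) (by omega) h2]
      rcases j.eq_zero_or_pos with rfl | h3
      · have := (hΓ 0).ne'
        rw [if_pos rfl, e0, zero_add]
        exact le_of_eq (by field_simp)
      · rw [if_neg h3.ne', e1 j h3 h2.le, sched_l_succ, ← mul_div_assoc, mul_left_comm]
        exact div_le_div_of_nonneg_left (mul_pos (one_pos.trans_le hL) (mul_pos hε (lp j))).le (pow_pos (hΓ j) 2)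
          (pow_le_pow_left₀ (hΓ j).le (hm j h3 (by omega)) 2)
    · rw [if_neg (fun h3 => h2 (Nat.cast_lt.1 h3)), one_mul, e2 (j + 1) (by omega)]
      rcases (not_lt.1 h2).eq_or_lt with rfl | h3
      · exact div_le_self (p2 _).le hc
      · exact (e2 j h3).ge
  · rw [e1 j h1 h2, div_mul_cancel₀ _ (pow_pos (hΓ j) 2).ne']
  · rw [e2 _ (by omega), mul_div_cancel₀ _ hc0.ne']
  · rw [← div_div, div_mul_eq_mul_div]
    rcases le_or_gt j (j₁ + 1) with h3 | h3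
    · exact (div_le_div_of_nonneg_right (p3 j h2 h3) hc0.le).trans (div_le_self (p2 _).le hc)
    · rw [e2 j h3]
      exact div_le_div_of_nonneg_right (p3 _ j₁.le_succ le_rfl) hc0.le

/-- choice of the scale -/
theorem exists_scale {p : Par} (hp : p.OK) (j₀ : ℕ) {t : ℝ} (ht : (p.l j₀ : ℝ) ≤ t) :
    ∃ j, j₀ ≤ j ∧ (p.l j : ℝ) ≤ t ∧ t < p.L * p.l j := by
  by_contra! hc
  have h1 : ∀ j, j₀ ≤ j → (p.l j : ℝ) ≤ t := fun j hj => by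
    induction j, hj using Nat.le_induction with
    | base => exact ht
    | succ j hj ih => rw [sched_l_succ]; exact hc j hj ih
  obtain ⟨n, hn⟩ := exists_nat_gt t
  have h2 : j₀ + n < p.l (j₀ + n) := (Nat.lt_pow_self (lt_of_lt_of_le (by norm_num) hp.1)).trans_le
    (Nat.le_mul_of_pos_left _ hp.2.2.1)
  have h3 : (n : ℝ) ≤ p.l (j₀ + n) := by exact_mod_cast (Nat.le_add_left n j₀).trans h2.le
  linarith [h1 _ (Nat.le_add_right j₀ n)]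

theorem cov_box {l : ℕ} (hl : 1 ≤ l) (x₀ : Site) (N₀ : ℕ) : geoZ.cov l (box x₀ (N₀ * l)) ≤ (2 * N₀ + 3) ^ 2 := by
  obtain ⟨C, h1, h2⟩ := geoZ.cover x₀ (N₀ * l) l hl
  rw [Nat.mul_div_cancel _ hl] at h1
  exact (geoZ.cov_le fun z hz => h2 z (exists_geoZ.choose_spec.2 ▸ hz)).trans h1

end Crest.Agent.R165.D7
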