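import Crest.Agent.R165.D7.Lat
import Crest.Agent.R165.D7.Dom
import Crest.Agent.R165.D7.Sched

/-! # R165 block D7: universality for lattice domains -/

set_option autoImplicit false
noncomputable section
open Classical Filter Topology Crest.ProbabilityR.IsingModel

namespace Crest.Agent.R165.D7

variable {R : ℕ} {k : Cons} {V : Finset Site → ℝ} {c : ℝ × ℝ} {J lam C₁ B₁ ε₂ CM B : ℝ}

/-- plain lattice hypotheses -/
structure DomOK (k : Cons) (b : BoundaryCondition) (T : Finset Site) {n m : ℕ} (v : Fin n → Site) (u : Fin m → Site)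
    (j₁ js N₀ s : ℕ) (CS : ℝ) : Prop where
  bc : b = .plus ∨ (b = .free ∧ Even n)
  ext : ExtConn ↑T
  ne : T.Nonempty
  reg : ∃ ρ : ℝ, (k.K * k.p.l js : ℝ) ≤ ρ ∧ Reg (eD b T) ρ
  ins : ∀ i, box (Fin.append v u i) (k.K * k.p.l js + 3) ⊆ T
  sep : ∀ i i', i ≠ i' → k.K * k.p.l (j₁ + 1) + 2 ≤ supd (Fin.append v u i) (Fin.append v u i')
  bdd : ∃ x₀, T ⊆ box x₀ (N₀ * k.p.l js)
  ker : ∃ g, IsKer (wD b T (spinsOf v)) g ∧ FinRow g ∧ KerB (spinsOf v) g (k.p.l js) CS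
  ker₀ : ∃ g, IsKer (wD b T ∅) g ∧ FinRow g ∧ KerB ∅ g (k.p.l js) CS
  clu : js = j₁ ∨ (Even n ∧ ∃ xc r₀, k.K * (r₀ + 1) ≤ k.p.l (j₁ + 1 + s) ∧ ∀ i, Fin.append v u i ∈ box xc r₀)

theorem uda_l_mono {p : Par} (hp : p.OK) {j j' : ℕ} (h : j ≤ j') : p.l j ≤ p.l j' :=
  Nat.mul_le_mul_left _ (Nat.pow_le_pow_right (by have := hp.1; omega) h)

theorem uda_yE {m : ℕ} (u : Fin m → Site) (d : Fin m → Fin 2) {i : ℕ} (hi : i < m) : supd (yE u d i).1 (u ⟨i, hi⟩) ≤ 1 := by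
  rw [yE, dif_pos hi]
  generalize d ⟨i, hi⟩ = e
  fin_cases e <;> simp [bondEdge, supd]

theorem uda_geo (hk : ConsOK R k) {b : BoundaryCondition} {T : Finset Site} {n m : ℕ} {v : Fin n → Site} {u : Fin m → Site}
    (d : Fin m → Fin 2) {j₁ js N₀ s : ℕ} {CS : ℝ} (hD : DomOK k b T v u j₁ js N₀ s CS) (hCS : 1 ≤ CS) (h1 : 1 ≤ j₁)
    {S : Finset Site} {g g₀ : HE → HE → ℝ} (hS : S ⊆ spinsOf v) (hc : S.card ≤ n) (he : Even n → Even S.card)
    (hg₀ : IsKer (wD b T ∅) g₀ ∧ FinRow g₀) (hg : S.Nonempty → IsKer (wD b T S) g ∧ KerB S g (k.p.l js) CS)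
    {Γ hh : ℕ → ℝ} (O : ℕ → Cfg → ℝ) (oS : ℕ → Finset Site)
    (g1 : ∀ j, j₁ ≤ j → k.Γs * CS * (n + 1) ≤ Γ j)
    (g2 : ∀ j, j₁ + 1 ≤ j → j < j₁ + 1 + s → k.K * (n + m + 1) * Γ (j + 1) ≤ Γ j)
    (g3 : ∀ j, k.Γs ≤ Γ j ∧ k.Γs ≤ Γ (j + 1) ∧ Γ (j + 1) ≤ 2 * Γ j ∧
      (j = 0 → k.Γs * k.p.l 1 * Γ 1 ≤ Γ 0 ∧ Γ 0 ≤ 4 * k.Γs * k.p.l 1 * Γ 1))
    (g4 : ∀ j, 0 < hh j ∧ 0 < hh (j + 1) ∧ hh (j + 1) ≤ (if (j : ℕ∞) < (j₁ + 1 : ℕ) then
      (if j = 0 then Γ 0 ^ 2 * k.p.l 1 / Γ 1 ^ 2 else (k.p.L : ℝ)) else 1) * hh j)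
    {j : ℕ} (hj : j < js) : GeoOK k.p k.K k.Γs (gDom R b T S g₀ g (j₁ + 1 : ℕ) Γ hh m (yE u d) O oS) j := by
  obtain ⟨ρ, hρ, hE⟩ := hD.reg
  have hl : k.K * k.p.l (j + 1) ≤ k.K * k.p.l js := Nat.mul_le_mul_left _ (uda_l_mono hk.pok hj)
  have hSv : ∀ w ∈ S, ∃ i, v i = w := fun w hw => by simpa [spinsOf] using hS hw
  have hcard : (S.card : ℝ) ≤ n := by exact_mod_cast hc
  have hΓs : 0 < k.Γs := zero_lt_one.trans_le hk.one.1
  obtain ⟨t1, t2, t3⟩ := geoOK_dom (R := R) (b := b) (T := T) (S := S) (gB := g₀) (gS := g) (jN := (j₁ + 1 : ℕ)) (Gam := Γ)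
    (h := hh) (m := m) (y := yE u d) (O := O) (oS := oS) (p := k.p) (K := k.K) (Γs := k.Γs) (ρ := ρ) (j := j)
    (le_trans (by exact_mod_cast hl) hρ) hE hg₀
    (fun w hw => by
      obtain ⟨i, rfl⟩ := hSv w hw
      have := hD.ins (Fin.castAdd m i)
      rw [Fin.append_left] at this
      exact (box_mono _ (by omega)).trans this)
    (fun i hi => by
      have := hD.ins (Fin.natAdd n ⟨i, hi⟩)
      rw [Fin.append_right] at this
      exact (box_subset_box (mem_box.2 (uda_yE u d hi)) (by omega)).trans this)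
  refine ⟨t1, t2, t3, fun hj' => ?_, fun hj' hne => ?_, fun hj' => ?_, g3 j, g4 j, fun h0 => ?_⟩
  · have hj1 : j < j₁ + 1 := by exact_mod_cast (show (j : ℕ∞) < (j₁ + 1 : ℕ) from hj')
    have hl' : k.K * k.p.l (j + 1) ≤ k.K * k.p.l (j₁ + 1) := Nat.mul_le_mul_left _ (uda_l_mono hk.pok hj1)
    refine ⟨fun w hw w' hw' hne => ?_, fun i hi w hw => ?_, fun i hi i' hi' hne => ?_⟩
    · obtain ⟨i, rfl⟩ := hSv w hw
      obtain ⟨i', rfl⟩ := hSv w' hw'
      have := hD.sep (Fin.castAdd m i) (Fin.castAdd m i') fun e => hne (by rw [Fin.castAdd_injective _ _ e])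
      rw [Fin.append_left, Fin.append_left] at this
      omega
    · obtain ⟨i', rfl⟩ := hSv w hw
      have := hD.sep (Fin.natAdd n ⟨i, hi⟩) (Fin.castAdd m i') fun e => by
        have := congrArg Fin.val e
        simp only [Fin.val_natAdd, Fin.val_castAdd] at this
        omega
      rw [Fin.append_right, Fin.append_left] at this
      have a1 := uda_yE u d hi
      have a2 := supd_triangle (u ⟨i, hi⟩) (yE u d i).1 (v i')
      rw [supd_comm] at a1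
      change _ ≤ supd (yE u d i).1 (v i')
      omega
    · have := hD.sep (Fin.natAdd n ⟨i, hi⟩) (Fin.natAdd n ⟨i', hi'⟩) fun e => by
        have := congrArg Fin.val e
        simp only [Fin.val_natAdd] at this
        omega
      rw [Fin.append_right, Fin.append_right] at this
      have a1 := uda_yE u d hi
      have a1' := uda_yE u d hi'
      have a2 := supd_triangle (u ⟨i, hi⟩) (yE u d i).1 (u ⟨i', hi'⟩)
      have a3 := supd_triangle (yE u d i).1 (yE u d i').1 (u ⟨i', hi'⟩)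
      rw [supd_comm] at a1
      change _ ≤ supd (yE u d i).1 (yE u d i').1
      omega
  · have hj1 : j₁ + 1 ≤ j + 1 := by exact_mod_cast (show ((j₁ + 1 : ℕ) : ℕ∞) ≤ (j + 1 : ℕ) from hj')
    obtain ⟨a1, a2⟩ := hg hne
    refine ⟨CS, hCS, le_trans ?_ (g1 j (by omega)), a1, fun l i i' b1 b2 b3 => a2 l i i' b1 (b2.trans (uda_l_mono hk.pok hj)) b3⟩
    change k.Γs * CS * ((S.card : ℝ) + 1) ≤ _
    gcongr
  · have hj1 : j₁ + 1 ≤ j := by exact_mod_cast (show ((j₁ + 1 : ℕ) : ℕ∞) ≤ j from hj')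
    obtain h0 | ⟨hn, xc, r₀, a1, a2⟩ := hD.clu
    · omega
    by_cases hjs : j < j₁ + 1 + s
    · refine Or.inr (le_trans ?_ (g2 j hj1 hjs))
      have := hΓs.trans_le (g3 j).2.1
      change (k.K * ((S.card : ℝ) + m + 1)) * Γ (j + 1) ≤ _
      gcongr
    · refine Or.inl ⟨xc, r₀ + 1, a1.trans (uda_l_mono hk.pok (by omega)), he hn, fun w hw => ?_, fun i hi => ?_⟩
      · obtain ⟨i, rfl⟩ := hSv w hw
        have := a2 (Fin.castAdd m i)
        rw [Fin.append_left] at this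
        exact box_mono _ (by omega) this
      · have := a2 (Fin.natAdd n ⟨i, hi⟩)
        rw [Fin.append_right] at this
        exact box_subset_box this le_rfl (mem_box.2 (uda_yE u d hi))
  · have : j₁ + 1 = 1 := by exact_mod_cast (show ((j₁ + 1 : ℕ) : ℕ∞) = 1 from h0)
    omega

/-- the geometry with spins and the geometry without spins are good: `G = max (2 Γ₁, Γf, Γs CS (n+1))`, `D = K (n+m+1)`,
`Λf = box x₀ ((N₀ + 7) ℓ_js)`, `Γf` from `ConsOK.fin (N₀ + 7) n CS` -/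
theorem good_dom (h : Ctx k R V c J lam C₁ B₁ ε₂ CM B) (n m N₀ s : ℕ) {CS : ℝ} (hCS : 1 ≤ CS) : ∃ (j₀ N : ℕ) (c₁ : ℝ), 0 < c₁ ∧
    ∀ (b : BoundaryCondition) (T : Finset Site) (v : Fin n → Site) (u : Fin m → Site) (d : Fin m → Fin 2) (j₁ js : ℕ),
      DomOK k b T v u j₁ js N₀ s CS → j₀ ≤ j₁ → j₁ ≤ js → ∃ (g g₀ : HE → HE → ℝ) (Γ hh : ℕ → ℝ) (Λf : Finset Site) (r : ℕ),
        R + 3 ≤ r ∧ c₁ * k.p.l j₁ ≤ hh js ∧ (∀ x ∈ T, box x (6 * k.p.l js) ⊆ Λf) ∧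
        ∀ S g', (S = spinsOf v ∧ g' = g ∨ S = ∅ ∧ g' = g₀) → Good k R c ε₂ CM
          (gDom R b T S g₀ g (j₁ + 1 : ℕ) Γ hh m (yE u d) (fun i => enO c (yE u d i)) fun i => enS (yE u d i))
          g' js (lamD R T) Λf (shapes T b R) (e1D b T r) N := by
  have hk := h.hk
  obtain ⟨Γf, hΓf⟩ := hk.fin (N₀ + 7) n CS
  set G := max (max (2 * k.Γ₁) Γf) (k.Γs * CS * (n + 1)) with hG
  set D : ℝ := k.K * (n + m + 1) with hD
  have hG1 : 2 * k.Γ₁ ≤ G := (le_max_left _ _).trans (le_max_left _ _)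
  have hG2 : Γf ≤ G := (le_max_right _ _).trans (le_max_left _ _)
  have hG3 : k.Γs * CS * (n + 1) ≤ G := le_max_right _ _
  have hΓ₁ : 1 ≤ k.Γ₁ := hk.one.1.trans hk.gam.1
  have hK : (20 : ℝ) ≤ k.K := by exact_mod_cast hk.big.2
  have hD1 : 1 ≤ D := by
    have : (0 : ℝ) ≤ n + m := by positivity
    rw [hD]
    nlinarith
  have hε := h.cst.2.1
  have hCM := h.cst.2.2.1
  have hG0 : 0 < G := by linarith
  obtain ⟨j₀, hj₀⟩ := pow_unbounded_of_one_lt (G * D ^ s) (one_lt_two (α := ℝ))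
  refine ⟨j₀ + 1, (2 * (N₀ + 7) + 3) ^ 2, ε₂ / ((G * D ^ s) ^ 2 * (CM * (m + 1))), by positivity,
    fun b T v u d j₁ js hD' hj₁ hjs => ?_⟩
  have h1 : 1 ≤ j₁ := by omega
  have hj : G * D ^ s ≤ k.Γ₁ * 2 ^ j₁ := by
    have a1 : (2 : ℝ) ^ j₀ ≤ 2 ^ j₁ := pow_le_pow_right₀ one_le_two (by omega)
    have a2 : (0 : ℝ) < 2 ^ j₁ := by positivity
    nlinarith
  obtain ⟨γ1, γ2, γ3, γ4, γ5, γ6, γ7⟩ := gamS_facts hk hG1 hD1 s h1 hj
  set Γ := gamS k G D s (j₁ + 1) with hΓ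
  have hΓ0 : ∀ j, 0 < Γ j := fun j => (zero_lt_one.trans_le hk.one.1).trans_le (γ7 j).1
  obtain ⟨η1, η2, η3, η4, η5⟩ := hS_facts hk hε hCM m h1 hΓ0 γ6 γ4
  set hh := hS k Γ ε₂ CM m (j₁ + 1) with hhh
  obtain ⟨g, hg1, hg2, hg3⟩ := hD'.ker
  obtain ⟨g₀, hg1', hg2', hg3'⟩ := hD'.ker₀
  obtain ⟨x₀, hx₀⟩ := hD'.bdd
  have hl0 : k.p.l0 ≤ k.p.l js := (D3.lam_eq hk.pok js).2.2.2.2.2
  have hR := hk.l0.2
  have hM : (N₀ + 7) * k.p.l js = N₀ * k.p.l js + 7 * k.p.l js := by ring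
  refine ⟨g, g₀, Γ, hh, box x₀ ((N₀ + 7) * k.p.l js), 2 * ((N₀ + 7) * k.p.l js) + 10 + (R + 3), by omega, η5 js hjs,
    fun x hx => box_subset_box (hx₀ hx) (by omega), fun S g' hS => ?_⟩
  have hinj : Function.Injective v := fun i i' e => by
    by_contra hne
    have := hD'.sep (Fin.castAdd m i) (Fin.castAdd m i') fun e => hne (Fin.castAdd_injective _ _ e)
    rw [Fin.append_left, Fin.append_left, e, supd_self] at this
    omega
  have hcv : (spinsOf v).card = n := by rw [spinsOf, Finset.card_image_of_injective _ hinj, Finset.card_univ, Fintype.card_fin]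
  obtain ⟨s1, s2, s3, s4, s5, s6, s7⟩ : S ⊆ spinsOf v ∧ S.card ≤ n ∧ (Even n → Even S.card) ∧ IsKer (wD b T S) g' ∧ FinRow g' ∧
      KerB S g' (k.p.l js) CS ∧ (S.Nonempty → g = g') := by
    rcases hS with ⟨rfl, rfl⟩ | ⟨rfl, rfl⟩
    · exact ⟨subset_rfl, hcv.le, by rw [hcv]; exact id, hg1, hg2, hg3, fun _ => rfl⟩
    · exact ⟨Finset.empty_subset _, by simp, fun _ => by simp, hg1', hg2', hg3', fun h => by simp at h⟩
  have hgeo : ∀ j < js, GeoOK k.p k.K k.Γs (gDom R b T S g₀ g (j₁ + 1 : ℕ) Γ hh m (yE u d) (fun i => enO c (yE u d i))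
      fun i => enS (yE u d i)) j := fun j hj =>
    uda_geo hk d hD' hCS h1 s1 s2 s3 ⟨hg1', hg2'⟩ (fun hne => by rw [s7 hne]; exact ⟨s4, s6⟩) _ _
      (fun j hj => hG3.trans (γ3 j hj)) γ5 γ7 η1 hj
  have hy : ∀ i < m, box (yE u d i).1 2 ⊆ T := fun i hi => by
    have := hD'.ins (Fin.natAdd n ⟨i, hi⟩)
    rw [Fin.append_right] at this
    exact (box_subset_box (mem_box.2 (uda_yE u d hi)) (by omega)).trans this
  have hST : S ⊆ T := fun w hw => by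
    obtain ⟨i, rfl⟩ : ∃ i, v i = w := by simpa [spinsOf] using s1 hw
    have := hD'.ins (Fin.castAdd m i)
    rw [Fin.append_left] at this
    exact this (self_mem_box _ _)
  have hN : ((j₁ + 1 : ℕ) : ℕ∞) ≠ 0 := by simp
  refine ⟨by omega, initOK_dom k.p c ?_ hD'.ext (fun i hi => ?_) fun _ i hi => ⟨rfl, rfl, ?_⟩, hgeo,
    Or.inl (pos_iff_ne_zero.2 hN), ⟨γ1, fun j _ => γ2 j⟩, ⟨?_, fun j _ a1 a2 => η3 j a1 ?_, fun a => absurd a hN, fun j _ a1 _ => ?_⟩,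
    finOK_dom s4 s5 hST hD'.ne hx₀ (by omega) (by omega), cov_box (by omega) x₀ _, ?_⟩
  · rcases hD'.bc with rfl | ⟨rfl, -⟩ <;> simp
  · obtain ⟨a1, a2, a3, a4⟩ := obs_en k.p hk.pok c (yE u d i)
    exact ⟨a1, a2, a3.trans ((box_mono _ one_le_two).trans (hy i hi)), a4⟩
  · exact (inside (r := 0) (hy i hi)).1 _ (supd_self _).le
  · exact (if_neg hN).symm ▸ η2
  · exact_mod_cast (show (j : ℕ∞) ≤ (j₁ + 1 : ℕ) from a2)
  · obtain rfl : j = j₁ + 1 := by exact_mod_cast (show (j : ℕ∞) = (j₁ + 1 : ℕ) from a1)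
    exact η4
  · obtain ⟨j, rfl⟩ : ∃ j, js = j + 1 := ⟨js - 1, by omega⟩
    exact hΓf _ j g' x₀ (hgeo j j.lt_succ_self) s2 s4 (fun _ hne => s7 hne) s6 (hG2.trans (γ3 _ hjs))

theorem udb_bond (z : Site) (j : Fin 2) :
    (bondEdge z j).1 ∈ box z 1 ∧ (bondEdge z j).1 + uv (bondEdge z j).2 ∈ box z 1 := by
  obtain ⟨z1, z2⟩ := z
  fin_cases j <;> simp [bondEdge, uv, mem_box'] <;> omega

theorem udb_zero (hJ : 0 < J) (hV : PotOK R V) {D : Set ℂ} {a : ℝ} (hD : (domainSites D a).Finite)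
    (hc : ExtConn (domainSites D a)) {b : BoundaryCondition} (hb : b ≠ .minus) {n m : ℕ} (x : Fin n → ℂ) (yy : Fin m → ℂ)
    (d : Fin m → Fin 2) (hx : Function.Injective fun i => meshIndex a (x i)) (hxT : ∀ i, meshIndex a (x i) ∈ domainSites D a)
    (hn : b = .free → Even n) (hy : Function.Injective fun i => meshIndex a (yy i))
    (hyT : ∀ i, ↑(box (meshIndex a (yy i)) 1) ⊆ domainSites D a) {r : ℕ} (hr : R + 3 ≤ r) {gB gS g g₀ : HE → HE → ℝ} {jN : ℕ∞}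
    {Gam h : ℕ → ℝ} {m' : ℕ} {y' : ℕ → Edge} {O' : ℕ → Cfg → ℝ} {oS' : ℕ → Finset Site} {Λf : Finset Site}
    (h1 : FinOK (gDom R b hD.toFinset (spinsOf fun i => meshIndex a (x i)) gB gS jN Gam h m' y' O' oS') g (lamD R hD.toFinset) Λf
      (shapes hD.toFinset b R) (e1D b hD.toFinset r))
    (h0 : FinOK (gDom R b hD.toFinset ∅ gB gS jN Gam h m' y' O' oS') g₀ (lamD R hD.toFinset) Λf
      (shapes hD.toFinset b R) (e1D b hD.toFinset r)) (O : ℕ → Cfg → ℝ) (oS : ℕ → Finset Site) :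
    domainMixedCorr D a b J 0 R V (criticalBeta J) x yy d =
      Zc (e1D b hD.toFinset r) (wD b hD.toFinset (spinsOf fun i => meshIndex a (x i))) / Zc (e1D b hD.toFinset r) (wD b hD.toFinset ∅) *
        cor m (bgE (gDom R b hD.toFinset (spinsOf fun i => meshIndex a (x i)) gB gS jN Gam h m
            (yE (fun i => meshIndex a (yy i)) d) O oS) g fun _ => -2)
          (bgE (gDom R b hD.toFinset ∅ gB gS jN Gam h m (yE (fun i => meshIndex a (yy i)) d) O oS) g₀ fun _ => -2) := by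
  have ht : Real.exp (-2 * criticalBeta J * J) = tOf (0, 0) := by rw [exp_critical hJ]; simp [tOf]
  have hΛ : ∀ i, ∀ z ∈ box (meshIndex a (yy i)) 1, z ∈ lamD R hD.toFinset := fun i z hz =>
    Finset.mem_biUnion.2 ⟨z, hD.mem_toFinset.2 (hyT i hz), self_mem_box _ _⟩
  have h2 : ∀ i < m, (yE (fun i => meshIndex a (yy i)) d i).1 ∈ lamD R hD.toFinset ∧
      (yE (fun i => meshIndex a (yy i)) d i).1 + uv (yE (fun i => meshIndex a (yy i)) d i).2 ∈ lamD R hD.toFinset := fun i hi => by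
    rw [yE, dif_pos hi]
    exact ⟨hΛ _ _ (udb_bond _ _).1, hΛ _ _ (udb_bond _ _).2⟩
  have h3 : ∀ i < m, ∀ i' < m, yE (fun i => meshIndex a (yy i)) d i = yE (fun i => meshIndex a (yy i)) d i' → i = i' :=
    fun i hi i' hi' e => by
      rw [yE, yE, dif_pos hi, dif_pos hi'] at e
      exact congrArg Fin.val (hy (BA.bondEdge_inj e).1)
  have tr : ∀ {S g}, FinOK (gDom R b hD.toFinset S gB gS jN Gam h m' y' O' oS') g (lamD R hD.toFinset) Λf
      (shapes hD.toFinset b R) (e1D b hD.toFinset r) → FinOK (gDom R b hD.toFinset S gB gS jN Gam h m (yE (fun i => meshIndex a (yy i)) d)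
        (fun i => enO (0, 0) (yE (fun i => meshIndex a (yy i)) d i)) oS) g (lamD R hD.toFinset) Λf
        (shapes hD.toFinset b R) (e1D b hD.toFinset r) := fun h1 => ⟨h1.ker, h1.vol, h1.big, h1.shp, h1.e₁, h1.e₂⟩
  rw [corr_dom (gB := gB) (gS := gS) (jN := jN) (Gam := Gam) (h := h) (oS := oS) hD hc hb ht hV x yy d hx hxT hn hyT hr, mul_zero,
    ztau_zero (tr h1) V (fun _ _ => rfl) h2 h3, ztau_zero (tr h0) V (fun _ _ => rfl) h2 h3, cor_smul]
  rfl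

/-- `good_dom`, `U_lat`, `corr_dom` (at `c` and at `(0,0)`, `lam = 0`, `exp_critical`), `ztau_zero`, `cor_smul`
(`FinOK` does not see `O`; for `m = 0` the unperturbed correlation is `Zc / Zc`) -/
theorem U_dom (hJ : 0 < J) (h : Ctx k R V c J lam C₁ B₁ ε₂ CM B) (n m N₀ s : ℕ) {CS : ℝ} (hCS : 1 ≤ CS) :
    ∃ C : ℝ, ∀ ε > 0, ∃ j₀ : ℕ, ∀ (D : Set ℂ) (a : ℝ) (hD : (domainSites D a).Finite) (b : BoundaryCondition)
      (x : Fin n → ℂ) (y : Fin m → ℂ) (d : Fin m → Fin 2) (j₁ js : ℕ),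
      DomOK k b hD.toFinset (fun i => meshIndex a (x i)) (fun i => meshIndex a (y i)) j₁ js N₀ s CS → j₀ ≤ j₁ → j₁ ≤ js →
      |domainMixedCorr D a b J lam R V (betaOf J c) x y d -
          Real.exp (lZs k R V c (betaOf J c * lam)) ^ n * zeC k R V c (betaOf J c * lam) ^ m *
            domainMixedCorr D a b J 0 R V (criticalBeta J) x y d| ≤
        ε * (|domainMixedCorr D a b J 0 R V (criticalBeta J) x y d| +
          (C / k.p.l j₁) ^ m * |domainMixedCorr D a b J 0 R V (criticalBeta J) x ![] ![]|) := by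
  obtain ⟨j₀, N, c₁, hc₁, hg⟩ := good_dom h n m N₀ s hCS
  refine ⟨c₁⁻¹, fun ε hε => ?_⟩
  obtain ⟨j₀', hU⟩ := U_lat h N n m ε hε
  refine ⟨max j₀ j₀', fun D a hD b x y d j₁ js hO h0 h1 => ?_⟩
  obtain ⟨g, g₀, Γ, hh, Λf, r, hr, hc, hΛ, hG⟩ := hg b _ _ _ d j₁ js hO ((le_max_left _ _).trans h0) h1
  have G1 := hG _ _ (Or.inl ⟨rfl, rfl⟩)
  have G0 := hG _ _ (Or.inr ⟨rfl, rfl⟩)
  have hinj : Function.Injective (Fin.append (fun i => meshIndex a (x i)) fun i => meshIndex a (y i)) := fun i i' e => by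
    by_contra hne
    have := hO.sep i i' hne
    rw [e, supd_self] at this
    omega
  have hx : Function.Injective fun i => meshIndex a (x i) := (Fin.append_injective_iff.1 hinj).1
  have hy : Function.Injective fun i => meshIndex a (y i) := (Fin.append_injective_iff.1 hinj).2.1
  have hbox : ∀ (z : Site) (r : ℕ), box z 1 ⊆ box z (r + 3) := fun z r w hw => mem_box.2 ((mem_box.1 hw).trans (by omega))
  have hxT : ∀ i, meshIndex a (x i) ∈ domainSites D a := fun i => by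
    have := hO.ins (Fin.castAdd m i) (self_mem_box _ _)
    rwa [Fin.append_left, hD.mem_toFinset] at this
  have hyT : ∀ i, ↑(box (meshIndex a (y i)) 1) ⊆ domainSites D a := fun i z hz => by
    have := hO.ins (Fin.natAdd n i)
    rw [Fin.append_right] at this
    exact hD.mem_toFinset.1 (this (hbox _ _ hz))
  have hE : ExtConn (domainSites D a) := by simpa using hO.ext
  have hb : b ≠ .minus := by rcases hO.bc with rfl | ⟨rfl, -⟩ <;> simp
  have hn : b = .free → Even n := by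
    rcases hO.bc with rfl | ⟨-, h⟩
    · simp
    · exact fun _ => h
  have key := hU _ (wD b hD.toFinset ∅) g g₀ j₁ js _ Λf _ _ G1 G0 (wD_eray b _ _) ((le_max_right _ _).trans h0) h1 rfl
    ((Finset.card_image_of_injective _ hx).trans (by simp)) rfl
    (fun v hv => by
      obtain ⟨i, -, rfl⟩ := Finset.mem_image.1 hv
      exact hΛ _ (hD.mem_toFinset.2 (hxT i)))
    (fun i hi => hΛ _ (hD.mem_toFinset.2 (hyT ⟨i, hi⟩ (by
      change (yE _ d i).1 ∈ _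
      rw [yE, dif_pos hi]
      exact (udb_bond _ _).1))))
  have e0 := udb_zero hJ h.hV hD hE hb x ![] ![] hx hxT hn (Function.injective_of_subsingleton _) (fun i => i.elim0) hr G1.fin G0.fin
    (fun _ _ => 0) fun _ => ∅
  have e1 : ∀ Z Z' : Al, cor 0 Z Z' = augE Z / augE Z' := fun Z Z' => by simp [cor, coefT, D4.augE_apply]
  rw [e1, aug_bgE, aug_bgE, div_one, mul_one] at e0
  rw [e0, udb_zero hJ h.hV hD hE hb x y d hx hxT hn hy hyT hr G1.fin G0.fin, corr_dom hD hE hb h.t h.hV x y d hx hxT hn hyT hr]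
  refine key.trans (mul_le_mul_of_nonneg_left (add_le_add le_rfl (mul_le_mul_of_nonneg_right ?_ (abs_nonneg _))) hε.le)
  have hl : (0 : ℝ) < k.p.l j₁ := by
    have := h.hk.pok
    exact_mod_cast Nat.mul_pos this.2.2.1 (pow_pos (by linarith [this.1]) _)
  have h5 : 0 < c₁ * k.p.l j₁ := by positivity
  refine pow_le_pow_left₀ (inv_nonneg.2 (h5.le.trans hc)) ?_ m
  rw [div_eq_mul_inv, ← mul_inv]
  exact inv_anti₀ h5 hc

end Crest.Agent.R165.D7
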