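import Crest.Agent.R165.D7.Dec
import Crest.Agent.R165.D7.Dom

/-! # R165 block D7: the universal constants -/

set_option autoImplicit false
noncomputable section
open Classical Filter Topology

namespace Crest.Agent.R165.D7

theorem una_geo {a : ℕ → ℝ} {C : ℝ} (h : ∀ j, |a j| ≤ C * vth ^ j) :
    Summable a ∧ |∑' j, a j| ≤ 2 * C := by
  have hv0 : (0 : ℝ) ≤ vth := by unfold vth; norm_num
  have hv1 : vth < 1 := by unfold vth; norm_num
  have hg : HasSum (fun j : ℕ => C * vth ^ j) (C * (1 - vth)⁻¹) := (hasSum_geometric_of_lt_one hv0 hv1).mul_left C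
  have hC : 0 ≤ C := by simpa using (abs_nonneg _).trans (h 0)
  refine ⟨Summable.of_norm_bounded hg.summable h, le_trans (tsum_of_norm_bounded (f := a) hg h) ?_⟩
  have : (1 - vth)⁻¹ ≤ 2 := by unfold vth; norm_num
  nlinarith

theorem una_box {p : Par} (hp : p.OK) {h : ℝ} {q : Site → Al} {α : ℝ} {j : ℕ}
    (hq : geoZ.SN (fun _ F t => BdT h F t) (p.l j) q α) {M ρ : ℕ} (hρ : ρ ≤ M * p.l j) :
    BdT h (∑ x ∈ box 0 ρ, q x) ((2 * M + 3) ^ 2 * α) := by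
  have hl : 1 ≤ p.l j := le_trans (by norm_num) (D6.l_pos hp j)
  have := sn_sum (M := M) hl hq {0} (box 0 ρ) fun x hx =>
    ⟨0, Finset.mem_singleton_self _, ((mem_box.1 hx)).trans hρ⟩
  simpa using this

/-- `FlowOK.en` for `gBr0`, `gPl0` (`geoOK_plane`, `initOK_plane`, `m = 0`), `sn_sum` -/
theorem lZs_facts (k : Cons) (C₁ : ℝ) : ∃ C₂ : ℝ, ∀ (R : ℕ) (V : Finset Site → ℝ) (c : ℝ × ℝ) (J lam B₁ ε₂ CM B : ℝ),
    Ctx k R V c J lam C₁ B₁ ε₂ CM B → |lZs k R V c (betaOf J c * lam)| ≤ C₂ * B ∧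
      Tendsto (lZp k R V c (betaOf J c * lam)) atTop (𝓝 (lZs k R V c (betaOf J c * lam))) := by
  refine ⟨2 * (2 * ((2 * ((6 * k.p.L : ℕ) : ℝ) + 3) ^ 2 * C₁)), fun R V c J lam B₁ ε₂ CM B h => ?_⟩
  have key : ∀ 𝔤 : Geom, InitOK k.p R c 𝔤 → (∀ j, GeoOK k.p k.K k.Γs 𝔤 j) → 𝔤.jN = ⊤ → 𝔤.Gam = k.Gam → 𝔤.m = 0 →
      ∀ j, |∑ x ∈ box 0 (6 * k.p.l (j + 1)), augE (𝔤.en k.p c (betaOf J c * lam) V j x)| ≤
        (2 * ((6 * k.p.L : ℕ) : ℝ) + 3) ^ 2 * (C₁ * B * vth ^ j) := by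
    intro 𝔤 hI hG hN hΓ hm j
    have hF := h.fl 𝔤 c _ B (j + 1) h.tu h.sm.1 h.sm.2.1 (Nat.succ_pos j) hI (fun i _ => hG i)
      (Or.inl (by rw [hN]; exact ENat.top_pos)) (by rw [hΓ]) (fun i _ => by rw [hΓ]) (Or.inl hm)
    have h1 := una_box (M := 6 * k.p.L) (ρ := 6 * k.p.l (j + 1)) h.hk.pok (hF.en j (Nat.lt_succ_self j))
      (le_of_eq (by rw [D6.l_succ, mul_assoc]))
    rw [← map_sum]
    exact (bdAx_BdT _).aug (Z := ∅) h1
  have hb := una_geo (C := 2 * ((2 * ((6 * k.p.L : ℕ) : ℝ) + 3) ^ 2 * C₁) * B)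
    (a := fun j => ∑ x ∈ box 0 (6 * k.p.l (j + 1)),
      (augE ((gBr0 R k.Gam).en k.p c (betaOf J c * lam) V j x) - augE ((gPl0 R k.Gam).en k.p c (betaOf J c * lam) V j x)))
    fun j => by
      have h1 := key _ (initOK_plane h.hk c k.Gam (fun _ => 1) ((0, 0), 0)).2.1 (fun i => (geoOK_plane h.hk i).2)
        rfl rfl rfl j
      have h2 := key _ (initOK_plane h.hk c k.Gam (fun _ => 1) ((0, 0), 0)).1 (fun i => (geoOK_plane h.hk i).1)
        rfl rfl rfl j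
      rw [Finset.sum_sub_distrib]
      refine (abs_sub _ _).trans ((add_le_add h1 h2).trans (le_of_eq ?_))
      ring
  exact ⟨hb.2.trans (le_of_eq (by ring)), hb.1.hasSum.tendsto_sum_nat⟩

/-- weights of the energy source of the plane -/
def univbH (k : Cons) (ε₂ : ℝ) (j : ℕ) : ℝ := ε₂ * (if j = 0 then (1 : ℝ) else (k.p.l j : ℝ)) / k.Gam j ^ 2

theorem univb_geo {R : ℕ} {k : Cons} (hk : ConsOK R k) {ε₂ : ℝ} (hε : 0 < ε₂) (c : ℝ × ℝ) (e : Edge) (j : ℕ) :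
    GeoOK k.p k.K k.Γs (gEn R k.Gam (univbH k ε₂) c e) j := by
  have hj : ((j : ℕ∞) < ⊤) := ENat.natCast_lt_top j
  have hj' : ∀ i : ℕ, ¬ ((⊤ : ℕ∞) ≤ i) := fun i h => (ENat.natCast_lt_top i).not_ge h
  have hΓ : ∀ i, 0 < k.Gam i := fun i => one_pos.trans_le (D5.one_le_Gam hk i)
  have hl : ∀ i, (0 : ℝ) < k.p.l i := fun i => one_pos.trans_le (D5.one_le_l' hk i)
  have hp : ∀ i, 0 < univbH k ε₂ i := fun i => by
    have := hΓ i
    have := hl i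
    unfold univbH
    split_ifs <;> positivity
  refine ⟨⟨_, le_rfl, Or.inl ⟨Set.univ, D5.consb_reg _, D5.consb_wPl, D5.consb_bb, fun h => absurd rfl h⟩⟩,
    fun v hv => absurd hv (Finset.notMem_empty v), fun i _ => ⟨abs_of_pos tc_pos.1, fun b hb => hb.elim⟩,
    fun _ => ⟨fun v hv => absurd hv (Finset.notMem_empty v), fun i _ v hv => absurd hv (Finset.notMem_empty v),
      fun i (hi : i < 1) i' (hi' : i' < 1) h => absurd (by omega) h⟩, fun h => absurd h (hj' _), fun h => absurd h (hj' _),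
    (D5.consb_gam hk j).1, ⟨hp _, hp _, ?_⟩, fun _ => rfl⟩
  change univbH k ε₂ (j + 1) ≤ (if (j : ℕ∞) < ⊤ then
    (if j = 0 then k.Gam 0 ^ 2 * k.p.l 1 / k.Gam 1 ^ 2 else (k.p.L : ℝ)) else 1) * univbH k ε₂ j
  rw [if_pos hj, univbH, univbH, if_neg (Nat.succ_ne_zero j)]
  split_ifs with h0
  · subst h0
    have := hΓ 0
    exact le_of_eq (by simp only [zero_add]; field_simp)
  · have h1 : k.Gam j ≤ k.Gam (j + 1) := by
      have := hΓ j
      rw [Cons.Gam, if_neg h0] at this ⊢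
      rw [Cons.Gam, if_neg (Nat.succ_ne_zero j), pow_succ]
      linarith
    have := hl j
    rw [D6.l_succ, Nat.cast_mul, ← mul_div_assoc, mul_left_comm]
    exact div_le_div_of_nonneg_left (by positivity) (pow_pos (hΓ j) 2) (pow_le_pow_left₀ (hΓ j).le h1 2)

theorem univb_cE (p : Par) (R : ℕ) (Γ h h' : ℕ → ℝ) (c : ℝ × ℝ) (e : Edge) (μ : ℝ) (V : Finset Site → ℝ) (j i : ℕ) :
    (gEn R Γ h c e).cE p c μ V j i = (gEn R Γ h' c e).cE p c μ V j i := by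
  have h1 : (gEn R Γ h c e).sp p = (gEn R Γ h' c e).sp p := rfl
  have h2 : (gEn R Γ h c e).s0 p c μ V = (gEn R Γ h' c e).s0 p c μ V := rfl
  have h3 : (gEn R Γ h c e).obsC = (gEn R Γ h' c e).obsC := rfl
  have h4 : (gEn R Γ h c e).y = (gEn R Γ h' c e).y := rfl
  simp only [Geom.cE, Geom.st, h1, h2, h3, h4]

/-- `FlowOK.cE` for `gEn R k.Gam h` with `h 0 = ε₂ / Γ₀²`, `h j = ε₂ ℓ_j / Γ_j²` (the flow does not depend on `h`);
`cE 1 = cE 0 = -2 (1 + z₀ + ν₀ / tc)` -/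
theorem zeC_facts (k : Cons) (C₁ ε₂ : ℝ) : ∃ C₂ : ℝ, ∀ (R : ℕ) (V : Finset Site → ℝ) (c : ℝ × ℝ) (J lam B₁ CM B : ℝ),
    Ctx k R V c J lam C₁ B₁ ε₂ CM B → |zeC k R V c (betaOf J c * lam) - 1| ≤ C₂ * B ∧
      Tendsto (fun j => (gEn R k.Gam (fun _ => 1) c ((0, 0), 0)).cE k.p c (betaOf J c * lam) V j 0 / (-2)) atTop
        (𝓝 (zeC k R V c (betaOf J c * lam))) := by
  refine ⟨4 + C₁ * k.p.l 0 / ε₂, fun R V c J lam B₁ CM B h => ?_⟩
  have hk := h.hk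
  have hε := h.cst.2.1
  have hB : 0 ≤ B := (abs_nonneg _).trans h.sm.1
  have hC : 0 ≤ C₁ * B := mul_nonneg (by linarith [h.cst.1]) hB
  have hw : ∀ j, univbH k ε₂ j * k.Gam j ^ 2 = ε₂ * if j = 0 then 1 else (k.p.l j : ℝ) := fun j =>
    div_mul_cancel₀ _ (pow_pos (one_pos.trans_le (D5.one_le_Gam hk j)) 2).ne'
  obtain ⟨u, hu⟩ : ∃ u : ℕ → ℝ,
    u = fun j => (gEn R k.Gam (fun _ => 1) c ((0, 0), 0)).cE k.p c (betaOf J c * lam) V j 0 / (-2) := ⟨_, rfl⟩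
  have h1 : ∀ j, dist (u (j + 1)) (u (j + 1 + 1)) ≤ C₁ * B * k.p.l 0 / (2 * ε₂) * vth ^ j := fun j => by
    have a1 : |(gEn R k.Gam (univbH k ε₂) c ((0, 0), 0)).cE k.p c (betaOf J c * lam) V (j + 2) 0 -
        (gEn R k.Gam (univbH k ε₂) c ((0, 0), 0)).cE k.p c (betaOf J c * lam) V (j + 1) 0| ≤
        C₁ * B * vth ^ j * k.p.l j / (k.Gam j ^ 2 * univbH k ε₂ j) :=
      (h.fl (gEn R k.Gam (univbH k ε₂) c ((0, 0), 0)) c _ B (j + 1) h.tu h.sm.1 h.sm.2.1 j.succ_pos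
        (initOK_plane hk c _ _ _).2.2 (fun i _ => univb_geo hk hε c _ i) (Or.inr rfl) rfl (fun _ _ => le_rfl)
        (Or.inr ⟨(if_neg ENat.top_ne_zero).mpr ((hw 0).trans (by simp)), fun i _ hi _ => (hw i).trans (by rw [if_neg (by omega)]),
          fun _ => le_rfl, fun i _ hi => absurd hi (ENat.natCast_lt_top i).ne⟩)).cE j j.lt_succ_self 0 one_pos
        (ENat.natCast_lt_top j)
    rw [mul_comm (k.Gam j ^ 2), hw, univb_cE _ _ _ _ fun _ => 1, univb_cE _ _ _ (univbH k ε₂) fun _ => 1] at a1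
    rw [hu, Real.dist_eq, ← sub_div, abs_div, abs_sub_comm, abs_neg, abs_two, div_le_iff₀ two_pos]
    refine a1.trans ?_
    have a2 := D5.one_le_l' hk j
    have a3 := D5.one_le_l' hk 0
    have a4 := pow_pos D5.vth_pos j
    split_ifs with h0
    · subst h0
      exact le_of_eq (by field_simp)
    · rw [show C₁ * B * vth ^ j * k.p.l j / (ε₂ * k.p.l j) = C₁ * B * 1 / (2 * ε₂) * vth ^ j * 2 by field_simp]
      gcongr
  have hv : vth < 1 := by norm_num [vth]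
  obtain ⟨a, ha⟩ := cauchySeq_tendsto_of_complete (cauchySeq_of_le_geometric vth _ hv h1)
  have h2 := dist_le_of_le_geometric_of_tendsto₀ vth _ hv h1 ha
  rw [tendsto_add_atTop_iff_nat 1] at ha
  have h3 : zeC k R V c (betaOf J c * lam) = a := by rw [zeC, ← hu]; exact ha.limUnder_eq
  rw [h3, ← hu]
  refine ⟨?_, ha⟩
  obtain ⟨-, -, b1, b2⟩ := D5.consc_tOf h.sm.2.2.1 h.sm.2.2.2.1
  have h4 : u (0 + 1) = 1 + c.2 + c.1 / tc := by
    have : ∀ x, ((gEn R k.Gam (fun _ => 1) c ((0, 0), 0)).st k.p c (betaOf J c * lam) V 0).qm x = 0 := fun x => rfl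
    have := tc_pos.1
    simp only [Geom.cE, zero_add, Finset.range_one, Finset.sum_singleton, *, ZeroMemClass.coe_zero, map_zero,
      Finset.sum_const_zero, add_zero, tOf]
    field_simp
  have h5 : |c.1 / tc| ≤ 3 * B := by
    rw [abs_div, abs_of_pos tc_pos.1, div_le_iff₀ tc_pos.1]
    nlinarith [h.sm.2.2.2.2.1]
  have h6 : C₁ * B * k.p.l 0 / (2 * ε₂) / (1 - vth) ≤ C₁ * k.p.l 0 / ε₂ * B := by
    rw [div_le_iff₀ (sub_pos.2 hv), show C₁ * B * k.p.l 0 / (2 * ε₂) = C₁ * B * k.p.l 0 / ε₂ * (1 / 2) by ring,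
      show C₁ * k.p.l 0 / ε₂ * B = C₁ * B * k.p.l 0 / ε₂ by ring]
    exact mul_le_mul_of_nonneg_left (by norm_num [vth]) (by positivity)
  rw [Real.dist_eq, h4, abs_le] at h2
  have h7 := abs_le.1 h.sm.2.2.2.2.2
  rw [abs_le] at h5 ⊢
  constructor <;> linarith [h2.1, h2.2, h5.1, h5.2, h7.1, h7.2]

theorem una_coef_sum {ι : Type} (l : List ℕ) (s : Finset ι) (F : ι → Al) :
    coefT l (∑ i ∈ s, F i) = ∑ i ∈ s, coefT l (F i) := by
  unfold coefT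
  rw [AddSubmonoidClass.coe_finsetSum, map_sum, map_sum]

theorem una_bdd {O : Cfg → ℝ} {s : Finset Edge} (hO : DependsOn O ↑s) : ∃ b, ∀ n, |O n| ≤ b := by
  refine ⟨∑ u : s → Bool, |O fun e => if h : e ∈ s then u ⟨e, h⟩ else false|, fun n => ?_⟩
  have h1 : O n = O fun e => if h : e ∈ s then (fun e' : s => n e') ⟨e, h⟩ else false :=
    hO fun e he => by rw [dif_pos (Finset.mem_coe.1 he)]
  rw [h1]
  exact Finset.single_le_sum (f := fun u : s → Bool => |O fun e => if h : e ∈ s then u ⟨e, h⟩ else false|)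
    (fun _ _ => abs_nonneg _) (Finset.mem_univ fun e' : s => n e')

theorem una_geoOK {k : Cons} {R : ℕ} (hk : ConsOK R k) {t : ℝ} (ht : 0 < t) (O : Cfg → ℝ) (r j : ℕ) :
    GeoOK k.p k.K k.Γs (gObs k R t O r) j := by
  have hj : ¬ ((j : ℕ∞) < 0) := not_lt_bot
  refine ⟨⟨_, le_rfl, Or.inl ⟨Set.univ, D5.consb_reg _, D5.consb_wPl, D5.consb_bb, fun h => absurd rfl h⟩⟩,
    fun v hv => absurd hv (Finset.notMem_empty v), fun i _ => ⟨abs_of_pos tc_pos.1, fun b hb => hb.elim⟩,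
    fun h => absurd h hj, fun _ h => absurd h Finset.not_nonempty_empty,
    fun _ => Or.inl ⟨(0, 0), 0, Nat.zero_le _, Even.zero, fun v hv => absurd hv (Finset.notMem_empty v),
      fun i _ => mem_box.2 (le_of_eq (supd_self _))⟩, (D5.consb_gam hk j).1, ⟨ht, ht, ?_⟩, fun _ => rfl⟩
  change t ≤ (if (j : ℕ∞) < 0 then
    (if j = 0 then k.Gam 0 ^ 2 * k.p.l 1 / k.Gam 1 ^ 2 else (k.p.L : ℝ)) else 1) * t
  rw [if_neg hj, one_mul]

theorem una_initOK {k : Cons} {R : ℕ} (hk : ConsOK R k) (c : ℝ × ℝ) (t : ℝ) {O : Cfg → ℝ} {r : ℕ}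
    (hO : DependsOn O ↑(edgesIn (box 0 r))) : InitOK k.p R c (gObs k R t O r) :=
  ⟨fun _ hB => ⟨hB, Set.subset_univ _⟩, fun _ hB _ => hB, fun _ _ => ⟨trivial, trivial⟩,
    (initOK_plane hk c k.Gam (fun _ => 1) ((0, 0), 0)).1.wle,
    fun _ _ => ⟨conn_box k.p hk.pok r, mem_box.2 ((le_of_eq (supd_self _)).trans (Nat.zero_le r)), Set.subset_univ _, hO⟩,
    fun h => absurd h (lt_irrefl _)⟩

theorem una_en (k : Cons) (R : ℕ) (t : ℝ) (O : Cfg → ℝ) (r : ℕ) (c : ℝ × ℝ) (μ : ℝ) (V : Finset Site → ℝ) :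
    (gObs k R t O r).en k.p c μ V = (gObs k R 1 O r).en k.p c μ V := rfl

/-- `FlowOK.en` for `gObs k R h O r` with a small constant `h` (`Src0`; the flow does not depend on `h`) -/
theorem eT_obs_tendsto {k : Cons} {R : ℕ} {V : Finset Site → ℝ} {c : ℝ × ℝ} {J lam C₁ B₁ ε₂ CM B : ℝ}
    (h : Ctx k R V c J lam C₁ B₁ ε₂ CM B) (O : Cfg → ℝ) (r : ℕ) (hO : DependsOn O ↑(edgesIn (box 0 r))) :
    Tendsto (fun j₁ => eT k (gObs k R 1 O r) c (betaOf J c * lam) V j₁ 0) atTop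
      (𝓝 (∑' j, ∑ x ∈ box 0 (k.p.rho j), coefT [0] ((gObs k R 1 O r).en k.p c (betaOf J c * lam) V j x))) := by
  obtain ⟨b, hb⟩ := una_bdd hO
  have hb0 : 0 ≤ b := (abs_nonneg _).trans (hb fun _ => false)
  have ha := D6.one_le_a h.hk
  have hε := h.cst.2.1
  obtain ⟨A, hA⟩ : ∃ A, A = (3 * k.a) ^ (box (0 : Site) r).card * (1 + 4 * k.Γ₀ ^ 2) ^ (edgesIn (box 0 r)).card := ⟨_, rfl⟩
  have hA0 : 0 < A := by rw [hA]; positivity
  obtain ⟨t, ht⟩ : ∃ t, t = ε₂ / (A * (b + 1)) := ⟨_, rfl⟩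
  have ht0 : 0 < t := by rw [ht]; positivity
  have hS : ∀ js, SrcOK k (gObs k R t O r) js ε₂ CM := fun js => by
    refine ⟨?_, fun j _ h1 h2 => ?_, fun _ => le_rfl, fun j _ h1 h2 => ?_⟩
    · rw [if_pos (show (gObs k R t O r).jN = 0 from rfl)]
      refine ⟨fun _ => b, fun _ _ n => hb n, ?_⟩
      change ∑ _i ∈ Finset.range 1, (3 * k.a) ^ (box (0 : Site) r).card *
        (1 + 4 * k.Γ₀ ^ 2) ^ (edgesIn (box 0 r)).card * (t * b) ≤ ε₂
      rw [Finset.sum_range_one, ← hA, ht, show A * (ε₂ / (A * (b + 1)) * b) = ε₂ * (b / (b + 1)) by field_simp]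
      exact mul_le_of_le_one_right hε.le ((div_le_one (by linarith)).2 (by linarith))
    · have h3 : (j : ℕ∞) ≤ 0 := h2
      have h4 : j = 0 := by exact_mod_cast le_antisymm h3 zero_le
      omega
    · have h3 : (j : ℕ∞) = 0 := h1
      exact absurd (by exact_mod_cast h3) h2
  have hsum := una_geo (C := (2 * ((6 : ℕ) : ℝ) + 3) ^ 2 * (C₁ * B) * t⁻¹)
    (a := fun j => ∑ x ∈ box 0 (k.p.rho j), coefT [0] ((gObs k R 1 O r).en k.p c (betaOf J c * lam) V j x)) fun j => by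
      have hF := h.fl (gObs k R t O r) c _ B (j + 1) h.tu h.sm.1 h.sm.2.1 (Nat.succ_pos j) (una_initOK h.hk c t hO)
        (fun i _ => una_geoOK h.hk ht0 O r i) (Or.inr rfl) rfl (fun i _ => le_rfl) (Or.inr (hS _))
      have hl := D6.l_pos h.hk.pok j
      have h1 := una_box (M := 6) (ρ := k.p.rho j) h.hk.pok (hF.en j (Nat.lt_succ_self j)) (by unfold Par.rho; omega)
      have h2 := BdT.coef ht0 h1 [0]
      rw [una_coef_sum, una_en] at h2
      refine h2.trans (le_of_eq ?_)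
      rw [List.length_singleton]
      ring
  exact hsum.1.hasSum.tendsto_sum_nat

end Crest.Agent.R165.D7
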